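import Mathlib

/-!
# Row 114, statement S0153 (separable quotient from a total diffuse measure): definitions

`SQ 𝕜 X`   : `X` has a separable infinite-dimensional quotient.
`Unc φ`    : the finite spans of `φ` are normed by vectors killed by all the other `φ j`.
`Shr φ`    : tail norms of every vector tend to zero.
`L1 φ δ`   : lower ℓ¹ estimate.
`Blk v w`  : `w` is an ℓ¹-normalised block sequence of `v`.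
`Stable v d` : `sup_{‖x‖≤1} limsup ‖w k x‖ = d` for `v` and all its blocks.
-/

set_option autoImplicit false

namespace Crest.Agent.R114

open Filter

/-- `X` has a separable infinite-dimensional quotient. -/
def SQ (𝕜 : Type) [RCLike 𝕜] (X : Type*) [NormedAddCommGroup X] [NormedSpace 𝕜 X] : Prop :=
  ∃ M : Submodule 𝕜 X, IsClosed (M : Set X) ∧
    TopologicalSpace.SeparableSpace (X ⧸ M) ∧ ¬ FiniteDimensional 𝕜 (X ⧸ M)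

variable {𝕜 : Type} [RCLike 𝕜] {X : Type*} [NormedAddCommGroup X] [NormedSpace 𝕜 X]

def Unc (φ : ℕ → X →L[𝕜] 𝕜) : Prop :=
  ∀ (F : Finset ℕ) (a : ℕ → 𝕜) (ε : ℝ), 0 < ε → ∃ x : X, ‖x‖ ≤ 1 ∧ (∀ j, j ∉ F → φ j x = 0) ∧
    ‖∑ i ∈ F, a i • φ i‖ - ε ≤ ‖∑ i ∈ F, a i * φ i x‖

def Shr (φ : ℕ → X →L[𝕜] 𝕜) : Prop :=
  ∀ (x : X) (ε : ℝ), 0 < ε → ∃ n : ℕ, ∀ (F : Finset ℕ) (a : ℕ → 𝕜), (∀ i ∈ F, n ≤ i) →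
    ‖∑ i ∈ F, a i * φ i x‖ ≤ ε * ‖∑ i ∈ F, a i • φ i‖

def L1 (φ : ℕ → X →L[𝕜] 𝕜) (δ : ℝ) : Prop :=
  ∀ (F : Finset ℕ) (a : ℕ → 𝕜), δ * ∑ i ∈ F, ‖a i‖ ≤ ‖∑ i ∈ F, a i • φ i‖

def Blk (v w : ℕ → X →L[𝕜] 𝕜) : Prop :=
  ∃ (G : ℕ → Finset ℕ) (c : ℕ → ℕ → 𝕜),
    (∀ k l, k < l → ∀ i ∈ G k, ∀ j ∈ G l, i < j) ∧ (∀ k, ∑ i ∈ G k, ‖c k i‖ = 1) ∧
    ∀ k, w k = ∑ i ∈ G k, c k i • v i

def Stable (v : ℕ → X →L[𝕜] 𝕜) (d : ℝ) : Prop :=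
  (∀ x : X, ‖x‖ ≤ 1 → ∀ ε : ℝ, 0 < ε → ∀ᶠ k in atTop, ‖v k x‖ ≤ d + ε) ∧
  ∀ w, Blk v w → ∀ ε : ℝ, 0 < ε → ∃ x : X, ‖x‖ ≤ 1 ∧ ∃ᶠ k in atTop, d - ε ≤ ‖w k x‖

/-- the sign attached to a boolean -/
def sg (𝕜 : Type) [RCLike 𝕜] (b : Bool) : 𝕜 := if b then 1 else -1

/-- A Cantor family of functionals: every finitely determined sign pattern is realised
(up to `d/4`) by a vector of the unit ball. -/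
def Cantor (θ : (ℕ → Bool) → X →L[𝕜] 𝕜) (d : ℝ) : Prop :=
  (∀ b, ‖θ b‖ ≤ 1) ∧ ∀ (n : ℕ) (f : (Fin n → Bool) → Bool), ∃ x : X, ‖x‖ ≤ 1 ∧
    ∀ b : ℕ → Bool, ‖θ b x - (d : 𝕜) * sg 𝕜 (f fun i => b i)‖ ≤ d / 4

end Crest.Agent.R114
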