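import Crest.Agent.R114.QDefs

/-!
# Task R114-QFree (free-set lemma for a total measure)

Iterated total measures on tuples/lists: give `List S` (or `Fin r → S`, or `ℕ → S`) the σ-algebra `⊤`, put
`M 0 = dirac []`, `M (r+1) = ν.bind fun t => (M r).map (List.cons t)` (everything is measurable for `⊤`;
all `M r` are probability measures), and
`(∀ᵐ l ∂M (r+1), p l) ↔ ∀ᵐ t ∂ν, ∀ᵐ l ∂M r, p (t :: l)` (`Measure.bind_apply`, `lintegral_eq_zero_iff`, `ae_map_iff`).
Let `ext l : ℕ → S` extend a list by a default value, and `P l := ∀ a j, j ∉ F a → j < l.length →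
(∀ i ∈ F a, i < l.length) → (ext l j, code a (ext l)) ∉ Bad`.
Claim 1: `∀ r, ∀ᵐ l ∂M r, P l` (countably many `a, j`: `ae_all_iff`).  For fixed `a, j` prove by induction on the
prefix: for every list `l₀` of length `≤ j`, `∀ᵐ l ∂M (r - |l₀|), (ext (l₀ ++ l) j, code a (ext (l₀ ++ l))) ∉ Bad`;
at `|l₀| = j` this is `∀ᵐ t ∂ν, ∀ᵐ l ∂M r', (t, c l) ∉ Bad` with `c l = code a (ext (l₀ ++ t₀ :: l))` independent of `t`
by `hloc`; swap with `Measure.ae_ae_comm` (the set is the preimage of `Badᶜ` under `Prod.map id c`, measurable for the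
product σ-algebra since `c` is measurable from `⊤`), then use `hnull`.
Claim 2: `Q l := ∀ r, ∀ᵐ l' ∂M r, P (l ++ l')`; `Q []`, `Q l → ∀ᵐ t ∂ν, Q (l ++ [t])`, so pick `t`; `Q l → P l`.
The increasing lists define `s`; use `hloc` to pass from `ext l` to `s`.
Any other proof of the same statement is welcome.
-/

set_option autoImplicit false

namespace Crest.Agent.R114

open Filter MeasureTheory

namespace Free

variable {S C : Type} [MeasurableSpace S] [DiscreteMeasurableSpace S] (ν : Measure S)
  [IsProbabilityMeasure ν] [MeasurableSpace C]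

/-- iterated almost-everywhere quantifier over the coordinates `n, …, n + r - 1` -/
def Q : ℕ → ℕ → ((ℕ → S) → Prop) → (ℕ → S) → Prop
  | 0, _, P, s => P s
  | r + 1, n, P, s => ∀ᵐ t ∂ν, Q r (n + 1) P (Function.update s n t)

/-- the distribution of `c` -/
noncomputable def D (c : (ℕ → S) → C) : ℕ → ℕ → (ℕ → S) → Measure C
  | 0, _, s => Measure.dirac (c s)
  | r + 1, n, s => ν.bind fun t => D c r (n + 1) (Function.update s n t)

theorem prob_D (c : (ℕ → S) → C) (r n : ℕ) (s : ℕ → S) : IsProbabilityMeasure (D ν c r n s) := by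
  induction r generalizing n s with
  | zero => exact Measure.dirac.isProbabilityMeasure
  | succ r ih => exact isProbabilityMeasure_bind .of_discrete (.of_forall fun t => ih _ _)

theorem ae_D (c : (ℕ → S) → C) {A : Set C} (hA : MeasurableSet A) (r n : ℕ) (s : ℕ → S) :
    (∀ᵐ y ∂D ν c r n s, y ∉ A) ↔ Q ν r n (fun s => c s ∉ A) s := by
  induction r generalizing n s with
  | zero => exact ae_dirac_iff hA.compl
  | succ r ih =>
    simp only [Q, ← ih, ← measure_eq_zero_iff_ae_notMem]
    rw [D, Measure.bind_apply hA .of_discrete, lintegral_eq_zero_iff .of_discrete]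
    rfl

theorem Q_mono {P P' : (ℕ → S) → Prop} {R : (ℕ → S) → (ℕ → S) → Prop} {m : ℕ}
    (hR : ∀ s s' n t, m ≤ n → R s s' → R (Function.update s n t) (Function.update s' n t))
    (hP : ∀ s s', R s s' → P s → P' s') (r n : ℕ) (hn : m ≤ n) (s s' : ℕ → S) (h : R s s')
    (hQ : Q ν r n P s) : Q ν r n P' s' := by
  induction r generalizing n s s' with
  | zero => exact hP _ _ h hQ
  | succ r ih => exact Eventually.mono hQ fun t => ih _ (by omega) _ _ (hR _ _ _ _ hn h)

theorem Q_of_forall {P : (ℕ → S) → Prop} (hP : ∀ s, P s) (r n : ℕ) (s : ℕ → S) : Q ν r n P s := by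
  induction r generalizing n s with
  | zero => exact hP s
  | succ r ih => exact .of_forall fun t => ih _ _

theorem claim {Bad : Set (S × C)} (hB : MeasurableSet Bad) {c : (ℕ → S) → C} {j : ℕ}
    (hc : ∀ s s', (∀ i ≠ j, s i = s' i) → c s = c s') (hnull : ∀ s, ∀ᵐ t ∂ν, (t, c s) ∉ Bad)
    (r n : ℕ) (hn : n ≤ j) (hr : j < n + r) (s : ℕ → S) : Q ν r n (fun s => (s j, c s) ∉ Bad) s := by
  induction r generalizing n s with
  | zero => omega
  | succ r ih =>
    rcases hn.lt_or_eq with hn | rfl
    · exact .of_forall fun t => ih _ hn (by omega) _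
    haveI := prob_D ν c r (n + 1) s
    have h1 : ∀ᵐ y ∂D ν c r (n + 1) s, y ∉ {y | ν ((fun t => (t, y)) ⁻¹' Bad) = 0}ᶜ :=
      (ae_D ν c (measurable_measure_prodMk_right hB (measurableSet_singleton 0)).compl ..).2
        (Q_of_forall ν (fun s => not_not.2 (measure_eq_zero_iff_ae_notMem.2 (hnull s))) ..)
    have h2 := (Measure.ae_ae_comm (μ := ν) (ν := D ν c r (n + 1) s)
      (p := fun t y => (t, y) ∉ Bad) hB.compl).2
      (h1.mono fun y hy => measure_eq_zero_iff_ae_notMem.1 (not_not.1 hy))
    refine h2.mono fun t ht => ?_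
    refine Q_mono ν (R := fun s s' => s' n = t ∧ ∀ i ≠ n, s i = s' i) (m := n + 1) ?_ ?_ r _ le_rfl s _
      ⟨by simp, fun i hi => by simp [hi]⟩
      ((ae_D ν c (measurable_prodMk_left hB) ..).1 ht)
    · rintro s s' k u hk ⟨h1, h2⟩
      refine ⟨by rwa [Function.update_of_ne (by omega)], fun i hi => ?_⟩
      by_cases e : i = k <;> simp [Function.update_apply, e, h2 i hi]
    · rintro s s' ⟨h1, h2⟩ h
      rwa [h1, ← hc s s' h2]

end Free

open Free in
theorem free_seq {S C ι : Type} [MeasurableSpace S] [DiscreteMeasurableSpace S] (ν : Measure S)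
    [IsProbabilityMeasure ν] [MeasurableSpace C] [Countable ι] (Bad : Set (S × C))
    (hB : MeasurableSet Bad) (F : ι → Finset ℕ) (code : ι → (ℕ → S) → C)
    (hloc : ∀ a s s', (∀ i ∈ F a, s i = s' i) → code a s = code a s')
    (hnull : ∀ a s, ∀ᵐ t ∂ν, (t, code a s) ∉ Bad) :
    ∃ s : ℕ → S, ∀ a j, j ∉ F a → (s j, code a s) ∉ Bad := by
  obtain ⟨t₀⟩ := nonempty_of_isProbabilityMeasure ν
  let W : ℕ → (ℕ → S) → Prop := fun n s => ∀ a j r, j ∉ F a → j < n + r →
    Q ν r n (fun s => (s j, code a s) ∉ Bad) s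
  have h0 : W 0 fun _ => t₀ := fun a j r hj hr => claim ν hB
    (fun s s' h => hloc a s s' fun i hi => h i fun (e : i = j) => hj (e ▸ hi)) (hnull a) r 0 j.zero_le hr _
  have h1 : ∀ n s, ∃ t, W n s → W (n + 1) (Function.update s n t) := by
    intro n s
    by_cases h : W n s
    · have : ∀ᵐ t ∂ν, W (n + 1) (Function.update s n t) := by
        simp only [W, ae_all_iff]
        exact fun a j r hj hr => h a j (r + 1) hj (by omega)
      exact this.exists.imp fun _ h _ => h
    · exact ⟨t₀, fun h' => absurd h' h⟩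
  choose f hf using h1
  let u : ℕ → ℕ → S := fun n => Nat.rec (fun _ => t₀) (fun n s => Function.update s n (f n s)) n
  have hu : ∀ n, W n (u n) := fun n => by
    induction n with
    | zero => exact h0
    | succ n ih => exact hf _ _ ih
  have hs : ∀ i n, i + 1 ≤ n → u n i = u (i + 1) i := fun i n h => by
    induction n, h using Nat.le_induction with
    | base => rfl
    | succ n h ih => exact (Function.update_of_ne (by omega) _ _).trans ih
  refine ⟨fun i => u (i + 1) i, fun a j hj => ?_⟩
  obtain ⟨n, hn⟩ := (insert j (F a)).exists_nat_subset_range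
  have hn' := fun i hi => hs i n (Finset.mem_range.1 (hn hi))
  have := hu n a j 0 hj (Finset.mem_range.1 (hn (Finset.mem_insert_self _ _)))
  beta_reduce
  rwa [← hn' j (Finset.mem_insert_self _ _),
    ← hloc a (u n) _ fun i hi => hn' i (Finset.mem_insert_of_mem hi)]

end Crest.Agent.R114
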