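import Crest.Agent.R114.QDefs

/-!
# Task R114-QLemA (Saxon–Wilansky direction + "dual lower bound ⇒ surjective")

`lemA`.  Let `W = {x | ∀ k, ‖h k x‖ ≤ 1}`, `D = {x | sup_k ‖h k x‖ < ∞}` (a submodule, `D = ⋃ C•W`).
Build recursively biorthogonal `(x_n, g_n)`, `x_n ∈ D`, `g_n x_m = δ_{nm}`, with numbers `S_n`:
`∀ w ∈ W, ‖g_n w‖ ≤ S_n` and `S_n * ‖x_n‖ ≤ 2^{-n}`.
Step: `P x = x - ∑_{i<n} g_i x • x_i` (continuous projection, `P x_i = 0`, `g_i (P x) = 0`, `P (P x) = P x`,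
`P D ⊆ D`).  `g = h_k ∘ P = h_k - ∑ h_k(x_i) • g_i`; `sup_W ‖g‖ ≤ S := 1 + ∑ C_i S_i` (`C_i` bounds `‖h_k x_i‖`,
independent of `k`), `‖g‖ ≥ ‖h_k‖ - ∑ C_i ‖g_i‖` is unbounded in `k`.  By density pick `x ∈ D`, `‖x‖ ≤ 1`,
`‖g x‖ ≥ ‖g‖/2`; `x_n = P x`, `g_n = (g x)⁻¹ • g`, `S_n = 2 S/‖g‖`; choose `k` with `2 S ‖P‖/‖g‖ ≤ 2^{-n}`.
(Recursion: state = pair of lists / functions `ℕ → X`, or `exists_seq`-style with `Fin n` tuples.)
`M = ⋂ ker g_n`.  For `w ∈ W` the series `∑ g_n w • x_n` converges absolutely and `w - ∑' ∈ M`, so the images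
of the `x_n` span a dense subspace of `X ⧸ M` (D dense, quotient map continuous and onto) ⇒ separable
(`TopologicalSpace.IsSeparable.span`, `IsSeparable.closure`); they are linearly independent (test with `g_m`,
which factors through the quotient) ⇒ not finite-dimensional.

`surj_of_dual`.  `K = closure (T '' closedBall 0 (1/c))` is closed, convex, balanced.  If `‖e‖ ≤ 1`, `e ∉ K`,
`RCLike.geometric_hahn_banach_closed_point` gives `g`, `u` with `re (g k) < u < re (g e) ≤ ‖g‖`; rotating `x` by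
unimodular scalars, `‖g (T x)‖ ≤ u` on the ball so `‖g ∘ T‖ ≤ c u < c ‖g‖`, contradiction.  Hence
`∀ e, ∃ x, ‖x‖ ≤ ‖e‖/c ∧ ‖e - T x‖ ≤ ‖e‖/2`; iterate (geometric series, as in
`ContinuousLinearMap.exists_preimage_norm_le`).
-/

set_option autoImplicit false

namespace Crest.Agent.R114

open Filter

variable {𝕜 : Type} [RCLike 𝕜] {X : Type*} [NormedAddCommGroup X] [NormedSpace 𝕜 X]

namespace LemA

open Topology

theorem exists_seq {T : Type*} [Nonempty T] (Q : ℕ → T → Prop) (R : T → T → Prop)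
    (step : ∀ (n : ℕ) (f : ℕ → T), (∀ i < n, Q i (f i)) → (∀ i j, i < j → j < n → R (f i) (f j)) →
      ∃ t, Q n t ∧ ∀ i < n, R (f i) t) :
    ∃ f : ℕ → T, (∀ i, Q i (f i)) ∧ ∀ i j, i < j → R (f i) (f j) := by
  classical
  choose! c hc using step
  let F : ℕ → ℕ → T := fun n =>
    Nat.rec (fun _ => Classical.arbitrary T) (fun n f => Function.update f n (c n f)) n
  let f : ℕ → T := fun n => c n (F n)
  have hF : ∀ n i, i < n → F n i = f i := by
    intro n
    induction n with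
    | zero => intro i hi; omega
    | succ n ih =>
      intro i hi
      change Function.update (F n) n (c n (F n)) i = f i
      rcases (Nat.lt_succ_iff.1 hi).eq_or_lt with rfl | h
      · rw [Function.update_self]
      · rw [Function.update_of_ne h.ne, ih i h]
  have key : ∀ n, (∀ i < n, Q i (f i)) ∧ ∀ i j, i < j → j < n → R (f i) (f j) := by
    intro n
    induction n with
    | zero => exact ⟨fun i hi => by omega, fun i j _ hj => by omega⟩
    | succ n ih =>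
      obtain ⟨h1, h2⟩ := hc n (F n) (fun i hi => by rw [hF n i hi]; exact ih.1 i hi)
        fun i j hij hj => by rw [hF n i (hij.trans hj), hF n j hj]; exact ih.2 i j hij hj
      refine ⟨fun i hi => ?_, fun i j hij hj => ?_⟩
      · rcases (Nat.lt_succ_iff.1 hi).eq_or_lt with rfl | h
        · exact h1
        · exact ih.1 i h
      · rcases (Nat.lt_succ_iff.1 hj).eq_or_lt with rfl | h
        · have := h2 i hij
          rwa [hF j i hij] at this
        · exact ih.2 i j hij h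
  exact ⟨f, fun i => (key (i + 1)).1 i (Nat.lt_succ_self i),
    fun i j hij => (key (j + 1)).2 i j hij (Nat.lt_succ_self j)⟩

/-- `g` is bounded by `S` times `sup ‖h k ·‖` -/
def WB (h : ℕ → X →L[𝕜] 𝕜) (g : X →L[𝕜] 𝕜) (S : ℝ) : Prop :=
  ∀ (x : X) (C : ℝ), (∀ k, ‖h k x‖ ≤ C) → ‖g x‖ ≤ S * C

theorem step (h : ℕ → X →L[𝕜] 𝕜) (hunb : ∀ C : ℝ, ∃ n, C < ‖h n‖)
    (hd : Dense {x : X | ∃ C : ℝ, ∀ n, ‖h n x‖ ≤ C}) (n : ℕ) (x : ℕ → X) (g : ℕ → X →L[𝕜] 𝕜)
    (S : ℕ → ℝ) (hx : ∀ i < n, ∃ C : ℝ, ∀ k, ‖h k (x i)‖ ≤ C) (hg : ∀ i < n, WB h (g i) (S i))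
    (hS : ∀ i < n, 0 ≤ S i) (h1 : ∀ i < n, g i (x i) = 1)
    (h0 : ∀ i < n, ∀ j < n, i ≠ j → g i (x j) = 0) {ε : ℝ} (hε : 0 < ε) :
    ∃ (x' : X) (g' : X →L[𝕜] 𝕜) (S' : ℝ), WB h g' S' ∧ 0 ≤ S' ∧ (∃ C : ℝ, ∀ k, ‖h k x'‖ ≤ C) ∧
      g' x' = 1 ∧ S' * ‖x'‖ ≤ ε ∧ ∀ i < n, g' (x i) = 0 ∧ g i x' = 0 := by
  choose! C hC using hx
  have hC0 : ∀ i < n, 0 ≤ C i := fun i hi => (norm_nonneg _).trans (hC i hi 0)
  let P : X →L[𝕜] X := ContinuousLinearMap.id 𝕜 X - ∑ i ∈ Finset.range n, (g i).smulRight (x i)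
  have hP : ∀ y, P y = y - ∑ i ∈ Finset.range n, g i y • x i := fun y => by
    simp [P]
  have hgP : ∀ j < n, ∀ y, g j (P y) = 0 := by
    intro j hj y
    rw [hP, map_sub, map_sum, Finset.sum_eq_single j]
    · rw [map_smul, h1 j hj, smul_eq_mul, mul_one, sub_self]
    · intro i hi hij
      rw [map_smul, h0 j hj i (Finset.mem_range.1 hi) hij.symm, smul_zero]
    · intro hj'; exact absurd (Finset.mem_range.2 hj) hj'
  have hPx : ∀ j < n, P (x j) = 0 := by
    intro j hj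
    rw [hP, Finset.sum_eq_single j]
    · rw [h1 j hj, one_smul, sub_self]
    · intro i hi hij
      rw [h0 i (Finset.mem_range.1 hi) j hj hij, zero_smul]
    · intro hj'; exact absurd (Finset.mem_range.2 hj) hj'
  have hPP : ∀ y, P (P y) = P y := by
    intro y
    rw [hP (P y), Finset.sum_eq_zero, sub_zero]
    intro i hi
    rw [hgP i (Finset.mem_range.1 hi), zero_smul]
  have hsum : ∀ k y, ‖h k (∑ i ∈ Finset.range n, g i y • x i)‖ ≤
      ∑ i ∈ Finset.range n, ‖g i y‖ * C i := by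
    intro k y
    rw [map_sum]
    refine (norm_sum_le _ _).trans (Finset.sum_le_sum fun i hi => ?_)
    rw [map_smul, norm_smul]
    exact mul_le_mul_of_nonneg_left (hC i (Finset.mem_range.1 hi) k) (norm_nonneg _)
  set A : ℝ := 1 + ∑ i ∈ Finset.range n, S i * C i with hA
  have hA1 : 0 < A := by
    have : 0 ≤ ∑ i ∈ Finset.range n, S i * C i := Finset.sum_nonneg fun i hi =>
      mul_nonneg (hS i (Finset.mem_range.1 hi)) (hC0 i (Finset.mem_range.1 hi))
    linarith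
  have hWB : ∀ (y : X) (c : ℝ), (∀ k, ‖h k y‖ ≤ c) → ∀ k, ‖h k (P y)‖ ≤ A * c := by
    intro y c hy k
    rw [hP, map_sub, hA, add_mul, one_mul, Finset.sum_mul]
    refine (norm_sub_le _ _).trans (add_le_add (hy k) ((hsum k y).trans
      (Finset.sum_le_sum fun i hi => ?_)))
    rw [mul_right_comm]
    exact mul_le_mul_of_nonneg_right (hg i (Finset.mem_range.1 hi) y c hy)
      (hC0 i (Finset.mem_range.1 hi))
  set B : ℝ := ∑ i ∈ Finset.range n, ‖g i‖ * C i with hB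
  have hB0 : 0 ≤ B := Finset.sum_nonneg fun i hi =>
    mul_nonneg (norm_nonneg _) (hC0 i (Finset.mem_range.1 hi))
  have hnorm : ∀ k, ‖h k‖ ≤ ‖(h k).comp P‖ + B := by
    intro k
    refine ContinuousLinearMap.opNorm_le_bound _ (by positivity) fun y => ?_
    have e : h k y = ((h k).comp P) y + h k (∑ i ∈ Finset.range n, g i y • x i) := by
      rw [ContinuousLinearMap.comp_apply, hP, map_sub, sub_add_cancel]
    rw [e, add_mul, hB, Finset.sum_mul]
    refine (norm_add_le _ _).trans (add_le_add (ContinuousLinearMap.le_opNorm _ _)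
      ((hsum k y).trans (Finset.sum_le_sum fun i hi => ?_)))
    rw [mul_right_comm]
    exact mul_le_mul_of_nonneg_right ((g i).le_opNorm y) (hC0 i (Finset.mem_range.1 hi))
  set L : ℝ := A * (‖P‖ + 1) / ε with hL
  have hL0 : 0 < L := by positivity
  obtain ⟨k, hk⟩ := hunb (L + B)
  set G := (h k).comp P with hG
  have hGL : L < ‖G‖ := by linarith [hnorm k]
  have hopen : IsOpen {y : X | ‖y‖ < 1 ∧ L < ‖G y‖} :=
    (isOpen_lt continuous_norm continuous_const).inter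
      (isOpen_lt continuous_const G.continuous.norm)
  obtain ⟨y, ⟨c, hyc⟩, hy1, hyL⟩ := hd.exists_mem_open hopen (G.exists_lt_apply_of_lt_opNorm hGL)
  have hGy : 0 < ‖G y‖ := hL0.trans hyL
  refine ⟨P y, (G y)⁻¹ • G, A / L, fun z c' hz => ?_, by positivity, ⟨_, hWB y c hyc⟩, ?_, ?_,
    fun i hi => ⟨?_, hgP i hi y⟩⟩
  · have hc' : 0 ≤ c' := (norm_nonneg _).trans (hz 0)
    rw [smul_apply, norm_smul, norm_inv]
    calc ‖G y‖⁻¹ * ‖G z‖ ≤ L⁻¹ * (A * c') :=
          mul_le_mul (inv_anti₀ hL0 hyL.le) (hWB z c' hz k) (norm_nonneg _) (by positivity)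
      _ = A / L * c' := by ring
  · have : G (P y) = G y := by
      rw [hG, ContinuousLinearMap.comp_apply, ContinuousLinearMap.comp_apply, hPP]
    rw [smul_apply, this, smul_eq_mul, inv_mul_cancel₀ (norm_pos_iff.1 hGy)]
  · have h2 : ‖P y‖ ≤ ‖P‖ + 1 := by
      have := P.le_opNorm y
      nlinarith [norm_nonneg P, norm_nonneg y]
    calc A / L * ‖P y‖ ≤ A / L * (‖P‖ + 1) := by gcongr
      _ = ε := by rw [hL]; field_simp
  · rw [smul_apply, hG, ContinuousLinearMap.comp_apply, ContinuousLinearMap.comp_apply, hPx i hi,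
      map_zero, smul_zero]

theorem approx {E : Type*} [NormedAddCommGroup E] [NormedSpace 𝕜 E]
    (T : X →L[𝕜] E) (c : ℝ) (hc : 0 < c) (hT : ∀ g : E →L[𝕜] 𝕜, c * ‖g‖ ≤ ‖g.comp T‖) (e : E)
    (he : ‖e‖ ≤ 1) : e ∈ closure (T '' Metric.closedBall 0 c⁻¹) := by
  letI : NormedSpace ℝ E := NormedSpace.restrictScalars ℝ 𝕜 E
  haveI : IsScalarTower ℝ 𝕜 E := IsScalarTower.of_algebraMap_smul fun _ _ => rfl
  by_contra hne
  have hconv : Convex ℝ (T '' Metric.closedBall 0 c⁻¹) := by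
    rintro _ ⟨x, hx, rfl⟩ _ ⟨y, hy, rfl⟩ a b ha hb hab
    refine ⟨(a : 𝕜) • x + (b : 𝕜) • y, ?_, ?_⟩
    · rw [mem_closedBall_zero_iff] at hx hy ⊢
      refine (norm_add_le _ _).trans ?_
      rw [norm_smul, norm_smul, RCLike.norm_ofReal, RCLike.norm_ofReal, abs_of_nonneg ha,
        abs_of_nonneg hb]
      calc a * ‖x‖ + b * ‖y‖ ≤ a * c⁻¹ + b * c⁻¹ := by gcongr
        _ = c⁻¹ := by rw [← add_mul, hab, one_mul]
    · rw [map_add, map_smul, map_smul]; rfl
  obtain ⟨g, u, h1, h2⟩ := RCLike.geometric_hahn_banach_closed_point (𝕜 := 𝕜) hconv.closure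
    isClosed_closure hne
  have h3 : ∀ x : X, ‖x‖ ≤ c⁻¹ → ‖g (T x)‖ ≤ u := by
    intro x hx
    obtain ⟨z, hz1, hz⟩ := RCLike.exists_norm_eq_mul_self (g (T x))
    have := h1 (T (z • x)) (subset_closure ⟨z • x, by
      rw [mem_closedBall_zero_iff, norm_smul, hz1, one_mul]; exact hx, rfl⟩)
    rw [map_smul, map_smul, smul_eq_mul, ← hz, RCLike.ofReal_re] at this
    exact this.le
  have hu0 : 0 ≤ u := (norm_nonneg _).trans (h3 0 (by rw [norm_zero]; positivity))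
  have h4 : ‖g.comp T‖ ≤ c * u := by
    refine ContinuousLinearMap.opNorm_le_bound' _ (by positivity) fun x hx => ?_
    have hx' : 0 < ‖x‖ := lt_of_le_of_ne (norm_nonneg x) (Ne.symm hx)
    have hcx : 0 < c * ‖x‖ := by positivity
    have := h3 ((((c * ‖x‖)⁻¹ : ℝ) : 𝕜) • x) (by
      rw [norm_smul, RCLike.norm_ofReal, abs_of_pos (by positivity)]
      exact le_of_eq (by field_simp))
    rw [map_smul, map_smul, norm_smul, RCLike.norm_ofReal, abs_of_pos (by positivity),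
      inv_mul_le_iff₀ hcx] at this
    rw [ContinuousLinearMap.comp_apply]
    linarith
  have h5 : RCLike.re (g e) ≤ ‖g‖ :=
    (RCLike.re_le_norm _).trans ((g.le_opNorm e).trans (mul_le_of_le_one_right (norm_nonneg _) he))
  have h6 := (hT g).trans h4
  have h7 : ‖g‖ ≤ u := le_of_mul_le_mul_left h6 hc
  linarith

end LemA

open LemA Topology in
theorem lemA [CompleteSpace X] (h : ℕ → X →L[𝕜] 𝕜) (hunb : ∀ C : ℝ, ∃ n, C < ‖h n‖)
    (hd : Dense {x : X | ∃ C : ℝ, ∀ n, ‖h n x‖ ≤ C}) : SQ 𝕜 X := by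
  obtain ⟨f, hQ, hR⟩ := exists_seq (T := X × (X →L[𝕜] 𝕜) × ℝ)
    (fun n t => WB h t.2.1 t.2.2 ∧ 0 ≤ t.2.2 ∧ (∃ C : ℝ, ∀ k, ‖h k t.1‖ ≤ C) ∧ t.2.1 t.1 = 1 ∧
      t.2.2 * ‖t.1‖ ≤ (1 / 2) ^ n)
    (fun t t' => t'.2.1 t.1 = 0 ∧ t.2.1 t'.1 = 0) (by
      intro n f h1 h2
      obtain ⟨x', g', S', a1, a2, a3, a4, a5, a6⟩ := step h hunb hd n (fun i => (f i).1)
        (fun i => (f i).2.1) (fun i => (f i).2.2) (fun i hi => (h1 i hi).2.2.1)
        (fun i hi => (h1 i hi).1) (fun i hi => (h1 i hi).2.1) (fun i hi => (h1 i hi).2.2.2.1)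
        (fun i hi j hj hij => by
          rcases lt_or_gt_of_ne hij with h | h
          · exact (h2 i j h hj).2
          · exact (h2 j i h hi).1) (ε := (1 / 2) ^ n) (by positivity)
      exact ⟨(x', g', S'), ⟨a1, a2, a3, a4, a5⟩, a6⟩)
  set x : ℕ → X := fun n => (f n).1 with hx
  set g : ℕ → X →L[𝕜] 𝕜 := fun n => (f n).2.1 with hg
  have h1 : ∀ n, g n (x n) = 1 := fun n => (hQ n).2.2.2.1
  have h0 : ∀ i j, i ≠ j → g i (x j) = 0 := fun i j hij => by
    rcases lt_or_gt_of_ne hij with h | h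
    · exact (hR i j h).2
    · exact (hR j i h).1
  let M : Submodule 𝕜 X := ⨅ n, LinearMap.ker (g n : X →ₗ[𝕜] 𝕜)
  have hM : ∀ y, y ∈ M ↔ ∀ n, g n y = 0 := fun y => by simp [M]
  have hMc : IsClosed (M : Set X) := by
    have : (M : Set X) = ⋂ n, {y | g n y = 0} := by ext y; simp [hM]
    rw [this]
    exact isClosed_iInter fun n => isClosed_eq (g n).continuous continuous_const
  have hq : Continuous M.mkQ := M.continuous_mkQ
  refine ⟨M, hMc, ?_, fun hfin => ?_⟩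
  · let V : Submodule 𝕜 (X ⧸ M) := Submodule.span 𝕜 (Set.range fun n => M.mkQ (x n))
    have hV : TopologicalSpace.IsSeparable (closure (V : Set (X ⧸ M))) :=
      ((Set.countable_range _).isSeparable.span).closure
    refine TopologicalSpace.isSeparable_univ_iff.1 (hV.mono fun q _ => ?_)
    obtain ⟨y, rfl⟩ := M.mkQ_surjective q
    refine hd.induction (P := fun y => M.mkQ y ∈ closure (V : Set (X ⧸ M))) ?_
      (isClosed_closure.preimage hq) y
    rintro w ⟨c, hw⟩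
    have hc : 0 ≤ c := (norm_nonneg _).trans (hw 0)
    have hs : Summable fun n => g n w • x n := by
      refine Summable.of_norm_bounded (g := fun n => c * (1 / 2) ^ n)
        (summable_geometric_two.mul_left c) fun n => ?_
      rw [norm_smul]
      calc ‖g n w‖ * ‖x n‖ ≤ (f n).2.2 * c * ‖x n‖ :=
            mul_le_mul_of_nonneg_right ((hQ n).1 w c hw) (norm_nonneg _)
        _ = c * ((f n).2.2 * ‖x n‖) := by ring
        _ ≤ c * (1 / 2) ^ n := mul_le_mul_of_nonneg_left (hQ n).2.2.2.2 hc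
    have hz : w - ∑' n, g n w • x n ∈ M := by
      rw [hM]
      intro m
      rw [map_sub, (g m).map_tsum hs, tsum_eq_single m]
      · rw [map_smul, h1, smul_eq_mul, mul_one, sub_self]
      · intro n hn
        rw [map_smul, h0 m n hn.symm, smul_zero]
    have e : M.mkQ w = M.mkQ (∑' n, g n w • x n) := (Submodule.Quotient.eq M).2 hz
    rw [e]
    refine mem_closure_of_tendsto ((hq.tendsto _).comp hs.hasSum.tendsto_sum_nat)
      (Eventually.of_forall fun N => ?_)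
    simp only [Function.comp_apply, map_sum, map_smul, SetLike.mem_coe]
    exact V.sum_mem fun n _ => V.smul_mem _ (Submodule.subset_span ⟨n, rfl⟩)
  · have hli : LinearIndependent 𝕜 fun n => M.mkQ (x n) :=
      LinearIndependent.of_pairwise_dual_eq_zero_one _
        (fun n => M.liftQ (g n : X →ₗ[𝕜] 𝕜) (iInf_le _ n)) (fun i j hij => h0 i j hij) h1
    exact Module.Finite.not_linearIndependent_of_infinite _ hli

open LemA Topology in
theorem surj_of_dual [CompleteSpace X] {E : Type*} [NormedAddCommGroup E] [NormedSpace 𝕜 E]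
    (T : X →L[𝕜] E) (c : ℝ) (hc : 0 < c) (hT : ∀ g : E →L[𝕜] 𝕜, c * ‖g‖ ≤ ‖g.comp T‖) (e : E) :
    ∃ x : X, T x = e ∧ ‖x‖ ≤ 2 / c * ‖e‖ := by
  have hC : ∀ y : E, ∃ x : X, ‖y - T x‖ ≤ 1 / 2 * ‖y‖ ∧ ‖x‖ ≤ c⁻¹ * ‖y‖ := by
    intro y
    rcases eq_or_ne y 0 with rfl | hy
    · exact ⟨0, by simp, by simp⟩
    have hy' : 0 < ‖y‖ := norm_pos_iff.2 hy
    have hyK : ((‖y‖ : ℝ) : 𝕜) ≠ 0 := by exact_mod_cast hy'.ne'
    have h1 := approx T c hc hT (((‖y‖ : ℝ) : 𝕜)⁻¹ • y) (by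
      rw [norm_smul, norm_inv, RCLike.norm_ofReal, abs_norm, inv_mul_cancel₀ hy'.ne'])
    obtain ⟨_, ⟨x, hx, rfl⟩, h2⟩ := Metric.mem_closure_iff.1 h1 (1 / 2) (by norm_num)
    rw [mem_closedBall_zero_iff] at hx
    rw [dist_eq_norm] at h2
    refine ⟨((‖y‖ : ℝ) : 𝕜) • x, ?_, ?_⟩
    · have : y - T (((‖y‖ : ℝ) : 𝕜) • x) = ((‖y‖ : ℝ) : 𝕜) • (((‖y‖ : ℝ) : 𝕜)⁻¹ • y - T x) := by
        rw [map_smul, smul_sub, smul_smul, mul_inv_cancel₀ hyK, one_smul]
      rw [this, norm_smul, RCLike.norm_ofReal, abs_norm, mul_comm]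
      exact mul_le_mul_of_nonneg_right h2.le hy'.le
    · rw [norm_smul, RCLike.norm_ofReal, abs_norm, mul_comm]
      exact mul_le_mul_of_nonneg_right hx hy'.le
  choose g hg using hC
  let r y := y - T (g y)
  have hnle : ∀ n : ℕ, ‖r^[n] e‖ ≤ (1 / 2) ^ n * ‖e‖ := by
    intro n
    induction n with
    | zero => simp
    | succ n IH =>
      rw [Function.iterate_succ_apply']
      refine le_trans (hg _).1 ?_
      rw [pow_succ', mul_assoc]
      gcongr
  let u n := g (r^[n] e)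
  have ule : ∀ n, ‖u n‖ ≤ (1 / 2) ^ n * (c⁻¹ * ‖e‖) := fun n => by
    refine le_trans (hg _).2 ?_
    calc c⁻¹ * ‖r^[n] e‖ ≤ c⁻¹ * ((1 / 2) ^ n * ‖e‖) := by gcongr; exact hnle n
      _ = (1 / 2) ^ n * (c⁻¹ * ‖e‖) := by ring
  have sNu : Summable fun n => ‖u n‖ :=
    .of_nonneg_of_le (fun n => norm_nonneg _) ule (summable_geometric_two.mul_right _)
  have su : Summable u := sNu.of_norm
  refine ⟨tsum u, ?_, ?_⟩
  · have fsumeq : ∀ n : ℕ, T (∑ i ∈ Finset.range n, u i) = e - r^[n] e := by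
      intro n
      induction n with
      | zero => simp
      | succ n IH =>
        rw [Finset.sum_range_succ, T.map_add, IH, Function.iterate_succ_apply', sub_add]
    have L₁ : Tendsto (fun n => T (∑ i ∈ Finset.range n, u i)) atTop (𝓝 (T (tsum u))) :=
      (T.continuous.tendsto _).comp su.hasSum.tendsto_sum_nat
    simp only [fsumeq] at L₁
    have L₂ : Tendsto (fun n => e - r^[n] e) atTop (𝓝 (e - 0)) := by
      refine tendsto_const_nhds.sub (squeeze_zero_norm hnle ?_)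
      rw [← zero_mul ‖e‖]
      exact (tendsto_pow_atTop_nhds_zero_of_lt_one (by norm_num) (by norm_num)).mul
        tendsto_const_nhds
    rw [tendsto_nhds_unique L₁ L₂, sub_zero]
  · calc ‖tsum u‖ ≤ ∑' n, ‖u n‖ := norm_tsum_le_tsum_norm sNu
      _ ≤ ∑' n, (1 / 2) ^ n * (c⁻¹ * ‖e‖) :=
        sNu.tsum_le_tsum ule (summable_geometric_two.mul_right _)
      _ = (∑' n, (1 / 2) ^ n) * (c⁻¹ * ‖e‖) := tsum_mul_right
      _ = 2 / c * ‖e‖ := by rw [tsum_geometric_two]; ring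

end Crest.Agent.R114
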