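import Crest.Agent.R114.QDefs

/-!
# Task R114-QStab (block sequences and Hagler–Johnson stabilisation)

Facts on `Blk v w` (with data `G, c`): each `G k` is nonempty, the `G k` are pairwise disjoint, `i ∈ G k → k ≤ i`.
`Blk.unc`: `∑_{k∈F} a_k • w_k = ∑_{i ∈ F.biUnion G} a' i • v_i` with `a' i = ∑_{k ∈ F} if i ∈ G k then a k * c k i else 0`;
a vector killed by `v j`, `j ∉ F.biUnion G`, is killed by `w l`, `l ∉ F`.  `Blk.l1`: same expansion, `∑ ‖a' i‖ = ∑ ‖a k‖`.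
`Blk.trans`: `G'' k = (G' k).biUnion G`.
`exists_stable`: `δ v = ⨆ x ∈ closedBall 0 1, limsup (fun k => ‖v k x‖ₑ) atTop : ℝ≥0∞` (≤ 1).  `Blk v w → δ w ≤ δ v`
(`‖w k x‖ ≤ max_{i ∈ G k} ‖v i x‖`, `G k ⊆ [k,∞)`); `δ` is invariant under shifts `k ↦ k + m`.
Choose `V 0 = u`, `Blk (V m) (V (m+1))` with `δ (V (m+1)) ≤ ⨅_{w, Blk (V m) w} δ w + 1/(m+1)`; diagonal `v k = V k k`
(or `V (k+1) k`).  For each `m`, `k ↦ v (k+m)` is a block of `V m` (for `k < l` the support of `V l l` w.r.t. `V k` lies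
in `[l, ∞)`, hence after index `k`).  If `Blk v w` then `k ↦ w (k+m)` is a block of `k ↦ v (k+m)`, so of `V m`, hence
`δ w ≥ δ (V (m+1)) - 1/(m+1) ≥ δ v - 1/(m+1)`.  So `δ w = δ v =: d` for every block `w` of `v`.
`shr_of_stable_zero`: `‖∑ a_i v_i x‖ ≤ (∑ ‖a_i‖) sup_{i ≥ n} ‖v_i x‖ ≤ δ⁻¹ ‖∑ a_i v_i‖ sup_{i≥n} ‖v_i x‖` (scale `x` into the ball).
-/

set_option autoImplicit false

namespace Crest.Agent.R114

open Filter

variable {𝕜 : Type} [RCLike 𝕜] {X : Type*} [NormedAddCommGroup X] [NormedSpace 𝕜 X]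

namespace StabA

/-- coefficients of a combination of blocks -/
noncomputable def own (G : ℕ → Finset ℕ) (c : ℕ → ℕ → 𝕜) (F : Finset ℕ) (a : ℕ → 𝕜) (i : ℕ) : 𝕜 :=
  ∑ k ∈ F, if i ∈ G k then a k * c k i else 0

variable {G : ℕ → Finset ℕ}

theorem eq_of_mem (hG : ∀ k l, k < l → ∀ i ∈ G k, ∀ j ∈ G l, i < j) {k l i : ℕ} (hk : i ∈ G k)
    (hl : i ∈ G l) : k = l := by
  rcases lt_trichotomy k l with h | h | h
  · exact absurd (hG k l h i hk i hl) (lt_irrefl _)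
  · exact h
  · exact absurd (hG l k h i hl i hk) (lt_irrefl _)

theorem expand (hG : ∀ k l, k < l → ∀ i ∈ G k, ∀ j ∈ G l, i < j) (c : ℕ → ℕ → 𝕜) (F : Finset ℕ)
    (a : ℕ → 𝕜) {M : Type*} [AddCommMonoid M] (g : 𝕜 → ℕ → M) :
    ∑ i ∈ F.biUnion G, g (own G c F a i) i = ∑ k ∈ F, ∑ i ∈ G k, g (a k * c k i) i := by
  rw [Finset.sum_biUnion fun k _ l _ hkl =>
    Finset.disjoint_left.2 fun i hk hl => hkl (eq_of_mem hG hk hl)]
  refine Finset.sum_congr rfl fun k hk => Finset.sum_congr rfl fun i hi => ?_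
  rw [own, Finset.sum_eq_single_of_mem k hk fun l _ hl =>
    if_neg fun h => hl (eq_of_mem hG h hi), if_pos hi]

theorem le_of_mem (hG : ∀ k l, k < l → ∀ i ∈ G k, ∀ j ∈ G l, i < j) (hne : ∀ k, (G k).Nonempty) :
    ∀ k, ∀ i ∈ G k, k ≤ i := by
  intro k
  induction k with
  | zero => exact fun i _ => Nat.zero_le i
  | succ k ih =>
    intro i hi
    obtain ⟨j, hj⟩ := hne k
    exact Nat.succ_le_of_lt ((ih j hj).trans_lt (hG k (k + 1) (Nat.lt_succ_self k) j hj i hi))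

theorem le_of_mem' (hG : ∀ k l, k < l → ∀ i ∈ G k, ∀ j ∈ G l, i < j) {c : ℕ → ℕ → 𝕜}
    (hc : ∀ k, ∑ i ∈ G k, ‖c k i‖ = 1) : ∀ k, ∀ i ∈ G k, k ≤ i :=
  le_of_mem hG fun k => Finset.nonempty_of_sum_ne_zero (by rw [hc k]; exact one_ne_zero)

theorem sum_smul_eq (hG : ∀ k l, k < l → ∀ i ∈ G k, ∀ j ∈ G l, i < j) {c : ℕ → ℕ → 𝕜}
    {v w : ℕ → X →L[𝕜] 𝕜} (hw : ∀ k, w k = ∑ i ∈ G k, c k i • v i) (F : Finset ℕ) (a : ℕ → 𝕜) :
    ∑ k ∈ F, a k • w k = ∑ i ∈ F.biUnion G, own G c F a i • v i := by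
  rw [expand hG c F a fun z i => z • v i]
  simp only [hw, Finset.smul_sum, mul_smul]

theorem unc_of_blocks (hG : ∀ k l, k < l → ∀ i ∈ G k, ∀ j ∈ G l, i < j) {c : ℕ → ℕ → 𝕜}
    {v w : ℕ → X →L[𝕜] 𝕜} (hw : ∀ k, w k = ∑ i ∈ G k, c k i • v i) (hv : Unc v) : Unc w := by
  intro F a ε hε
  obtain ⟨x, hx, h0, h⟩ := hv (F.biUnion G) (own G c F a) ε hε
  refine ⟨x, hx, fun l hl => ?_, ?_⟩
  · rw [hw, _root_.sum_apply]
    refine Finset.sum_eq_zero fun i hi => ?_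
    rw [_root_.smul_apply, h0 i fun h => ?_, smul_zero]
    obtain ⟨k, hk, hik⟩ := Finset.mem_biUnion.1 h
    exact hl (eq_of_mem hG hik hi ▸ hk)
  · have e := congrArg (fun ψ : X →L[𝕜] 𝕜 => ψ x) (sum_smul_eq hG hw F a)
    simp only [_root_.sum_apply, _root_.smul_apply, smul_eq_mul] at e
    rw [sum_smul_eq hG hw, e]
    exact h

theorem norm_apply_le {s : Finset ℕ} {c : ℕ → 𝕜} (hc : ∑ i ∈ s, ‖c i‖ = 1) {v : ℕ → X →L[𝕜] 𝕜}
    {x : X} {t : ℝ} (h : ∀ i ∈ s, ‖v i x‖ ≤ t) : ‖(∑ i ∈ s, c i • v i) x‖ ≤ t := by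
  rw [_root_.sum_apply, ← one_mul t, ← hc, Finset.sum_mul]
  refine (norm_sum_le _ _).trans (Finset.sum_le_sum fun i hi => ?_)
  rw [_root_.smul_apply, norm_smul]
  exact mul_le_mul_of_nonneg_left (h i hi) (norm_nonneg _)

end StabA

open StabA

theorem Blk.refl (v : ℕ → X →L[𝕜] 𝕜) : Blk v v :=
  ⟨fun k => {k}, fun _ _ => 1, fun k l h i hi j hj => by
    rwa [Finset.mem_singleton.1 hi, Finset.mem_singleton.1 hj], fun k => by simp, fun k => by simp⟩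

theorem Blk.trans {u v w : ℕ → X →L[𝕜] 𝕜} (h₁ : Blk u v) (h₂ : Blk v w) : Blk u w := by
  obtain ⟨G, c, hG, hc, hv⟩ := h₁
  obtain ⟨G', c', hG', hc', hw⟩ := h₂
  refine ⟨fun k => (G' k).biUnion G, fun k => own G c (G' k) (c' k), fun k l hkl i hi j hj => ?_,
    fun k => ?_, fun k => ?_⟩
  · obtain ⟨p, hp, hi⟩ := Finset.mem_biUnion.1 hi
    obtain ⟨q, hq, hj⟩ := Finset.mem_biUnion.1 hj
    exact hG p q (hG' k l hkl p hp q hq) i hi j hj
  · rw [expand hG c _ _ fun z _ => ‖z‖]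
    simp only [norm_mul, ← Finset.mul_sum, hc, mul_one, hc']
  · rw [hw, sum_smul_eq hG hv]

theorem Blk.unc {v w : ℕ → X →L[𝕜] 𝕜} (h : Blk v w) (hv : Unc v) : Unc w := by
  obtain ⟨G, c, hG, -, hw⟩ := h
  exact unc_of_blocks hG hw hv

theorem Blk.l1 {v w : ℕ → X →L[𝕜] 𝕜} {δ : ℝ} (h : Blk v w) (hv : L1 v δ) : L1 w δ := by
  obtain ⟨G, c, hG, hc, hw⟩ := h
  intro F a
  have := hv (F.biUnion G) (own G c F a)
  rw [expand hG c _ _ fun z _ => ‖z‖, ← sum_smul_eq hG hw] at this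
  simpa only [norm_mul, ← Finset.mul_sum, hc, mul_one] using this

theorem Blk.norm_le {v w : ℕ → X →L[𝕜] 𝕜} (h : Blk v w) (hv : ∀ k, ‖v k‖ ≤ 1) (k : ℕ) :
    ‖w k‖ ≤ 1 := by
  obtain ⟨G, c, -, hc, hw⟩ := h
  rw [hw, ← hc k]
  refine (norm_sum_le _ _).trans (Finset.sum_le_sum fun i _ => ?_)
  rw [norm_smul]
  exact mul_le_of_le_one_right (norm_nonneg _) (hv i)

namespace StabA

theorem tail {v w : ℕ → X →L[𝕜] 𝕜} (h : Blk v w) (m : ℕ) :
    Blk (fun k => v (k + m)) fun k => w (k + m) := by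
  obtain ⟨G, c, hG, hc, hw⟩ := h
  have hle : ∀ k, ∀ i ∈ G (k + m), m ≤ i := fun k i hi =>
    (Nat.le_add_left m k).trans (le_of_mem' hG hc _ i hi)
  have hinj : ∀ k, Set.InjOn (fun i => i - m) (G (k + m) : Set ℕ) := fun k i hi j hj h => by
    have h1 := hle k i hi
    have h2 := hle k j hj
    simp only at h
    omega
  refine ⟨fun k => (G (k + m)).image fun i => i - m, fun k i => c (k + m) (i + m),
    fun k l hkl i hi j hj => ?_, fun k => ?_, fun k => ?_⟩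
  · obtain ⟨p, hp, rfl⟩ := Finset.mem_image.1 hi
    obtain ⟨q, hq, rfl⟩ := Finset.mem_image.1 hj
    have h1 := hG _ _ (Nat.add_lt_add_right hkl m) p hp q hq
    have h2 := hle k p hp
    omega
  · rw [Finset.sum_image (hinj k), ← hc (k + m)]
    exact Finset.sum_congr rfl fun i hi => by simp only [Nat.sub_add_cancel (hle k i hi)]
  · rw [Finset.sum_image (hinj k)]
    exact (hw _).trans
      (Finset.sum_congr rfl fun i hi => by simp only [Nat.sub_add_cancel (hle k i hi)])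

/-- `d` bounds all the upper limits -/
def P (v : ℕ → X →L[𝕜] 𝕜) (d : ℝ) : Prop :=
  ∀ x : X, ‖x‖ ≤ 1 → ∀ ε : ℝ, 0 < ε → ∀ᶠ k in atTop, ‖v k x‖ ≤ d + ε

/-- the least such bound -/
noncomputable def D (v : ℕ → X →L[𝕜] 𝕜) : ℝ := sInf {d | 0 ≤ d ∧ P v d}

theorem D_nonneg (v : ℕ → X →L[𝕜] 𝕜) : 0 ≤ D v := Real.sInf_nonneg fun _ h => h.1

theorem D_le {v : ℕ → X →L[𝕜] 𝕜} {d : ℝ} (h0 : 0 ≤ d) (h : P v d) : D v ≤ d :=
  csInf_le ⟨0, fun _ h => h.1⟩ ⟨h0, h⟩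

theorem P_D {v : ℕ → X →L[𝕜] 𝕜} (hv : ∀ k, ‖v k‖ ≤ 1) : P v (D v) := by
  intro x hx ε hε
  obtain ⟨d, hd, hlt⟩ := Real.lt_sInf_add_pos (s := {d | 0 ≤ d ∧ P v d})
    ⟨1, zero_le_one, fun y hy η hη => Eventually.of_forall fun k => by
      have := (v k).le_of_opNorm_le_of_le (hv k) hy
      linarith⟩ (half_pos hε)
  refine (hd.2 x hx _ (half_pos hε)).mono fun k hk => ?_
  rw [D]; linarith

theorem P_blk {v w : ℕ → X →L[𝕜] 𝕜} (h : Blk v w) {d : ℝ} (hv : P v d) : P w d := by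
  obtain ⟨G, c, hG, hc, hw⟩ := h
  intro x hx ε hε
  obtain ⟨n, hn⟩ := eventually_atTop.1 (hv x hx ε hε)
  refine eventually_atTop.2 ⟨n, fun k hk => ?_⟩
  rw [hw]
  exact norm_apply_le (hc k) fun i hi => hn i (hk.trans (le_of_mem' hG hc k i hi))

theorem D_blk {v w : ℕ → X →L[𝕜] 𝕜} (h : Blk v w) (hv : ∀ k, ‖v k‖ ≤ 1) : D w ≤ D v :=
  D_le (D_nonneg v) (P_blk h (P_D hv))

theorem D_tail (v : ℕ → X →L[𝕜] 𝕜) (m : ℕ) : D (fun k => v (k + m)) = D v := by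
  have : ∀ d, P (fun k => v (k + m)) d ↔ P v d := fun d => by
    simp only [P]
    conv_rhs => rw [← map_add_atTop_eq_nat m]
    rfl
  simp only [D, this]

theorem exists_min (v : ℕ → X →L[𝕜] 𝕜) (m : ℕ) :
    ∃ w, Blk v w ∧ ∀ w', Blk v w' → D w ≤ D w' + 1 / ((m : ℝ) + 1) := by
  obtain ⟨_, ⟨w, hw, rfl⟩, hlt⟩ := Real.lt_sInf_add_pos (s := D '' {w | Blk v w})
    ⟨_, v, Blk.refl v, rfl⟩ (ε := 1 / ((m : ℝ) + 1)) (by positivity)
  refine ⟨w, hw, fun w' hw' => hlt.le.trans (add_le_add_left (csInf_le ⟨0, ?_⟩ (Set.mem_image_of_mem D hw')) _)⟩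
  rintro _ ⟨w, -, rfl⟩
  exact D_nonneg w

theorem diag {V : ℕ → ℕ → X →L[𝕜] 𝕜} (hV : ∀ m, Blk (V m) (V (m + 1))) :
    ∃ v : ℕ → X →L[𝕜] 𝕜, ∀ m, Blk (V m) fun k => v (k + m) := by
  have h : ∀ m k, Blk (V m) (V (k + m)) := by
    intro m k
    induction k with
    | zero => rw [Nat.zero_add]; exact Blk.refl _
    | succ k ih => rw [Nat.add_right_comm]; exact ih.trans (hV _)
  choose G c hG hc hw using h
  let n : ℕ → ℕ := fun q => Nat.rec 0 (fun q p =>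
    max p (((Finset.range (q + 1)).sup fun m => (G m (q - m) p).sup id) + 1)) q
  have hn : Monotone n := monotone_nat_of_le_succ fun q => le_max_left _ _
  refine ⟨fun k => V k (n k), fun m => ⟨fun k => G m k (n (k + m)), fun k => c m k (n (k + m)),
    fun k l hkl i hi j hj => ?_, fun k => hc _ _ _, fun k => hw _ _ _⟩⟩
  have h1 : n (k + m + 1) ≤ j :=
    (hn (show k + m + 1 ≤ l + m by omega)).trans (le_of_mem' (hG m l) (hc m l) _ j hj)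
  refine lt_of_lt_of_le (Nat.lt_succ_of_le ?_) ((le_max_right _ _).trans h1)
  refine Finset.le_sup_of_le (b := m) (Finset.mem_range.2 (by omega)) ?_
  rw [Nat.add_sub_cancel]
  exact Finset.le_sup (f := id) hi

end StabA

theorem exists_stable (u : ℕ → X →L[𝕜] 𝕜) (hu : ∀ k, ‖u k‖ ≤ 1) :
    ∃ (v : ℕ → X →L[𝕜] 𝕜) (d : ℝ), Blk u v ∧ 0 ≤ d ∧ Stable v d := by
  choose s hs1 hs2 using fun (m : ℕ) (v : ℕ → X →L[𝕜] 𝕜) => exists_min v m
  let V : ℕ → ℕ → X →L[𝕜] 𝕜 := fun m => Nat.rec u s m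
  have hV : ∀ m, Blk (V m) (V (m + 1)) := fun m => hs1 m _
  have hV1 : ∀ m k, ‖V m k‖ ≤ 1 := by
    intro m
    induction m with
    | zero => exact hu
    | succ m ih => exact (hV m).norm_le ih
  obtain ⟨v, hv⟩ := diag hV
  have huv : Blk u v := hv 0
  refine ⟨v, D v, huv, D_nonneg v, P_D (huv.norm_le hu), fun w hw ε hε => ?_⟩
  by_contra hcon
  simp only [not_exists, not_and, not_frequently, not_le] at hcon
  have h0 : 0 ≤ D v - ε := by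
    obtain ⟨k, hk⟩ := (hcon 0 (by simp)).exists
    exact (norm_nonneg _).trans hk.le
  have h1 : D w ≤ D v - ε := D_le h0 fun x hx η hη => (hcon x hx).mono fun k hk => by linarith
  obtain ⟨m, hm⟩ := exists_nat_one_div_lt hε
  have h2 := D_blk (hv (m + 1)) (hV1 (m + 1))
  have h3 : D (V (m + 1)) ≤ _ := hs2 m (V m) _ ((hv m).trans (tail hw m))
  rw [D_tail] at h2 h3
  linarith

theorem shr_of_stable_zero {v : ℕ → X →L[𝕜] 𝕜} {δ : ℝ} (hδ : 0 < δ) (hL : L1 v δ)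
    (hS : Stable v 0) : Shr v := by
  intro x ε hε
  have hr : 0 < ‖x‖ + 1 := by positivity
  have hx : ‖(((‖x‖ + 1)⁻¹ : ℝ) : 𝕜) • x‖ ≤ 1 := by
    rw [norm_smul, RCLike.norm_ofReal, abs_of_pos (inv_pos.2 hr), inv_mul_le_iff₀ hr]
    linarith
  obtain ⟨n, hn⟩ := eventually_atTop.1 (hS.1 _ hx ((‖x‖ + 1)⁻¹ * (ε * δ)) (by positivity))
  refine ⟨n, fun F a hF => ?_⟩
  have h1 : ∀ i ∈ F, ‖v i x‖ ≤ ε * δ := fun i hi => by
    have := hn i (hF i hi)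
    rwa [map_smul, norm_smul, RCLike.norm_ofReal, abs_of_pos (inv_pos.2 hr), zero_add,
      mul_le_mul_iff_right₀ (inv_pos.2 hr)] at this
  refine le_trans ?_ (mul_le_mul_of_nonneg_left (hL F a) hε.le)
  rw [← mul_assoc, Finset.mul_sum]
  refine (norm_sum_le _ _).trans (Finset.sum_le_sum fun i hi => ?_)
  rw [norm_mul, mul_comm]
  exact mul_le_mul_of_nonneg_right (h1 i hi) (norm_nonneg _)

end Crest.Agent.R114
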