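import Crest.Agent.R114.QLemA
import Crest.Agent.R114.QStab

/-!
# Task R114-QShr (the shrinking case, and extraction of ℓ¹ blocks otherwise)

`Unc.lift`.  `Y = {y | ∀ j ∉ F, φ j y = 0}` closed submodule (complete); `S = span {φ i | i ∈ F}` finite-dimensional;
`T : Y →L (S →L 𝕜)`, `T y ψ = ψ y`.  Every `g : (S →L 𝕜) →L 𝕜` is evaluation at some `ψ ∈ S` with `‖g‖ = ‖ψ‖`
(`NormedSpace.inclusionInDoubleDualLi` is onto by dimension count), and `‖g ∘ T‖ = ‖ψ|Y‖ ≥ ‖ψ‖` by `Unc`.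
`surj_of_dual` with `c = 1`, `e = (ψ ↦ ψ x)`, `‖e‖ ≤ t`.

`sq_of_shr`.  Given `x, ε`: `n_0 < n_1 < …` with `Shr` constant `ε 2^{-k}` at `n_k`; `F_k = Ico n_k n_{k+1}`;
`y_k` from `Unc.lift`, `‖y_k‖ ≤ 2 ε 2^{-k}`; `y = ∑' y_k`; `φ j (x - y) = 0` for `j ≥ n_0`.  So the vectors killed by all but
finitely many `φ j` are dense; `lemA` with `h n = n • φ n`.

`exists_l1_of_not_shr`.  `¬ Shr` gives `x₀, ε` and, recursively, finite sets `F_0 < F_1 < …` and coefficients with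
`ε ‖u_k‖ < ‖u_k x₀‖`, `u_k = ∑_{F_k} a_i • φ_i` (so `u_k ≠ 0`).  Rescale by a scalar so that `‖u_k‖ = 1` and
`u_k x₀ = ‖u_k x₀‖ > ε`.  `Unc u`: use `Unc φ` with `⋃_{k ∈ F} F_k`.  Suppression: for `A ⊆ F`,
`‖∑_A a_k u_k‖ ≤ ‖∑_F a_k u_k‖` (from `Unc u`).  `∑ ‖a_k‖ ≤ ∑ (re)^+ + (re)^- + (im)^+ + (im)^-`, and e.g. for
`A = {k | 0 ≤ re a_k}`: `ε ∑_A re a_k ≤ re (∑_A a_k u_k x₀) ≤ ‖∑_F a_k u_k‖ ‖x₀‖`.  So `δ = ε / (4 ‖x₀‖)` works
(`x₀ ≠ 0`).
-/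

set_option autoImplicit false

namespace Crest.Agent.R114

open Filter

variable {𝕜 : Type} [RCLike 𝕜] {X : Type*} [NormedAddCommGroup X] [NormedSpace 𝕜 X]

namespace ShrA

theorem exists_eval {S : Type*} [NormedAddCommGroup S] [NormedSpace 𝕜 S] [FiniteDimensional 𝕜 S]
    (g : (S →L[𝕜] 𝕜) →L[𝕜] 𝕜) : ∃ ψ : S, ‖g‖ = ‖ψ‖ ∧ ∀ f, g f = f ψ := by
  have h : ∀ (E : Type _) [NormedAddCommGroup E] [NormedSpace 𝕜 E] [FiniteDimensional 𝕜 E],
      Module.finrank 𝕜 (E →L[𝕜] 𝕜) = Module.finrank 𝕜 E := fun E _ _ _ => by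
    rw [← (LinearMap.toContinuousLinearMap (𝕜 := 𝕜) (E := E) (F' := 𝕜)).finrank_eq]
    exact Subspace.dual_finrank_eq
  obtain ⟨ψ, rfl⟩ := (LinearMap.injective_iff_surjective_of_finrank_eq_finrank
    (f := (NormedSpace.inclusionInDoubleDualLi 𝕜 (E := S)).toLinearMap)
    (by rw [h, h])).1 (NormedSpace.inclusionInDoubleDualLi 𝕜 (E := S)).injective g
  exact ⟨ψ, (NormedSpace.inclusionInDoubleDualLi 𝕜 (E := S)).norm_map ψ, fun _ => rfl⟩

theorem lift_aux {S Y : Type*} [NormedAddCommGroup S] [NormedSpace 𝕜 S] [FiniteDimensional 𝕜 S]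
    [NormedAddCommGroup Y] [NormedSpace 𝕜 Y] [CompleteSpace Y] (κ : S →L[𝕜] X →L[𝕜] 𝕜)
    (j : Y →L[𝕜] X) (h : ∀ ψ η, 0 < η → ∃ z, ‖z‖ ≤ 1 ∧ ‖ψ‖ - η ≤ ‖κ ψ (j z)‖) (x : X) {t : ℝ}
    (ht0 : 0 ≤ t) (ht : ∀ ψ, ‖κ ψ x‖ ≤ t * ‖ψ‖) :
    ∃ y, ‖y‖ ≤ 2 * t ∧ ∀ ψ, κ ψ (j y) = κ ψ x := by
  obtain ⟨y, hy, hn⟩ := surj_of_dual (κ.flip.comp j) 1 one_pos (fun g => by
    obtain ⟨ψ, h1, h2⟩ := exists_eval g
    rw [one_mul, h1]
    refine le_of_forall_pos_le_add fun η hη => ?_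
    obtain ⟨z, hz, h3⟩ := h ψ η hη
    have h4 := (g.comp (κ.flip.comp j)).le_of_opNorm_le_of_le le_rfl hz
    rw [ContinuousLinearMap.comp_apply, h2, mul_one] at h4
    change ‖κ ψ (j z)‖ ≤ _ at h4
    linarith) (κ.flip x)
  have hTx : ‖κ.flip x‖ ≤ t := ContinuousLinearMap.opNorm_le_bound _ ht0 ht
  refine ⟨y, ?_, fun ψ => congrArg (fun f : S →L[𝕜] 𝕜 => f ψ) hy⟩
  rw [div_one] at hn
  linarith

theorem sum_smul_apply (φ : ℕ → X →L[𝕜] 𝕜) (F : Finset ℕ) (a : ℕ → 𝕜) (x : X) :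
    (∑ i ∈ F, a i • φ i) x = ∑ i ∈ F, a i * φ i x := by
  simp only [_root_.sum_apply, _root_.smul_apply, smul_eq_mul]

theorem exists_Ico {n : ℕ → ℕ} (hn : StrictMono n) {j : ℕ} (hj : n 0 ≤ j) :
    ∃ k, n k ≤ j ∧ j < n (k + 1) := by
  induction j, hj using Nat.le_induction with
  | base => exact ⟨0, le_rfl, hn zero_lt_one⟩
  | succ j _ ih =>
    obtain ⟨k, h1, h2⟩ := ih
    rcases (Nat.succ_le_of_lt h2).eq_or_lt with h | h
    · exact ⟨k + 1, h.ge, h.trans_lt (hn (Nat.lt_succ_self _))⟩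
    · exact ⟨k, h1.trans (Nat.le_succ j), h⟩

theorem suppress {u : ℕ → X →L[𝕜] 𝕜} (hU : Unc u) {A F : Finset ℕ} (h : A ⊆ F) (a : ℕ → 𝕜) :
    ‖∑ k ∈ A, a k • u k‖ ≤ ‖∑ k ∈ F, a k • u k‖ := by
  refine le_of_forall_pos_le_add fun η hη => ?_
  obtain ⟨x, hx, h0, h1⟩ := hU A a η hη
  rw [Finset.sum_subset (f := fun k => a k * u k x) h fun k _ hk => by rw [h0 k hk, mul_zero],
    ← sum_smul_apply] at h1
  have := (∑ k ∈ F, a k • u k).le_of_opNorm_le_of_le le_rfl hx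
  linarith

theorem part_le {u : ℕ → X →L[𝕜] 𝕜} (hU : Unc u) {x : X} {r : ℕ → ℝ} {ε : ℝ}
    (hr : ∀ k, u k x = r k) (hε : ∀ k, ε ≤ r k) (F : Finset ℕ) (a : ℕ → 𝕜) {c : 𝕜} (hc : ‖c‖ ≤ 1) :
    ε * ∑ k ∈ F, max (RCLike.re (c * a k)) 0 ≤ ‖∑ k ∈ F, a k • u k‖ * ‖x‖ := by
  classical
  have h1 : ∑ k ∈ F, max (RCLike.re (c * a k)) 0 =
      ∑ k ∈ F.filter fun k => 0 ≤ RCLike.re (c * a k), RCLike.re (c * a k) := by
    rw [Finset.sum_filter]
    refine Finset.sum_congr rfl fun k _ => ?_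
    split_ifs with h
    · exact max_eq_left h
    · exact max_eq_right (not_le.1 h).le
  rw [h1]
  refine le_trans ?_ (mul_le_mul_of_nonneg_right (suppress hU
    (Finset.filter_subset (fun k => 0 ≤ RCLike.re (c * a k)) F) a) (norm_nonneg _))
  refine le_trans ?_ (ContinuousLinearMap.le_opNorm _ _)
  refine le_trans ?_ ((mul_le_of_le_one_left (norm_nonneg _) hc).trans'
    ((RCLike.re_le_norm (c * _)).trans (norm_mul _ _).le))
  rw [sum_smul_apply, Finset.mul_sum, Finset.mul_sum, map_sum]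
  refine Finset.sum_le_sum fun k hk => ?_
  rw [hr, ← mul_assoc, RCLike.re_mul_ofReal, mul_comm]
  exact mul_le_mul_of_nonneg_left (hε k) (Finset.mem_filter.1 hk).2

theorem norm_le_parts (z : 𝕜) : ‖z‖ ≤ max (RCLike.re (1 * z)) 0 + max (RCLike.re (-1 * z)) 0 +
    max (RCLike.re (RCLike.I * z)) 0 + max (RCLike.re (-RCLike.I * z)) 0 := by
  have h : ‖z‖ ≤ |RCLike.re z| + |RCLike.im z| := by
    refine le_of_sq_le_sq ?_ (by positivity) |>.trans le_rfl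
    rw [RCLike.norm_sq_eq_def, add_sq, sq_abs, sq_abs]
    have : 0 ≤ 2 * |RCLike.re z| * |RCLike.im z| := by positivity
    linarith
  simp only [neg_mul, one_mul, map_neg, RCLike.I_mul_re, neg_neg]
  rw [← max_zero_add_max_neg_zero_eq_abs_self, ← max_zero_add_max_neg_zero_eq_abs_self] at h
  linarith

theorem norm_I_le : ‖(RCLike.I : 𝕜)‖ ≤ 1 := by
  rcases eq_or_ne (RCLike.I : 𝕜) 0 with h | h
  · rw [h, norm_zero]; exact zero_le_one
  · exact (RCLike.norm_I_of_ne_zero h).le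

end ShrA

open ShrA

theorem Unc.lift [CompleteSpace X] {φ : ℕ → X →L[𝕜] 𝕜} (hU : Unc φ) (F : Finset ℕ) (x : X) (t : ℝ)
    (ht0 : 0 ≤ t)
    (ht : ∀ a : ℕ → 𝕜, ‖∑ i ∈ F, a i * φ i x‖ ≤ t * ‖∑ i ∈ F, a i • φ i‖) :
    ∃ y : X, ‖y‖ ≤ 2 * t ∧ (∀ j, j ∉ F → φ j y = 0) ∧ ∀ i ∈ F, φ i y = φ i x := by
  let Y : Submodule 𝕜 X :=
    { carrier := {y | ∀ j, j ∉ F → φ j y = 0}
      add_mem' := fun ha hb j hj => by rw [map_add, ha j hj, hb j hj, add_zero]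
      zero_mem' := fun j _ => map_zero _
      smul_mem' := fun c y hy j hj => by rw [map_smul, hy j hj, smul_zero] }
  have hY : IsClosed (Y : Set X) := by
    change IsClosed {y | ∀ j, j ∉ F → φ j y = 0}
    simp only [Set.ofPred_forall]
    exact isClosed_iInter fun j => isClosed_iInter fun _ =>
      isClosed_eq (φ j).continuous continuous_const
  have : CompleteSpace Y := hY.completeSpace_coe
  let S : Submodule 𝕜 (X →L[𝕜] 𝕜) := Submodule.span 𝕜 (φ '' F)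
  have : FiniteDimensional 𝕜 S := FiniteDimensional.span_of_finite 𝕜 (F.finite_toSet.image φ)
  have hS : ∀ ψ : S, ∃ a : ℕ → 𝕜, ∑ i ∈ F, a i • φ i = ψ := fun ψ =>
    (Submodule.mem_span_image_finset_iff_exists_fun' 𝕜).1 ψ.2
  obtain ⟨y, hy, h⟩ := lift_aux (S := S) S.subtypeₗᵢ.toContinuousLinearMap Y.subtypeL (fun ψ η hη => by
    obtain ⟨a, ha⟩ := hS ψ
    obtain ⟨z, hz, h0, h3⟩ := hU F a η hη
    rw [← sum_smul_apply, ha] at h3
    exact ⟨⟨z, h0⟩, hz, h3⟩) x ht0 fun ψ => by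
      obtain ⟨a, ha⟩ := hS ψ
      have := ht a
      rwa [← sum_smul_apply, ha] at this
  exact ⟨y, hy, y.2, fun i hi => h ⟨φ i, Submodule.subset_span ⟨i, hi, rfl⟩⟩⟩

theorem sq_of_shr [CompleteSpace X] {φ : ℕ → X →L[𝕜] 𝕜} (hU : Unc φ) {δ : ℝ} (hδ : 0 < δ)
    (hφ : ∀ i, δ ≤ ‖φ i‖) (hS : Shr φ) : SQ 𝕜 X := by
  refine lemA (fun n => (n : 𝕜) • φ n) (fun C => ?_) (Metric.dense_iff.2 fun x ε hε => ?_)
  · obtain ⟨n, hn⟩ := exists_nat_gt (C / δ)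
    refine ⟨n, ?_⟩
    rw [norm_smul, RCLike.norm_natCast]
    exact ((div_lt_iff₀ hδ).1 hn).trans_le (mul_le_mul_of_nonneg_left (hφ n) n.cast_nonneg)
  choose N hN using fun k : ℕ => hS x (ε / 4 / 2 / 2 ^ k) (by positivity)
  let n : ℕ → ℕ := fun k => ∑ j ∈ Finset.range (k + 1), (N j + 1)
  have hn : StrictMono n := strictMono_nat_of_lt_succ fun k => by
    simp only [n]
    rw [Finset.sum_range_succ _ (k + 1)]
    omega
  have hNn : ∀ k, N k ≤ n k := fun k => by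
    simp only [n]
    rw [Finset.sum_range_succ]
    omega
  choose y hy1 hy2 hy3 using fun k => hU.lift (Finset.Ico (n k) (n (k + 1))) x
    (ε / 4 / 2 / 2 ^ k) (by positivity) fun a =>
      hN k _ a fun i hi => (hNn k).trans (Finset.mem_Ico.1 hi).1
  have hg := (hasSum_geometric_two' (ε / 4)).mul_left 2
  have hs : Summable y := .of_norm_bounded hg.summable hy1
  have h0 : ∀ j, n 0 ≤ j → φ j (x - ∑' k, y k) = 0 := by
    intro j hj
    obtain ⟨k, hk⟩ := exists_Ico hn hj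
    rw [map_sub, (φ j).map_tsum hs, tsum_eq_single k fun l hl => hy2 l j fun h => hl ?_,
      hy3 k j (Finset.mem_Ico.2 hk), sub_self]
    have h := Finset.mem_Ico.1 h
    have h1 := hn.lt_iff_lt.1 (h.1.trans_lt hk.2)
    have h2 := hn.lt_iff_lt.1 (hk.1.trans_lt h.2)
    omega
  refine ⟨x - ∑' k, y k, ?_, ∑ j ∈ Finset.range (n 0), ‖((j : 𝕜) • φ j) (x - ∑' k, y k)‖,
    fun j => ?_⟩
  · rw [mem_ball_iff_norm, sub_sub_cancel_left, norm_neg]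
    exact (tsum_of_norm_bounded hg hy1).trans_lt (by linarith)
  · rcases lt_or_ge j (n 0) with h | h
    · exact Finset.single_le_sum (f := fun j : ℕ => ‖((j : 𝕜) • φ j) (x - ∑' k, y k)‖)
        (fun _ _ => norm_nonneg _) (Finset.mem_range.2 h)
    · rw [_root_.smul_apply, h0 j h, smul_zero, norm_zero]
      exact Finset.sum_nonneg fun _ _ => norm_nonneg _

theorem exists_l1_of_not_shr {φ : ℕ → X →L[𝕜] 𝕜} (hU : Unc φ) (hS : ¬ Shr φ) :
    ∃ (u : ℕ → X →L[𝕜] 𝕜) (δ : ℝ), 0 < δ ∧ Unc u ∧ L1 u δ ∧ ∀ k, ‖u k‖ ≤ 1 := by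
  simp only [Shr, not_forall, not_exists, not_le] at hS
  obtain ⟨x, ε, hε, h⟩ := hS
  choose F a hF h using h
  simp only [← sum_smul_apply] at h
  let n : ℕ → ℕ := fun k => Nat.rec 0 (fun _ p => (F p).sup id + p + 1) k
  have hn : Monotone n := monotone_nat_of_le_succ fun k => by
    change n k ≤ (F (n k)).sup id + n k + 1
    omega
  have hG : ∀ k l, k < l → ∀ i ∈ F (n k), ∀ j ∈ F (n l), i < j := by
    intro k l hkl i hi j hj
    have h1 : (F (n k)).sup id + n k + 1 ≤ j := (hn (Nat.succ_le_of_lt hkl)).trans (hF _ j hj)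
    have h2 : i ≤ (F (n k)).sup id := Finset.le_sup (f := id) hi
    omega
  obtain ⟨w, hw⟩ : ∃ w : ℕ → X →L[𝕜] 𝕜, ∀ p, w p = ∑ i ∈ F p, a p i • φ i := ⟨_, fun _ => rfl⟩
  simp only [← hw] at h
  have hw0 : ∀ p, 0 < ‖w p‖ := fun p => norm_pos_iff.2 fun h0 => by simpa [h0] using h p
  have hx0 : 0 < ‖x‖ := norm_pos_iff.2 fun h0 => by
    have := h 0
    rw [h0, map_zero, norm_zero] at this
    exact absurd this (mul_pos hε (hw0 0)).not_gt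
  choose c hc1 hc2 using fun p => RCLike.exists_norm_eq_mul_self (w p x)
  let u : ℕ → X →L[𝕜] 𝕜 := fun k => (((‖w (n k)‖⁻¹ : ℝ) : 𝕜) * c (n k)) • w (n k)
  have hu : Unc u := StabA.unc_of_blocks hG
    (c := fun k i => ((‖w (n k)‖⁻¹ : ℝ) : 𝕜) * c (n k) * a (n k) i)
    (fun k => by simp only [u, mul_smul, ← Finset.smul_sum, ← hw]) hU
  refine ⟨u, ε / (4 * ‖x‖), by positivity, hu, fun A b => ?_, fun k => ?_⟩
  · have key := fun (c' : 𝕜) (hc' : ‖c'‖ ≤ 1) => part_le hu (x := x)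
      (r := fun k => ‖w (n k)‖⁻¹ * ‖w (n k) x‖) (ε := ε)
      (fun k => by
        simp only [u, _root_.smul_apply, smul_eq_mul]
        rw [mul_assoc, ← hc2, RCLike.ofReal_mul])
      (fun k => by rw [le_inv_mul_iff₀' (hw0 _)]; exact (h _).le) A b hc'
    have k1 := key 1 (by simp)
    have k2 := key (-1) (by simp)
    have k3 := key RCLike.I norm_I_le
    have k4 := key (-RCLike.I) (by rw [norm_neg]; exact norm_I_le)
    have k5 := mul_le_mul_of_nonneg_left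
      (Finset.sum_le_sum fun k (_ : k ∈ A) => norm_le_parts (b k)) hε.le
    simp only [Finset.sum_add_distrib] at k5
    rw [div_mul_eq_mul_div, div_le_iff₀ (by positivity)]
    linarith
  · simp only [u]
    rw [norm_smul, norm_mul, hc1, RCLike.norm_ofReal, abs_of_pos (inv_pos.2 (hw0 _)), mul_one,
      inv_mul_cancel₀ (hw0 _).ne']

end Crest.Agent.R114
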