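import Crest.Agent.R114.QDefs

/-!
# Task R114-QTree (Hagler–Johnson tree)

`one_step`.  `B` finite nonempty (enumerate it, `e : Fin m ≃ B`), `N b` infinite.  Choose indices
`idx k b ∈ N b` strictly increasing along the lexicographic order of `(k, e⁻¹ b)` (a strictly increasing sequence
`q : ℕ → ℕ` with `q (k*m + a) ∈ N (e a)`), `w k = m⁻¹ ∑_b sg (f b) • v (idx k b)` is a block of `v`.
`Stable.2` gives `x`, `‖x‖ ≤ 1`, with `d - ε ≤ ‖w k x‖` frequently.  Unimodular `λ_k` with `λ_k * w k x = ‖w k x‖`;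
cover the unit sphere of `𝕜` by finitely many `ε`-balls (or compactness / a convergent subsequence) to get one unimodular
`λ` with `re (w k (λ • x)) ≥ d - 2ε` frequently (`‖w k x‖ ≤ 1`... use `Stable.1`: `≤ d + ε`).  Eventually
`‖v j (λ•x)‖ ≤ d + ε`; the numbers `d + ε - re (sg (f b) * v (idx k b) x')` are `≥ 0` with average `≤ 3ε`, so each is
`≤ 3 m ε`, and `‖z - d‖² = ‖z‖² - 2 d re z + d² ≤ (d+ε)² - 2d(d - 3mε) + d²` is small.
`N' b = {idx k b | k good}`.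

`cantor_of_stable`.  Iterating `one_step` over the finitely many `f : (Fin n → Bool) → Bool` gives, from a level-`n`
family `N : (Fin n → Bool) → Set ℕ` of infinite sets, a refined family handling all `f`.  Level `n+1` starts from
`N (b ∘ castSucc)`.  For `b : ℕ → Bool` the sets `N_n (b|n)` are decreasing and infinite, so there is an ultrafilter `U b`
containing all of them (`Ultrafilter.of` of the generated/`⨅ 𝓟` filter); `θ b x = lim_{U b} v k x` (bounded sequence in the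
proper space `𝕜`; linear, norm `≤ 1`; or use a weak* cluster point / Banach–Alaoglu).
-/

set_option autoImplicit false

namespace Crest.Agent.R114

open Filter

variable {𝕜 : Type} [RCLike 𝕜] {X : Type*} [NormedAddCommGroup X] [NormedSpace 𝕜 X]

namespace TreeA

open Topology

theorem norm_sg (b : Bool) : ‖sg 𝕜 b‖ = 1 := by cases b <;> simp [sg]

theorem sg_mul_sg (b : Bool) : sg 𝕜 b * sg 𝕜 b = 1 := by cases b <;> simp [sg]

theorem exists_idx {B : Type} [Fintype B] [Nonempty B] (N : B → Set ℕ) (hN : ∀ b, (N b).Infinite) :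
    ∃ idx : ℕ → B → ℕ, (∀ k b, idx k b ∈ N b) ∧ (∀ k, Function.Injective (idx k)) ∧
      ∀ k l, k < l → ∀ b b', idx k b < idx l b' := by
  have hm : 0 < Fintype.card B := Fintype.card_pos
  let e := Fintype.equivFin B
  obtain ⟨q, hq, hq'⟩ := extraction_forall_of_frequently
    (P := fun j k => k ∈ N (e.symm ⟨j % Fintype.card B, Nat.mod_lt _ hm⟩))
    fun j => Nat.frequently_atTop_iff_infinite.2 (hN _)
  refine ⟨fun k b => q (k * Fintype.card B + e b), fun k b => ?_, fun k b b' h => ?_,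
    fun k l hkl b b' => hq ?_⟩
  · have := hq' (k * Fintype.card B + e b)
    simp only [Nat.mul_add_mod_of_lt (e b).2, Fin.eta, Equiv.symm_apply_apply] at this
    exact this
  · exact e.injective (Fin.ext (Nat.add_left_cancel (hq.injective h)))
  · have h1 := (e b).2
    have h2 : (k + 1) * Fintype.card B ≤ l * Fintype.card B := Nat.mul_le_mul_right _ hkl
    rw [add_mul, one_mul] at h2
    omega

theorem near {d ε M η : ℝ} (hd : 0 < d) (hη : 0 < η) (hε : 0 < ε) (hεd : ε ≤ d)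
    (h : ε * (d + 2 * d * M) ≤ η ^ 2) {z : 𝕜} (h1 : ‖z‖ ≤ d + ε)
    (h2 : d + ε - RCLike.re z ≤ M * ε) : ‖z - (d : 𝕜)‖ ≤ η := by
  refine le_of_sq_le_sq ?_ hη.le |>.trans le_rfl
  have e : ‖z - (d : 𝕜)‖ ^ 2 = ‖z‖ ^ 2 - 2 * d * RCLike.re z + d ^ 2 := by
    rw [← RCLike.normSq_eq_def', RCLike.normSq_sub, RCLike.normSq_eq_def', RCLike.normSq_eq_def',
      RCLike.conj_ofReal, RCLike.re_mul_ofReal, RCLike.norm_ofReal, sq_abs]
    ring
  have h3 : ‖z‖ ^ 2 ≤ (d + ε) ^ 2 := pow_le_pow_left₀ (norm_nonneg _) h1 2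
  rw [e]
  nlinarith

end TreeA

open TreeA Topology

theorem one_step {v : ℕ → X →L[𝕜] 𝕜} {d : ℝ} (hd : 0 < d) (hS : Stable v d)
    {B : Type} [Fintype B] [Nonempty B] (N : B → Set ℕ) (hN : ∀ b, (N b).Infinite)
    (f : B → Bool) (η : ℝ) (hη : 0 < η) :
    ∃ (x : X) (N' : B → Set ℕ), ‖x‖ ≤ 1 ∧ (∀ b, N' b ⊆ N b) ∧ (∀ b, (N' b).Infinite) ∧
      ∀ b, ∀ k ∈ N' b, ‖v k x - (d : 𝕜) * sg 𝕜 (f b)‖ ≤ η := by
  classical
  obtain ⟨idx, h1, h2, h3⟩ := exists_idx N hN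
  obtain ⟨m, hm⟩ : ∃ m : ℝ, m = Fintype.card B := ⟨_, rfl⟩
  have hm0 : 0 < m := hm ▸ Nat.cast_pos.2 Fintype.card_pos
  obtain ⟨ε, hε, hεd, hεη⟩ : ∃ ε, 0 < ε ∧ ε ≤ d ∧ ε * (d + 2 * d * (3 * m)) ≤ η ^ 2 :=
    ⟨min d (η ^ 2 / (d + 2 * d * (3 * m))), lt_min hd (by positivity), min_le_left _ _,
      (le_div_iff₀ (by positivity)).1 (min_le_right _ _)⟩
  let w : ℕ → X →L[𝕜] 𝕜 := fun k => ∑ b, (((m⁻¹ : ℝ) : 𝕜) * sg 𝕜 (f b)) • v (idx k b)
  have hw : ∀ k x, w k x = ((m⁻¹ : ℝ) : 𝕜) * ∑ b, sg 𝕜 (f b) * v (idx k b) x := by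
    intro k x
    simp only [w, _root_.sum_apply, _root_.smul_apply, smul_eq_mul, Finset.mul_sum, mul_assoc]
  have hB : Blk v w := by
    refine ⟨fun k => Finset.univ.image (idx k),
      fun k => Function.extend (idx k) (fun b => ((m⁻¹ : ℝ) : 𝕜) * sg 𝕜 (f b)) 0,
      fun k l hkl i hi j hj => ?_, fun k => ?_, fun k => ?_⟩
    · obtain ⟨b, -, rfl⟩ := Finset.mem_image.1 hi
      obtain ⟨b', -, rfl⟩ := Finset.mem_image.1 hj
      exact h3 k l hkl b b'
    · rw [Finset.sum_image (h2 k).injOn]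
      simp only [(h2 k).extend_apply, norm_mul, norm_sg, mul_one, RCLike.norm_ofReal,
        abs_of_pos (inv_pos.2 hm0), Finset.sum_const, Finset.card_univ, nsmul_eq_mul, ← hm]
      exact mul_inv_cancel₀ hm0.ne'
    · rw [Finset.sum_image (h2 k).injOn]
      simp only [(h2 k).extend_apply, w]
  have hmono : ∀ b, StrictMono fun k => idx k b := fun b k l hkl => h3 k l hkl b b
  have hev : ∀ x : X, ‖x‖ ≤ 1 → ∀ᶠ k in atTop, ∀ b, ‖v (idx k b) x‖ ≤ d + ε := fun x hx =>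
    eventually_all.2 fun b => (hmono b).tendsto_atTop.eventually (hS.1 x hx ε hε)
  obtain ⟨x, hx, hfr⟩ := hS.2 w hB ε hε
  have hK : IsCompact ({z : 𝕜 | d - ε ≤ ‖z‖} ∩ Metric.closedBall 0 (d + ε)) :=
    (isCompact_closedBall _ _).inter_left (isClosed_le continuous_const continuous_norm)
  obtain ⟨a, ha, φ, hφ, hlim⟩ := hK.tendsto_subseq' (x := fun k => w k x)
    ((hfr.and_eventually (hev x hx)).mono fun k hk => ⟨hk.1, by
      rw [mem_closedBall_zero_iff, hw, norm_mul, RCLike.norm_ofReal, abs_of_pos (inv_pos.2 hm0),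
        inv_mul_le_iff₀ hm0, hm, ← nsmul_eq_mul, ← Finset.card_univ]
      refine (norm_sum_le _ _).trans (Finset.sum_le_card_nsmul _ _ _ fun b _ => ?_)
      rw [norm_mul, norm_sg, one_mul]
      exact hk.2 b⟩)
  obtain ⟨c, hc, hca⟩ := RCLike.exists_norm_eq_mul_self a
  have hx' : ‖c • x‖ ≤ 1 := by rw [norm_smul, hc, one_mul]; exact hx
  have hre : Tendsto (fun n => RCLike.re (w (φ n) (c • x))) atTop (𝓝 ‖a‖) := by
    have := (RCLike.continuous_re.tendsto _).comp (hlim.const_mul c)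
    rw [← hca, RCLike.ofReal_re] at this
    simpa only [map_smul, smul_eq_mul, Function.comp_def] using this
  have hT : {k | (∀ b, ‖v (idx k b) (c • x)‖ ≤ d + ε) ∧
      d - 2 * ε ≤ RCLike.re (w k (c • x))}.Infinite := by
    refine Nat.frequently_atTop_iff_infinite.1 (hφ.tendsto_atTop.frequently
      (Eventually.frequently ((hφ.tendsto_atTop.eventually (hev _ hx')).and
        (hre.eventually (le_mem_nhds ?_)))))
    have : d - ε ≤ ‖a‖ := ha.1
    linarith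
  refine ⟨c • x, fun b => (fun k => idx k b) '' _, hx', ?_,
    fun b => hT.image (hmono b).injective.injOn, ?_⟩
  · rintro b _ ⟨k, -, rfl⟩
    exact h1 k b
  · rintro b _ ⟨k, ⟨hk1, hk2⟩, rfl⟩
    have hz : ∀ b, ‖sg 𝕜 (f b) * v (idx k b) (c • x)‖ ≤ d + ε := fun b => by
      rw [norm_mul, norm_sg, one_mul]; exact hk1 b
    rw [hw, RCLike.re_ofReal_mul, le_inv_mul_iff₀ hm0, map_sum] at hk2
    have h4 := Finset.single_le_sum
      (f := fun b => d + ε - RCLike.re (sg 𝕜 (f b) * v (idx k b) (c • x)))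
      (fun b _ => sub_nonneg.2 ((RCLike.re_le_norm _).trans (hz b))) (Finset.mem_univ b)
    rw [Finset.sum_sub_distrib, Finset.sum_const, Finset.card_univ, nsmul_eq_mul, ← hm] at h4
    have h5 := near hd hη hε hεd hεη (hz b) (by linarith)
    have e : v (idx k b) (c • x) - (d : 𝕜) * sg 𝕜 (f b) =
        sg 𝕜 (f b) * (sg 𝕜 (f b) * v (idx k b) (c • x) - d) := by
      rw [mul_sub, ← mul_assoc, sg_mul_sg, one_mul, mul_comm]
    rw [e, norm_mul, norm_sg, one_mul]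
    exact h5

theorem TreeA.all_steps {v : ℕ → X →L[𝕜] 𝕜} {d : ℝ} (hd : 0 < d) (hS : Stable v d)
    {B : Type} [Fintype B] [Nonempty B] (N : {N : B → Set ℕ // ∀ b, (N b).Infinite}) :
    ∃ N' : {N : B → Set ℕ // ∀ b, (N b).Infinite}, (∀ b, N'.1 b ⊆ N.1 b) ∧
      ∀ f : B → Bool, ∃ x : X, ‖x‖ ≤ 1 ∧
        ∀ b, ∀ k ∈ N'.1 b, ‖v k x - (d : 𝕜) * sg 𝕜 (f b)‖ ≤ d / 4 := by
  classical
  have key : ∀ s : Finset (B → Bool), ∃ N' : {N : B → Set ℕ // ∀ b, (N b).Infinite},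
      (∀ b, N'.1 b ⊆ N.1 b) ∧ ∀ f ∈ s, ∃ x : X, ‖x‖ ≤ 1 ∧
        ∀ b, ∀ k ∈ N'.1 b, ‖v k x - (d : 𝕜) * sg 𝕜 (f b)‖ ≤ d / 4 := by
    intro s
    induction s using Finset.induction_on with
    | empty => exact ⟨N, fun _ => le_rfl, by simp⟩
    | insert g s _ ih =>
      obtain ⟨N₁, h1, h2⟩ := ih
      obtain ⟨x, N₂, hx, h3, h4, h5⟩ := one_step hd hS N₁.1 N₁.2 g (d / 4) (by positivity)
      refine ⟨⟨N₂, h4⟩, fun b => (h3 b).trans (h1 b), fun f hf => ?_⟩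
      rcases Finset.mem_insert.1 hf with rfl | hf
      · exact ⟨x, hx, h5⟩
      · obtain ⟨y, hy, h6⟩ := h2 f hf
        exact ⟨y, hy, fun b k hk => h6 b k (h3 b hk)⟩
  obtain ⟨N', h1, h2⟩ := key Finset.univ
  exact ⟨N', h1, fun f => h2 f (Finset.mem_univ f)⟩

theorem TreeA.exists_lim {v : ℕ → X →L[𝕜] 𝕜} (hv : ∀ k, ‖v k‖ ≤ 1) (U : Ultrafilter ℕ) :
    ∃ θ : X →L[𝕜] 𝕜, ‖θ‖ ≤ 1 ∧ ∀ x, Tendsto (fun k => v k x) U (𝓝 (θ x)) := by
  have hb : ∀ k x, ‖v k x‖ ≤ 1 * ‖x‖ := fun k x => (v k).le_of_opNorm_le (hv k) x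
  have hex : ∀ x, ∃ z, Tendsto (fun k => v k x) U (𝓝 z) := by
    intro x
    obtain ⟨z, -, hz⟩ := (isCompact_closedBall (0 : 𝕜) (1 * ‖x‖)).ultrafilter_le_nhds
      (U.map fun k => v k x) (by
        rw [Ultrafilter.coe_map, le_principal_iff, mem_map]
        exact Eventually.of_forall fun k => mem_closedBall_zero_iff.2 (hb k x))
    exact ⟨z, hz⟩
  choose g hg using hex
  let L : X →ₗ[𝕜] 𝕜 := linearMapOfTendsto g (fun k => (v k : X →ₗ[𝕜] 𝕜)) (tendsto_pi_nhds.2 hg)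
  have hL : ∀ x, ‖L x‖ ≤ 1 * ‖x‖ := fun x => le_of_tendsto' (hg x).norm fun k => hb k x
  exact ⟨L.mkContinuous 1 hL, L.mkContinuous_norm_le zero_le_one hL, hg⟩

theorem cantor_of_stable {v : ℕ → X →L[𝕜] 𝕜} {d : ℝ} (hd : 0 < d) (hS : Stable v d)
    (hv : ∀ k, ‖v k‖ ≤ 1) : ∃ θ : (ℕ → Bool) → X →L[𝕜] 𝕜, Cantor θ d := by
  choose R hR1 hR2 using fun (n : ℕ) (N : {N : (Fin n → Bool) → Set ℕ // ∀ b, (N b).Infinite}) =>
    all_steps hd hS N
  let T : ∀ n : ℕ, {N : (Fin n → Bool) → Set ℕ // ∀ b, (N b).Infinite} := fun n =>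
    Nat.rec (R 0 ⟨fun _ => Set.univ, fun _ => Set.infinite_univ⟩)
      (fun n N => R (n + 1) ⟨fun b => N.1 fun i => b i.castSucc, fun _ => N.2 _⟩) n
  have hT : ∀ n (f : (Fin n → Bool) → Bool), ∃ x : X, ‖x‖ ≤ 1 ∧
      ∀ b, ∀ k ∈ (T n).1 b, ‖v k x - (d : 𝕜) * sg 𝕜 (f b)‖ ≤ d / 4 := by
    intro n
    cases n with
    | zero => exact hR2 0 _
    | succ n => exact hR2 (n + 1) _
  have hU : ∀ b : ℕ → Bool, ∃ U : Ultrafilter ℕ, ∀ n, (T n).1 (fun i => b i) ∈ U := by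
    intro b
    have hanti : Antitone fun n => 𝓟 ((T n).1 fun i => b i) :=
      antitone_nat_of_succ_le fun n => principal_mono.2 (hR1 (n + 1) _ _)
    have : (⨅ n, 𝓟 ((T n).1 fun i => b i)).NeBot :=
      iInf_neBot_of_directed' hanti.directed_ge fun n =>
        principal_neBot_iff.2 ((T n).2 _).nonempty
    exact ⟨Ultrafilter.of _, fun n =>
      le_principal_iff.1 ((Ultrafilter.of_le _).trans (iInf_le _ n))⟩
  choose U hU using hU
  choose θ hθ1 hθ2 using fun b => exists_lim hv (U b)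
  refine ⟨θ, hθ1, fun n f => ?_⟩
  obtain ⟨x, hx, h⟩ := hT n f
  exact ⟨x, hx, fun b => le_of_tendsto ((hθ2 b x).sub_const _).norm
    (mem_of_superset (hU b n) (h _))⟩

end Crest.Agent.R114
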