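import Crest.Agent.R114.QUnc
import Crest.Agent.R114.QShr
import Crest.Agent.R114.QStab
import Crest.Agent.R114.QTree
import Crest.Agent.R114.QHil

set_option autoImplicit false

namespace Crest.Agent.R114

variable {𝕜 : Type} [RCLike 𝕜] {X : Type*} [NormedAddCommGroup X] [NormedSpace 𝕜 X]

theorem sq_main [CompleteSpace X] (hc : Crest.AnalysisR.ContinuumRVM)
    (hX : ¬ FiniteDimensional 𝕜 X) : SQ 𝕜 X := by
  rcases sq_or_unc hc hX with h | ⟨φ, hφ, hU⟩
  · exact h
  by_cases hS : Shr φ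
  · exact sq_of_shr hU one_pos (fun i => (hφ i).ge) hS
  obtain ⟨u, δ, hδ, hUu, hL, hu⟩ := exists_l1_of_not_shr hU hS
  obtain ⟨v, d, hb, hd, hst⟩ := exists_stable u hu
  rcases hd.eq_or_lt with rfl | hd
  · refine sq_of_shr (hb.unc hUu) hδ (fun i => ?_) (shr_of_stable_zero hδ (hb.l1 hL) hst)
    simpa using hb.l1 hL {i} (fun _ => 1)
  · obtain ⟨θ, hθ⟩ := cantor_of_stable hd hst (hb.norm_le hu)
    exact sq_of_cantor hd hθ

end Crest.Agent.R114
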