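import Crest.Prelude.Def_ContinuumRVM
import Crest.Agent.R114.QDefs
import Crest.Agent.R254.DR

/-!
# Task R114-QRand (random unbounded sequences of functionals)

`exists_total_measure`.  `S` = a type synonym of `ℝ` with `MeasurableSpace := ⊤`; `ν = Measure.ofMeasurable (fun A _ => m A) ..`
(countable additivity from `hc` with `ι = ℕ`, `Cardinal.aleph0_lt_continuum`; `m ∅ = 0` from additivity over
`ι = Empty`/`PEmpty` or from finiteness).  Small pieces: every point `t` has an open ball of measure `≤ ε`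
(continuity from above, `⋂ ball t (1/(n+1)) = {t}` null), the complement of `Icc (-R) R` has measure `≤ ε` for
large `R`, `Icc (-R) R` is compact ⇒ finite cover `A_0..A_{M-1}`; `ω s` = some index with `s ∈ A_i`.

`dr_dual`.  Apply `Crest.Agent.R254.dvoretzky_rogers` to `B = X →L[𝕜] 𝕜` viewed as a real normed space
(`NormedSpace.restrictScalars ℝ 𝕜 B` / the existing instance; `B` is infinite-dimensional over `ℝ` because it is
over `𝕜`: the dual of an infinite-dimensional normed space is infinite-dimensional, e.g. `X` embeds in the double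
dual, `NormedSpace.inclusionInDoubleDualLi`).  `g i = u (single i 1)`.  For fixed `x` the real functionals
`a ↦ re (u a x)`, `a ↦ im (u a x)` on `EuclideanSpace ℝ (Fin n)` have norm `≤ ‖x‖`; testing with
`a = (re (g i x))_i` gives `∑ re(g i x)^2 ≤ ‖x‖^2`, same for `im`.

`rand`.  For each `n` take pieces of measure `≤ ε_n = 2^{-n} 4^{-n} / 50`, `M_n` pieces, `g0 = dr_dual M_n`,
`g n i = (3 * 2^n) • g0 i` (`i < M_n`; anything of norm `≥ 2^n` otherwise, or only use `ω s n < M_n`).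
`#{i | ‖x‖ < ‖g n i x‖} ≤ 2 * 9 * 4^n`, so `ν {s | ‖x‖ < ‖g n (ω s n) x‖} ≤ 18 * 4^n * ε_n ≤ 2^{-n}`;
Borel–Cantelli (`MeasureTheory.ae_eventually_notMem` / `measure_limsup_atTop_eq_zero`) ⇒ a.e. `s` eventually
`‖g n (ω s n) x‖ ≤ ‖x‖`, hence bounded.
-/

set_option autoImplicit false

namespace Crest.Agent.R114

open Filter MeasureTheory

variable {𝕜 : Type} [RCLike 𝕜] {X : Type*} [NormedAddCommGroup X] [NormedSpace 𝕜 X]

namespace RandA

open Topology

/-- the real line, with all subsets measurable -/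
def SS : Type := ℝ

instance : MeasurableSpace SS := ⊤

instance : DiscreteMeasurableSpace SS := ⟨fun _ => trivial⟩

theorem small {S : Type} [MeasurableSpace S] [DiscreteMeasurableSpace S] (ν : Measure S)
    [IsProbabilityMeasure ν] {A : ℕ → Set S} (hA : Antitone A) (h0 : ν (⋂ n, A n) = 0) {ε : ℝ}
    (hε : 0 < ε) : ∃ n, ν (A n) ≤ ENNReal.ofReal ε := by
  have h := tendsto_measure_iInter_atTop (μ := ν)
    (fun n => (MeasurableSet.of_discrete (s := A n)).nullMeasurableSet) hA ⟨0, measure_ne_top _ _⟩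
  rw [h0] at h
  exact (h.eventually (ge_mem_nhds (ENNReal.ofReal_pos.2 hε))).exists

theorem sq_le {n : ℕ} (u : EuclideanSpace ℝ (Fin n) →L[ℝ] (X →L[𝕜] 𝕜)) (hu : ∀ a, ‖u a‖ ≤ ‖a‖)
    (φ : 𝕜 →L[ℝ] ℝ) (hφ : ∀ z, φ z ≤ ‖z‖) (x : X) :
    ∑ i, φ (u (EuclideanSpace.single i 1) x) ^ 2 ≤ ‖x‖ ^ 2 := by
  set a : EuclideanSpace ℝ (Fin n) := WithLp.toLp 2 fun i => φ (u (EuclideanSpace.single i 1) x)
    with ha
  have h1 : a = ∑ i, a i • EuclideanSpace.single i (1 : ℝ) := by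
    ext q; simp [Pi.single_apply]
  have h2 : ‖a‖ ^ 2 = ∑ i, φ (u (EuclideanSpace.single i 1) x) ^ 2 := by
    rw [EuclideanSpace.norm_sq_eq]
    exact Finset.sum_congr rfl fun i _ => by rw [Real.norm_eq_abs, sq_abs]
  have h3 : φ (u a x) = ‖a‖ ^ 2 := by
    rw [h2]
    conv_lhs => rw [h1]
    rw [map_sum, sum_apply, map_sum]
    refine Finset.sum_congr rfl fun i _ => ?_
    rw [map_smul, smul_apply, map_smul, smul_eq_mul, sq]
  have h4 : ‖a‖ ^ 2 ≤ ‖a‖ * ‖x‖ := by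
    rw [← h3]
    exact (hφ _).trans (((u a).le_opNorm x).trans
      (mul_le_mul_of_nonneg_right (hu a) (norm_nonneg _)))
  rw [← h2]
  nlinarith [norm_nonneg a, norm_nonneg x, sq_nonneg (‖a‖ - ‖x‖)]

end RandA

open RandA Topology

theorem exists_total_measure (hc : Crest.AnalysisR.ContinuumRVM) :
    ∃ (S : Type) (_ : MeasurableSpace S) (_ : DiscreteMeasurableSpace S) (ν : Measure S)
      (_ : IsProbabilityMeasure ν),
      ∀ ε : ℝ, 0 < ε → ∃ (M : ℕ) (ω : S → ℕ), (∀ s, ω s < M) ∧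
        ∀ i, ν {s | ω s = i} ≤ ENNReal.ofReal ε := by
  classical
  obtain ⟨m, m1, m0, mU⟩ := hc
  have me : m ∅ = 0 := by
    have := mU Empty (fun _ => ∅) (by simpa using Cardinal.continuum_pos) (fun i => i.elim)
    simpa using this
  let ν : Measure SS := Measure.ofMeasurable (fun A _ => m A) me fun f _ hd =>
    mU ℕ f (by simpa using Cardinal.aleph0_lt_continuum) hd
  have hν : ∀ A : Set SS, ν A = m A := fun A => Measure.ofMeasurable_apply A MeasurableSet.of_discrete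
  have hP : IsProbabilityMeasure ν := ⟨(hν _).trans m1⟩
  refine ⟨SS, inferInstance, inferInstance, ν, hP, fun ε hε => ?_⟩
  have h1 : ∀ t : ℝ, ∃ U : Set ℝ, U ∈ 𝓝 t ∧ ν U ≤ ENNReal.ofReal ε := by
    intro t
    let A : ℕ → Set ℝ := fun n => Metric.ball t (1 / ((n : ℝ) + 1))
    have hA : Antitone A := fun a b hab =>
      Metric.ball_subset_ball (Nat.one_div_le_one_div hab)
    have h0 : (⋂ n, A n) = {t} := by
      ext y
      simp only [A, Set.mem_iInter, Metric.mem_ball, Set.mem_singleton_iff]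
      constructor
      · intro h
        by_contra hy
        obtain ⟨n, hn⟩ := exists_nat_one_div_lt (dist_pos.2 hy)
        exact lt_asymm hn (h n)
      · rintro rfl n
        rw [dist_self]; positivity
    obtain ⟨n, hn⟩ := small ν (A := A) hA ((hν _).trans ((congrArg m h0).trans (m0 t))) hε
    exact ⟨A n, Metric.ball_mem_nhds t (by positivity), hn⟩
  choose U hU hUν using h1
  obtain ⟨T, hT, hTU⟩ := TopologicalSpace.countable_cover_nhds hU
  have hne : T.Nonempty := by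
    have : (0 : ℝ) ∈ ⋃ x ∈ T, U x := hTU ▸ Set.mem_univ _
    simp only [Set.mem_iUnion] at this
    obtain ⟨x, hx, -⟩ := this
    exact ⟨x, hx⟩
  obtain ⟨e, rfl⟩ := hT.exists_eq_range hne
  have hex : ∀ s : ℝ, ∃ n, s ∈ U (e n) := fun s => by
    have : s ∈ ⋃ x ∈ Set.range e, U x := hTU ▸ Set.mem_univ _
    simpa using this
  let ω₀ : SS → ℕ := fun s => Nat.find (hex s)
  obtain ⟨N, hN⟩ := small ν (A := fun n => {s | n ≤ ω₀ s}) (fun a b hab s hs => hab.trans hs) (by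
    have : (⋂ n, {s | n ≤ ω₀ s}) = ∅ := by
      ext s
      simp only [Set.mem_iInter, Set.mem_ofPred_eq, Set.mem_empty_iff_false, iff_false, not_forall,
        not_le]
      exact ⟨_, Nat.lt_succ_self _⟩
    rw [this, measure_empty]) hε
  refine ⟨N + 1, fun s => min (ω₀ s) N, fun s => Nat.lt_succ_of_le (min_le_right _ _), fun i => ?_⟩
  by_cases hi : i < N
  · refine (measure_mono fun s hs => ?_).trans (hUν (e i))
    have hs' : min (ω₀ s) N = i := hs
    have : ω₀ s = i := by omega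
    exact this ▸ Nat.find_spec (hex s)
  · refine (measure_mono fun s hs => ?_).trans hN
    have hs' : min (ω₀ s) N = i := hs
    change N ≤ ω₀ s
    omega

theorem dr_dual (hX : ¬ FiniteDimensional 𝕜 X) (n : ℕ) :
    ∃ g : ℕ → X →L[𝕜] 𝕜, (∀ i < n, 2 / 5 ≤ ‖g i‖) ∧
      ∀ x : X, ∑ i ∈ Finset.range n, ‖g i x‖ ^ 2 ≤ 2 * ‖x‖ ^ 2 := by
  have hB : ¬ FiniteDimensional ℝ (X →L[𝕜] 𝕜) := fun h => by
    have h1 : FiniteDimensional 𝕜 (X →L[𝕜] 𝕜) := Module.Finite.of_restrictScalars_finite ℝ 𝕜 _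
    let L : X →ₗ[𝕜] (X →L[𝕜] 𝕜) →ₗ[𝕜] 𝕜 := (ContinuousLinearMap.coeLM 𝕜).flip
    have hL : Function.Injective L := by
      rw [injective_iff_map_eq_zero]
      intro x hx
      exact NormedSpace.eq_zero_of_forall_dual_eq_zero 𝕜 fun f => LinearMap.congr_fun hx f
    exact hX (FiniteDimensional.of_injective L hL)
  obtain ⟨u, hu, hu'⟩ := Crest.Agent.R254.dvoretzky_rogers hB n
  refine ⟨fun i => if h : i < n then u (EuclideanSpace.single ⟨i, h⟩ 1) else 0, fun i hi => ?_,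
    fun x => ?_⟩
  · simp only [dif_pos hi]; exact hu' _
  · rw [Finset.sum_range]
    have h1 := sq_le u hu RCLike.reCLM (fun z => RCLike.re_le_norm z) x
    have h2 := sq_le u hu RCLike.imCLM (fun z => RCLike.im_le_norm z) x
    refine le_trans (le_of_eq ?_) ((add_le_add h1 h2).trans (le_of_eq (two_mul _).symm))
    rw [← Finset.sum_add_distrib]
    refine Finset.sum_congr rfl fun i _ => ?_
    simp only [dif_pos i.2]
    rw [RCLike.norm_sq_eq_def, RCLike.reCLM_apply, RCLike.imCLM_apply, sq, sq]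

theorem rand (hc : Crest.AnalysisR.ContinuumRVM) (hX : ¬ FiniteDimensional 𝕜 X) :
    ∃ (S : Type) (_ : MeasurableSpace S) (_ : DiscreteMeasurableSpace S) (ν : Measure S)
      (_ : IsProbabilityMeasure ν) (g : ℕ → ℕ → X →L[𝕜] 𝕜) (ω : S → ℕ → ℕ),
      (∀ s n, (2 : ℝ) ^ n ≤ ‖g n (ω s n)‖) ∧
      ∀ x : X, ∀ᵐ s ∂ν, ∃ C : ℝ, ∀ n, ‖g n (ω s n) x‖ ≤ C := by
  classical
  obtain ⟨S, _, _, ν, _, h⟩ := exists_total_measure hc
  choose M ω hω hν using fun n : ℕ => h ((1 / 2) ^ n / (18 * 4 ^ n)) (by positivity)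
  choose g hg hg' using fun n : ℕ => dr_dual hX (M n)
  have hn : ∀ n : ℕ, ‖(((3 * 2 ^ n : ℝ)) : 𝕜)‖ = 3 * 2 ^ n := fun n => by
    rw [RCLike.norm_ofReal, abs_of_pos (by positivity)]
  refine ⟨S, inferInstance, inferInstance, ν, inferInstance,
    fun n i => ((3 * 2 ^ n : ℝ) : 𝕜) • g n i, fun s n => ω n s, fun s n => ?_, fun x => ?_⟩
  · rw [norm_smul, hn]
    have := hg n _ (hω n s)
    have h2 : (0 : ℝ) < 2 ^ n := by positivity
    nlinarith
  rcases eq_or_ne x 0 with rfl | hx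
  · exact Eventually.of_forall fun s => ⟨0, fun n => by simp⟩
  have hx' : 0 < ‖x‖ := norm_pos_iff.2 hx
  let B : ℕ → Set S := fun n => {s | ‖x‖ < 3 * 2 ^ n * ‖g n (ω n s) x‖}
  have hB : ∀ n, ν (B n) ≤ ENNReal.ofReal ((1 / 2) ^ n) := by
    intro n
    let I := (Finset.range (M n)).filter fun i => ‖x‖ < 3 * 2 ^ n * ‖g n i x‖
    have hI : (I.card : ℝ) ≤ 18 * 4 ^ n := by
      have h1 : ∑ _i ∈ I, ‖x‖ ^ 2 ≤ ∑ i ∈ I, (3 * 2 ^ n) ^ 2 * ‖g n i x‖ ^ 2 :=
        Finset.sum_le_sum fun i hi => by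
          rw [← mul_pow]
          exact pow_le_pow_left₀ hx'.le (Finset.mem_filter.1 hi).2.le 2
      have h2 : ∑ i ∈ I, ‖g n i x‖ ^ 2 ≤ 2 * ‖x‖ ^ 2 :=
        (Finset.sum_le_sum_of_subset_of_nonneg (Finset.filter_subset _ _)
          fun _ _ _ => sq_nonneg _).trans (hg' n x)
      rw [Finset.sum_const, nsmul_eq_mul, ← Finset.mul_sum] at h1
      have h3 : ((3 : ℝ) * 2 ^ n) ^ 2 = 9 * 4 ^ n := by
        rw [mul_pow, ← pow_mul, mul_comm n 2, pow_mul]; norm_num
      have h4 : (I.card : ℝ) * ‖x‖ ^ 2 ≤ 18 * 4 ^ n * ‖x‖ ^ 2 := by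
        refine h1.trans ?_
        rw [h3]
        calc (9 : ℝ) * 4 ^ n * ∑ i ∈ I, ‖g n i x‖ ^ 2 ≤ 9 * 4 ^ n * (2 * ‖x‖ ^ 2) := by gcongr
          _ = _ := by ring
      exact le_of_mul_le_mul_right h4 (by positivity)
    have hsub : B n ⊆ ⋃ i ∈ I, {s | ω n s = i} := fun s hs =>
      Set.mem_biUnion (show ω n s ∈ (I : Set ℕ) from
        Finset.mem_filter.2 ⟨Finset.mem_range.2 (hω n s), hs⟩) rfl
    refine (measure_mono hsub).trans ((measure_biUnion_finset_le _ _).trans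
      ((Finset.sum_le_card_nsmul _ _ _ fun i _ => hν n i).trans ?_))
    rw [nsmul_eq_mul, ← ENNReal.ofReal_natCast, ← ENNReal.ofReal_mul (Nat.cast_nonneg _)]
    refine ENNReal.ofReal_le_ofReal ?_
    calc (I.card : ℝ) * ((1 / 2) ^ n / (18 * 4 ^ n)) ≤ 18 * 4 ^ n * ((1 / 2) ^ n / (18 * 4 ^ n)) := by
          gcongr
      _ = _ := by field_simp
  have hs : ∑' n, ν (B n) ≠ ⊤ := by
    refine ne_top_of_le_ne_top ?_ (ENNReal.tsum_le_tsum hB)
    rw [← ENNReal.ofReal_tsum_of_nonneg (fun n => by positivity) summable_geometric_two]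
    exact ENNReal.ofReal_ne_top
  filter_upwards [ae_eventually_notMem hs] with s hs
  have hb : IsBoundedUnder (· ≤ ·) atTop
      fun n => ‖(((3 * 2 ^ n : ℝ) : 𝕜) • g n (ω n s)) x‖ := by
    refine ⟨‖x‖, eventually_map.2 (hs.mono fun n h => ?_)⟩
    rw [smul_apply, norm_smul, hn]
    exact not_lt.1 h
  obtain ⟨C, hC⟩ := hb.bddAbove_range
  exact ⟨C, fun n => hC ⟨n, rfl⟩⟩

end Crest.Agent.R114
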