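import Crest.Agent.R114.QLemA
import Crest.Agent.R114.QRand
import Crest.Agent.R114.QFree

/-!
# Task R114-QUnc (an unconditional biorthogonal sequence in the dual)

Take `S, ν, g, ω` from `rand`.  `D s = {x | ∃ C, ∀ n, ‖g n (ω s n) x‖ ≤ C}` is a submodule.  If some `D s` is dense,
`lemA` (with `h n = g n (ω s n)`) gives `SQ`.  Otherwise Hahn–Banach gives `φ s` with `‖φ s‖ = 1` vanishing on `D s`
(e.g. `Submodule.dense_iff_topologicalClosure_eq_top` + `exists_dual_vector` on the quotient by the closure, or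
`RCLike.geometric_hahn_banach_closed_point`).
`norming_seq`: for a finite family `ψ : F → X →L[𝕜] 𝕜` there is a sequence `x k` in the unit ball with
`∀ a ε > 0, ∃ k, ‖∑ a i • ψ i‖ - ε ≤ ‖∑ a i * ψ i (x k)‖` (take a dense sequence of the separable space `F → 𝕜` and
almost norming vectors).
Apply `free_seq` with `ι = Finset ℕ × ℕ`, `F = Prod.fst`, `C = ℕ × ℕ → ℝ`,
`code (F,k) s = fun (n,i) => ‖g n i (x F (fun i : F => φ (s i)) k)‖` (depends only on `s` on `F`),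
`Bad = {(t, c) | ¬ ∃ B : ℕ, ∀ n, c (n, ω t n) ≤ B}`; it is measurable: countable unions/intersections of
`⋃ i, {t | ω t n = i} ×ˢ {c | c (n,i) ≤ B}`.  `(s j, code) ∉ Bad` says `x .. ∈ D (s j)`, so `φ (s j) x = 0`.
-/

set_option autoImplicit false

namespace Crest.Agent.R114

open Filter MeasureTheory

variable {𝕜 : Type} [RCLike 𝕜] {X : Type*} [NormedAddCommGroup X] [NormedSpace 𝕜 X]

theorem norming_seq {ι : Type} [Fintype ι] (ψ : ι → X →L[𝕜] 𝕜) :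
    ∃ x : ℕ → X, (∀ k, ‖x k‖ ≤ 1) ∧ ∀ (a : ι → 𝕜) (ε : ℝ), 0 < ε →
      ∃ k, ‖∑ i, a i • ψ i‖ - ε ≤ ‖∑ i, a i * ψ i (x k)‖ := by
  obtain ⟨u, hu⟩ := TopologicalSpace.exists_dense_seq (ι → 𝕜)
  have h : ∀ p : ℕ × ℕ, ∃ x : X, ‖x‖ < 1 ∧
      ‖∑ i, u p.1 i • ψ i‖ - 1 / (p.2 + 1) < ‖(∑ i, u p.1 i • ψ i) x‖ := fun p =>
    ContinuousLinearMap.exists_lt_apply_of_lt_opNorm _ (sub_lt_self _ Nat.one_div_pos_of_nat)
  choose x hx hx' using h
  refine ⟨fun k => x (Nat.unpair k), fun k => (hx _).le, fun a ε hε => ?_⟩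
  obtain ⟨n, hn⟩ := exists_nat_one_div_lt (show 0 < ε / 3 by positivity)
  obtain ⟨m, hm⟩ := hu.exists_mem_open (s := {b | ‖∑ i, a i • ψ i - ∑ i, b i • ψ i‖ < ε / 3})
    (isOpen_lt (by fun_prop) continuous_const) ⟨a, by simpa⟩
  refine ⟨Nat.pair m n, ?_⟩
  have h1 := hx' (m, n)
  have h2 := (∑ i, a i • ψ i - ∑ i, u m i • ψ i).unit_le_opNorm _ (hx (m, n)).le
  have h3 := norm_sub_norm_le (∑ i, a i • ψ i) (∑ i, u m i • ψ i)
  have h4 := norm_sub_norm_le ((∑ i, u m i • ψ i) (x (m, n))) ((∑ i, a i • ψ i) (x (m, n)))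
  rw [norm_sub_rev] at h4
  simp only [Set.mem_setOf_eq, ContinuousLinearMap.sub_apply, ContinuousLinearMap.sum_apply,
    ContinuousLinearMap.smul_apply, smul_eq_mul, Nat.unpair_pair] at *
  linarith

theorem exists_ann (D : Submodule 𝕜 X) (hD : ¬ Dense (D : Set X)) :
    ∃ φ : X →L[𝕜] 𝕜, ‖φ‖ = 1 ∧ ∀ x ∈ D, φ x = 0 := by
  obtain ⟨x, hx⟩ := not_forall.1 hD
  haveI : IsClosed (D.topologicalClosure : Set X) := D.isClosed_topologicalClosure
  have h0 : ‖D.topologicalClosure.mkQL x‖ ≠ 0 :=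
    norm_ne_zero_iff.2 fun h => hx ((Submodule.Quotient.mk_eq_zero _).1 h)
  obtain ⟨g, -, hg⟩ := exists_dual_vector 𝕜 _ h0
  have h1 : ‖g.comp D.topologicalClosure.mkQL‖ ≠ 0 := norm_ne_zero_iff.2 fun h =>
    h0 (RCLike.ofReal_eq_zero.1 (hg.symm.trans (DFunLike.congr_fun h x)))
  refine ⟨(‖g.comp D.topologicalClosure.mkQL‖⁻¹ : 𝕜) • g.comp D.topologicalClosure.mkQL,
    by simp [norm_smul, h1], fun y hy => ?_⟩
  simp [(Submodule.Quotient.mk_eq_zero _).2 (D.le_topologicalClosure hy)]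

theorem sq_or_unc [CompleteSpace X] (hc : Crest.AnalysisR.ContinuumRVM)
    (hX : ¬ FiniteDimensional 𝕜 X) :
    SQ 𝕜 X ∨ ∃ φ : ℕ → X →L[𝕜] 𝕜, (∀ i, ‖φ i‖ = 1) ∧ Unc φ := by
  obtain ⟨S, _, _, ν, _, g, ω, hg, hae⟩ := rand hc hX
  let D : S → Submodule 𝕜 X := fun s =>
    { carrier := {x | ∃ C : ℝ, ∀ n, ‖g n (ω s n) x‖ ≤ C}
      add_mem' := fun ⟨C, hC⟩ ⟨C', hC'⟩ => ⟨C + C', fun n => by
        rw [map_add]; exact norm_add_le_of_le (hC n) (hC' n)⟩
      zero_mem' := ⟨0, by simp⟩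
      smul_mem' := fun c x ⟨C, hC⟩ => ⟨‖c‖ * C, fun n => by
        rw [map_smul, norm_smul]; gcongr; exact hC n⟩ }
  by_cases h : ∃ s, Dense (D s : Set X)
  · obtain ⟨s, hs⟩ := h
    refine .inl (lemA (fun n => g n (ω s n)) (fun C => ?_) hs)
    exact (pow_unbounded_of_one_lt C one_lt_two).imp fun n hn => hn.trans_le (hg s n)
  choose φ hφ hφ' using fun s => exists_ann (D s) fun hs => h ⟨s, hs⟩
  choose x hx hx' using fun (F : Finset ℕ) (ψ : F → X →L[𝕜] 𝕜) => norming_seq ψ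
  obtain ⟨s, hs⟩ := free_seq ν {p : S × (ℕ × ℕ → ℝ) | ¬ ∃ B : ℕ, ∀ n, p.2 (n, ω p.1 n) ≤ B}
    (by
      refine .compl (measurableSet_setOf.2 (.exists fun B => .forall fun n => ?_))
      have : Measurable fun p : (ℕ × ℕ → ℝ) × ℕ => p.1 (n, p.2) :=
        measurable_from_prod_countable_left fun i => measurable_pi_apply (n, i)
      exact measurableSet_setOf.1 (measurableSet_le (this.comp (measurable_snd.prodMk
        ((Measurable.of_discrete (f := fun t => ω t n)).comp measurable_fst))) measurable_const))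
    (Prod.fst : Finset ℕ × ℕ → _)
    (fun a s p => ‖g p.1 p.2 (x a.1 (fun i => φ (s i)) a.2)‖)
    (fun a s s' h => by simp only [funext fun i : a.1 => congrArg φ (h i i.2)])
    fun a s => (hae _).mono fun t ⟨C, hC⟩ => not_not.2
      ((exists_nat_ge C).imp fun B hB n => (hC n).trans hB)
  refine .inr ⟨fun i => φ (s i), fun i => hφ _, fun F a ε hε => ?_⟩
  obtain ⟨k, hk⟩ := hx' F (fun i => φ (s i)) (fun i => a i) ε hε
  refine ⟨_, hx F _ k, fun j hj => ?_, by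
    rwa [← Finset.sum_coe_sort F, ← Finset.sum_coe_sort F]⟩
  obtain ⟨B, hB⟩ := not_not.1 (hs (F, k) j hj)
  exact hφ' _ _ ⟨B, hB⟩

end Crest.Agent.R114
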