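import Crest.Agent.R114.XDefs

/-!
# Elementary API for `act`, `res`, `hull`, `Succ`, `Chain`, `tailSp`
-/

set_option autoImplicit false

namespace Crest.Agent.R114

open Finsupp

variable {𝕜 : Type} [RCLike 𝕜] {Ω : Type}

lemma act_apply (φ : Ω → 𝕜) (y : Ω →₀ 𝕜) : act φ y = ∑ γ ∈ y.support, y γ * φ γ := by
  simp [act, Finsupp.linearCombination_apply, Finsupp.sum]

lemma act_apply_of_subset (φ : Ω → 𝕜) (y : Ω →₀ 𝕜) {S : Finset Ω} (h : y.support ⊆ S) :
    act φ y = ∑ γ ∈ S, y γ * φ γ := by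
  rw [act_apply]
  refine Finset.sum_subset h fun γ _ hγ => ?_
  rw [Finsupp.notMem_support_iff.1 hγ, zero_mul]

@[simp] lemma act_single (φ : Ω → 𝕜) (γ : Ω) (c : 𝕜) : act φ (single γ c) = c * φ γ := by
  simp [act]

lemma act_congr {φ ψ : Ω → 𝕜} {y : Ω →₀ 𝕜} (h : ∀ γ ∈ y.support, φ γ = ψ γ) :
    act φ y = act ψ y := by
  rw [act_apply, act_apply]
  exact Finset.sum_congr rfl fun γ hγ => by rw [h γ hγ]

lemma act_eq_zero {φ : Ω → 𝕜} {y : Ω →₀ 𝕜} (h : ∀ γ ∈ y.support, φ γ = 0) : act φ y = 0 := by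
  rw [act_apply]
  exact Finset.sum_eq_zero fun γ hγ => by rw [h γ hγ, mul_zero]

lemma act_add (φ ψ : Ω → 𝕜) (y : Ω →₀ 𝕜) :
    act (fun γ => φ γ + ψ γ) y = act φ y + act ψ y := by
  simp only [act_apply, mul_add, Finset.sum_add_distrib]

lemma act_mul (c : 𝕜) (φ : Ω → 𝕜) (y : Ω →₀ 𝕜) : act (fun γ => c * φ γ) y = c * act φ y := by
  simp only [act_apply, Finset.mul_sum]
  exact Finset.sum_congr rfl fun γ _ => by ring

lemma act_sum {ι : Type*} (S : Finset ι) (φ : ι → Ω → 𝕜) (y : Ω →₀ 𝕜) :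
    act (fun γ => ∑ i ∈ S, φ i γ) y = ∑ i ∈ S, act (φ i) y := by
  simp only [act_apply, Finset.mul_sum]
  exact Finset.sum_comm

lemma l1_nonneg (y : Ω →₀ 𝕜) : 0 ≤ l1 y := Finset.sum_nonneg fun _ _ => norm_nonneg _

lemma norm_act_le {φ : Ω → 𝕜} {θ : ℝ} (h : ∀ γ, ‖φ γ‖ ≤ θ) (y : Ω →₀ 𝕜) :
    ‖act φ y‖ ≤ θ * l1 y := by
  rw [act_apply, l1, Finset.mul_sum]
  refine (norm_sum_le _ _).trans (Finset.sum_le_sum fun γ _ => ?_)
  rw [norm_mul, mul_comm]
  exact mul_le_mul_of_nonneg_right (h γ) (norm_nonneg _)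

section res
variable {M : Type}

lemma res_apply_mem [Zero M] {E : Set Ω} (f : Ω →₀ M) {γ : Ω} (h : γ ∈ E) : res E f γ = f γ := by
  classical simp [res, h]

lemma res_apply_notMem [Zero M] {E : Set Ω} (f : Ω →₀ M) {γ : Ω} (h : γ ∉ E) : res E f γ = 0 := by
  classical simp [res, h]

lemma mem_support_res [Zero M] {E : Set Ω} {f : Ω →₀ M} {γ : Ω} :
    γ ∈ (res E f).support ↔ γ ∈ f.support ∧ γ ∈ E := by
  by_cases h : γ ∈ E
  · simp [res_apply_mem f h, h]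
  · simp [res_apply_notMem f h, h]

@[simp] lemma res_zero [Zero M] (E : Set Ω) : res E (0 : Ω →₀ M) = 0 := by
  ext γ; by_cases h : γ ∈ E
  · simp [res_apply_mem _ h]
  · simp [res_apply_notMem _ h]

@[simp] lemma res_univ [Zero M] (f : Ω →₀ M) : res Set.univ f = f := by
  ext γ; exact res_apply_mem f (Set.mem_univ γ)

lemma res_res [Zero M] (E E' : Set Ω) (f : Ω →₀ M) : res E (res E' f) = res (E ∩ E') f := by
  ext γ
  by_cases h : γ ∈ E <;> by_cases h' : γ ∈ E'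
  · rw [res_apply_mem _ h, res_apply_mem _ h', res_apply_mem (E := E ∩ E') _ ⟨h, h'⟩]
  · rw [res_apply_mem _ h, res_apply_notMem _ h', res_apply_notMem _ fun hh => h' hh.2]
  · rw [res_apply_notMem _ h, res_apply_notMem _ fun hh => h hh.1]
  · rw [res_apply_notMem _ h, res_apply_notMem _ fun hh => h hh.1]

lemma res_eq_self [Zero M] {E : Set Ω} {f : Ω →₀ M} (h : ∀ γ ∈ f.support, γ ∈ E) :
    res E f = f := by
  ext γ
  by_cases h' : γ ∈ E
  · exact res_apply_mem f h'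
  · rw [res_apply_notMem f h', Finsupp.notMem_support_iff.1 fun hh => h' (h γ hh)]

lemma res_eq_zero [Zero M] {E : Set Ω} {f : Ω →₀ M} (h : ∀ γ ∈ f.support, γ ∉ E) :
    res E f = 0 := by
  ext γ
  by_cases h' : γ ∈ E
  · rw [res_apply_mem f h', Finsupp.notMem_support_iff.1 fun hh => h γ hh h']; rfl
  · exact res_apply_notMem f h'

lemma res_add [AddZeroClass M] (E : Set Ω) (f g : Ω →₀ M) : res E (f + g) = res E f + res E g := by
  classical exact Finsupp.filter_add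

lemma res_sum [AddCommMonoid M] {ι : Type*} (E : Set Ω) (S : Finset ι) (f : ι → Ω →₀ M) :
    res E (∑ i ∈ S, f i) = ∑ i ∈ S, res E (f i) := by
  classical exact Finsupp.filter_sum S f

lemma res_neg [AddGroup M] (E : Set Ω) (f : Ω →₀ M) : res E (-f) = -res E f := by
  classical exact Finsupp.filter_neg _ _

lemma res_sub [AddGroup M] (E : Set Ω) (f g : Ω →₀ M) : res E (f - g) = res E f - res E g := by
  classical exact Finsupp.filter_sub _ _ _

lemma res_smul {R : Type} [Semiring R] [AddCommMonoid M] [Module R M] (E : Set Ω) (c : R)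
    (f : Ω →₀ M) : res E (c • f) = c • res E f := by
  classical exact Finsupp.filter_smul

lemma res_add_res_compl [AddZeroClass M] (E : Set Ω) (f : Ω →₀ M) : res E f + res Eᶜ f = f := by
  ext γ
  by_cases h : γ ∈ E
  · simp [res_apply_mem _ h, res_apply_notMem (E := Eᶜ) f (by simpa using h)]
  · simp [res_apply_notMem _ h, res_apply_mem (E := Eᶜ) f h]

end res

variable [LinearOrder Ω]

section order
variable {M M' M'' : Type} [Zero M] [Zero M'] [Zero M'']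

lemma hull_ordConnected (y : Ω →₀ M) : (hull y).OrdConnected := by
  refine ⟨fun a ha c hc b hb => ?_⟩
  obtain ⟨⟨β, hβ, h1⟩, -⟩ := ha
  obtain ⟨-, ⟨β', hβ', h2⟩⟩ := hc
  exact ⟨⟨β, hβ, h1.trans hb.1⟩, ⟨β', hβ', hb.2.trans h2⟩⟩

lemma mem_hull_of_mem_support {y : Ω →₀ M} {γ : Ω} (h : γ ∈ y.support) : γ ∈ hull y :=
  ⟨⟨γ, h, le_rfl⟩, ⟨γ, h, le_rfl⟩⟩

lemma Succ.hull_lt {f : Ω →₀ M} {g : Ω →₀ M'} (h : Succ f g) {γ δ : Ω} (hγ : γ ∈ hull f)
    (hδ : δ ∈ hull g) : γ < δ := by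
  obtain ⟨-, β, hβ, h1⟩ := hγ
  obtain ⟨⟨β', hβ', h2⟩, -⟩ := hδ
  exact h1.trans_lt ((h β hβ β' hβ').trans_le h2)

lemma Succ.restrict {f : Ω →₀ M} {g : Ω →₀ M'} (h : Succ f g) (E E' : Set Ω) :
    Succ (res E f) (res E' g) := fun γ hγ δ hδ =>
  h γ (mem_support_res.1 hγ).1 δ (mem_support_res.1 hδ).1

lemma Succ.of_support_subset {f : Ω →₀ M} {g : Ω →₀ M'} (h : Succ f g) {M₁ M₂ : Type} [Zero M₁]
    [Zero M₂] {f' : Ω →₀ M₁} {g' : Ω →₀ M₂} (hf : ∀ γ ∈ f'.support, γ ∈ hull f)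
    (hg : ∀ γ ∈ g'.support, γ ∈ hull g) : Succ f' g' := fun γ hγ δ hδ =>
  h.hull_lt (hf γ hγ) (hg δ hδ)

lemma Chain.eq_of_mem {b : ℕ → Ω →₀ M} (h : Chain b) {u v : ℕ} {γ : Ω} (hu : γ ∈ hull (b u))
    (hv : γ ∈ hull (b v)) : u = v := by
  rcases lt_trichotomy u v with h' | h' | h'
  · exact absurd ((h u v h').hull_lt hu hv) (lt_irrefl _)
  · exact h'
  · exact absurd ((h v u h').hull_lt hv hu) (lt_irrefl _)

lemma Chain.comp {b : ℕ → Ω →₀ M} (h : Chain b) {φ : ℕ → ℕ} (hφ : StrictMono φ) :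
    Chain (fun u => b (φ u)) := fun _ _ huv => h _ _ (hφ huv)

end order

omit [LinearOrder Ω] in
lemma tailSp_anti (b : ℕ → Ω →₀ 𝕜) {n n' : ℕ} (h : n ≤ n') : tailSp b n' ≤ tailSp b n :=
  Submodule.span_mono (Set.image_mono (Set.Ici_subset_Ici.2 h))

omit [LinearOrder Ω] in
lemma mem_tailSp (b : ℕ → Ω →₀ 𝕜) {n k : ℕ} (h : n ≤ k) : b k ∈ tailSp b n :=
  Submodule.subset_span ⟨k, h, rfl⟩

omit [LinearOrder Ω] in
lemma tailSp_support {b : ℕ → Ω →₀ 𝕜} {n : ℕ} {z : Ω →₀ 𝕜} (hz : z ∈ tailSp b n) :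
    ∀ γ ∈ z.support, ∃ k, n ≤ k ∧ γ ∈ (b k).support := by
  classical
  induction hz using Submodule.span_induction with
  | mem x hx => obtain ⟨k, hk, rfl⟩ := hx; exact fun γ hγ => ⟨k, hk, hγ⟩
  | zero => simp
  | add x y _ _ hx hy =>
    intro γ hγ
    rcases Finset.mem_union.1 (Finsupp.support_add hγ) with h | h
    exacts [hx γ h, hy γ h]
  | smul c x _ hx => exact fun γ hγ => hx γ (Finsupp.support_smul hγ)

omit [LinearOrder Ω] in
lemma tailSp_repr {b : ℕ → Ω →₀ 𝕜} {n : ℕ} {z : Ω →₀ 𝕜} (hz : z ∈ tailSp b n) :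
    ∃ (S : Finset ℕ) (a : ℕ → 𝕜), (∀ k ∈ S, n ≤ k) ∧ z = ∑ k ∈ S, a k • b k := by
  rw [tailSp, Finsupp.mem_span_image_iff_linearCombination] at hz
  obtain ⟨l, hl, rfl⟩ := hz
  exact ⟨l.support, l, fun k hk => hl hk, by simp [Finsupp.linearCombination_apply, Finsupp.sum]⟩

/-- far vectors vanish on a given finite set -/
lemma Chain.exists_tail_zero {b : ℕ → Ω →₀ 𝕜} (hb : Chain b) (A : Finset Ω) :
    ∃ n, ∀ z ∈ tailSp b n, ∀ γ ∈ A, z γ = 0 := by
  classical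
  have h1 : ∀ γ : Ω, ∃ n, ∀ k, n ≤ k → γ ∉ (b k).support := by
    intro γ
    by_cases h : ∃ k, γ ∈ (b k).support
    · obtain ⟨k, hk⟩ := h
      refine ⟨k + 1, fun k' hk' h' => ?_⟩
      have := hb.eq_of_mem (mem_hull_of_mem_support hk) (mem_hull_of_mem_support h')
      omega
    · exact ⟨0, fun k _ h' => h ⟨k, h'⟩⟩
  choose f hf using h1
  refine ⟨A.sup f, fun z hz γ hγ => ?_⟩
  by_contra hne
  obtain ⟨k, hk, hγk⟩ := tailSp_support hz γ (Finsupp.mem_support_iff.2 hne)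
  exact hf γ k ((Finset.le_sup hγ).trans hk) hγk

/-- far vectors come after a given vector of the span -/
lemma Chain.exists_tail_succ {b : ℕ → Ω →₀ 𝕜} (hb : Chain b) {n : ℕ} {z : Ω →₀ 𝕜}
    (hz : z ∈ tailSp b n) : ∃ n', ∀ z' ∈ tailSp b n', Succ z z' := by
  classical
  have h1 := tailSp_support hz
  choose! f _ hf using h1
  refine ⟨z.support.sup f + 1, fun z' hz' γ hγ δ hδ => ?_⟩
  obtain ⟨k, hk, hδk⟩ := tailSp_support hz' δ hδ
  have : f γ ≤ z.support.sup f := Finset.le_sup hγ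
  exact hb (f γ) k (by omega) γ (hf γ hγ) δ hδk

/-- successive sequences from an unlimited supply; the requirement may depend on the history -/
lemma Chain.exists_chain_dep {b : ℕ → Ω →₀ 𝕜} (hb : Chain b) {A : Type} (vec : A → Ω →₀ 𝕜)
    (P : List A → A → Prop) (hP : ∀ (l : List A) (n : ℕ), ∃ z : A, vec z ∈ tailSp b n ∧ P l z)
    (n₀ : ℕ) :
    ∃ z : ℕ → A, Chain (fun u => vec (z u)) ∧ (∀ u, vec (z u) ∈ tailSp b (n₀ + u)) ∧
      ∀ u, P ((List.range u).map z) (z u) := by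
  classical
  have key : ∀ l : List A, ∃ z : A, vec z ∈ tailSp b (n₀ + l.length) ∧ P l z ∧
      ∀ a ∈ l, vec a ∈ tailSp b 0 → Succ (vec a) (vec z) := by
    intro l
    have h1 : ∀ a : A, ∃ n', vec a ∈ tailSp b 0 → ∀ z' ∈ tailSp b n', Succ (vec a) z' := by
      intro a
      by_cases h : vec a ∈ tailSp b 0
      · obtain ⟨n', hn'⟩ := hb.exists_tail_succ h
        exact ⟨n', fun _ => hn'⟩
      · exact ⟨0, fun h' => absurd h' h⟩
    choose f hf using h1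
    obtain ⟨z, hz, hPz⟩ := hP l (n₀ + l.length + l.toFinset.sup f)
    refine ⟨z, tailSp_anti b (by omega) hz, hPz, fun a ha h0 => hf a h0 _ (tailSp_anti b ?_ hz)⟩
    have : f a ≤ l.toFinset.sup f := Finset.le_sup (List.mem_toFinset.2 ha)
    omega
  choose nx h1 h2 h3 using key
  let L : ℕ → List A := fun u => Nat.rec [] (fun _ l => l ++ [nx l]) u
  have hL : ∀ u, L u = (List.range u).map (fun v => nx (L v)) := by
    intro u
    induction u with
    | zero => rfl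
    | succ u ih =>
      rw [List.range_succ, List.map_append, ← ih]
      rfl
  have hlen : ∀ u, (L u).length = u := fun u => by rw [hL u]; simp
  have hmem : ∀ u, vec (nx (L u)) ∈ tailSp b (n₀ + u) := fun u => by
    have := h1 (L u); rwa [hlen] at this
  refine ⟨fun u => nx (L u), fun u v huv => ?_, hmem, fun u => ?_⟩
  · refine h3 (L v) _ ?_ (tailSp_anti b (Nat.zero_le _) (hmem u))
    rw [hL v]
    exact List.mem_map.2 ⟨u, List.mem_range.2 huv, rfl⟩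
  · rw [← hL u]; exact h2 (L u)

/-- successive sequences from an unlimited supply -/
lemma Chain.exists_chain {b : ℕ → Ω →₀ 𝕜} (hb : Chain b) (P : ℕ → (Ω →₀ 𝕜) → Prop)
    (hP : ∀ u n, ∃ z ∈ tailSp b n, P u z) (n₀ : ℕ) :
    ∃ z : ℕ → Ω →₀ 𝕜, Chain z ∧ ∀ u, z u ∈ tailSp b (n₀ + u) ∧ P u (z u) := by
  obtain ⟨z, h1, h2, h3⟩ := hb.exists_chain_dep id (fun l z => P l.length z)
    (fun l n => hP l.length n) n₀
  exact ⟨z, h1, fun u => ⟨h2 u, by simpa using h3 u⟩⟩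

/-- signs: if all signed sums are bounded by `A` then the sum of the norms is at most `2 A` -/
lemma sum_norm_le_of_signs {ι : Type*} (S : Finset ι) (t : ι → 𝕜) (A : ℝ)
    (h : ∀ ε : ι → ℚ, (∀ i, ε i = 1 ∨ ε i = -1) → ‖∑ i ∈ S, (ε i : 𝕜) * t i‖ ≤ A) :
    ∑ i ∈ S, ‖t i‖ ≤ 2 * A := by
  have h1 : ∀ π : 𝕜 →+ ℝ, (∀ z, π z ≤ ‖z‖) → ∑ i ∈ S, |π (t i)| ≤ A := by
    intro π hπ
    classical
    have := h (fun i => if 0 ≤ π (t i) then 1 else -1) (fun i => by by_cases h : 0 ≤ π (t i) <;> simp [h])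
    refine le_trans (le_of_eq ?_) ((hπ _).trans this)
    rw [map_sum]
    refine Finset.sum_congr rfl fun i _ => ?_
    by_cases h : 0 ≤ π (t i)
    · simp [h, abs_of_nonneg h]
    · simp [h, abs_of_neg (not_le.1 h)]
  have h2 := h1 RCLike.re RCLike.re_le_norm
  have h3 := h1 RCLike.im RCLike.im_le_norm
  have h4 : ∑ i ∈ S, ‖t i‖ ≤ ∑ i ∈ S, (|RCLike.re (t i)| + |RCLike.im (t i)|) :=
    Finset.sum_le_sum fun i _ => by
      conv_lhs => rw [← RCLike.re_add_im (t i)]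
      refine (norm_add_le _ _).trans ?_
      rw [norm_mul, RCLike.norm_ofReal, RCLike.norm_ofReal]
      have hI : ‖(RCLike.I : 𝕜)‖ ≤ 1 := by rw [RCLike.norm_I]; split_ifs <;> norm_num
      have := mul_le_mul_of_nonneg_left hI (abs_nonneg (RCLike.im (t i)))
      linarith
  rw [Finset.sum_add_distrib] at h4
  linarith

/-- transfinite recursion with an invariant -/
theorem wf_exists {Ω A : Type} [LinearOrder Ω] [WellFoundedLT Ω] [Nonempty A]
    (P : Ω → (Ω → A) → A → Prop)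
    (hloc : ∀ β x x' a, (∀ γ, γ < β → x γ = x' γ) → P β x a → P β x' a)
    (hstep : ∀ β x, (∀ γ, γ < β → P γ x (x γ)) → ∃ a, P β x a) :
    ∃ x : Ω → A, ∀ β, P β x (x β) := by
  classical
  let ext : (β : Ω) → ((γ : Ω) → γ < β → A) → Ω → A := fun β r γ =>
    if h : γ < β then r γ h else Classical.arbitrary A
  let x : Ω → A := (wellFounded_lt (α := Ω)).fix fun β r => Classical.epsilon (P β (ext β r))
  have hx : ∀ β, x β = Classical.epsilon (P β (ext β fun γ _ => x γ)) := fun β =>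
    WellFounded.fix_eq _ _ _
  refine ⟨x, fun β => ?_⟩
  induction β using (wellFounded_lt (α := Ω)).induction with
  | _ β ih =>
    have hagree : ∀ γ, γ < β → x γ = ext β (fun γ _ => x γ) γ := fun γ hγ => by simp [ext, hγ]
    obtain ⟨a, ha⟩ := hstep β x ih
    have h1 : ∃ a, P β (ext β fun γ _ => x γ) a := ⟨a, hloc β x _ a hagree ha⟩
    have h2 := Classical.epsilon_spec h1
    rw [← hx β] at h2
    exact hloc β _ x _ (fun γ hγ => (hagree γ hγ).symm) h2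

end Crest.Agent.R114
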