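import Crest.Agent.R114.XBasic

/-!
# Task R114-XCons (construction of the predual `X`)

Let `Y` be a type synonym of `Ω →₀ 𝕜` normed by `d.N` (definite by `coord_le`; e.g.
`AddGroupNorm.toNormedAddCommGroup` / `Seminorm.toSeminormedAddCommGroup` — a *seminormed* structure is enough), and
`Z = Y →L[𝕜] 𝕜` (complete).  `u β : Z` = coordinate functional, `fz f = ∑ γ ∈ f.support, f γ • u γ` (acts as `act f`),
`Tz β K : Z` = `act (d.T β K)` (norm `≤ 1` by `T_bdd`).  `Low β = {γ | ∃ K, ∃ δ ∈ (d.D β K).support, γ ≤ δ} ⊆ Iio β` (lower set).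
`Good β x a` for `x : Ω → ℕ → Z`, `a : ℕ → Z`:
 (1) `∀ K, ‖a K - u β - Tz β K‖ ≤ 6 * (1/2)^K`;
 (2) `∀ K, a K - a 0 ∈ span {x γ 0 | γ ∈ Low β}`;
 (3) `∀ K γ, γ ∉ Low β → (a K - u β) (single γ 1) = 0`.
Lift lemma: if `Good γ x (x γ)` for all `γ ∈ f.support`, `‖f γ‖ ≤ θ`, put `L_K f = ∑ γ ∈ f.support, f γ • x γ K`.  Then
`L_K f ∈ span {x δ 0 | ∃ γ ∈ f.support, δ ≤ γ}`, `(L_K f - fz f) (single δ 1) = 0` unless `δ < γ` for some `γ ∈ f.support`
(`δ ∈ Low γ`), for `K ≥ K₀` (`c0` with `S = f.support`) `‖L_K f - fz f‖ ≤ 2θ + (∑ ‖f γ‖) * 6 * (1/2)^K`, and for fixed `y`,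
`(L_K f - fz f) y → 0` (`T_le`, `norm_act_le`).
Step of the recursion (`wf_exists`, `A = ℕ → Z`): for each `i` choose `K_i` with `err i = L_{K_i} (D β i) - fz (D β i)`,
`‖err i‖ ≤ 3 (1/2)^i` (`θ = (1/2)^i`); `a K = u β + Tz β K + ∑' i, err (i + K)`; `a K - a (K+1) = L_{K_K} (D β K)` by `T_succ`.
`X = (span (range (x · 0))).topologicalClosure`, `xx β = ⟨x β 0, _⟩`, `J y z = (z : Z) y`.
All `x β K` lie in `span (range (x · 0))` by (2).
`norming`: `c < N y` ⇒ `w` from `d.norming`; `w' = res I w` has `act w' y' = act w (res I y')`, norm `≤ 1` (`res_le`, lower sets are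
`OrdConnected`), `act w' y = act w y`; `z = L_K w' ∈ span (xx '' I)` (transport span membership through the subtype with
`Submodule.map_span`/`Submodule.span_induction`), `‖z‖ ≤ 1 + 2 + 1`, `‖z y‖ > c - small`; so `c ≤ 4 C`.
`test`: `z = x β K` with `6 (1/2)^K ≤ ε`.
-/

set_option autoImplicit false

namespace Crest.Agent.R114

open Finsupp

namespace XConsAux

variable {𝕜 : Type} [RCLike 𝕜] {Ω : Type} [LinearOrder Ω]

/-- the dual of `(Ω →₀ 𝕜, N)`, abstractly -/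
structure Ctx (d : YData 𝕜 Ω) (Z : Type) [NormedAddCommGroup Z] [NormedSpace 𝕜 Z] where
  E : (Ω →₀ 𝕜) →ₗ[𝕜] (Z →L[𝕜] 𝕜)
  E_le : ∀ y z, ‖E y z‖ ≤ ‖z‖ * d.N y
  norm_le : ∀ z C, 0 ≤ C → (∀ y, ‖E y z‖ ≤ C * d.N y) → ‖z‖ ≤ C
  u : Ω → Z
  E_u : ∀ y β, E y (u β) = y β
  Tz : Ω → ℕ → Z
  E_Tz : ∀ y β K, E y (Tz β K) = act (d.T β K) y

/-- type synonym normed by `d.N` -/
def Y (_d : YData 𝕜 Ω) : Type := Ω →₀ 𝕜

noncomputable instance (d : YData 𝕜 Ω) : AddCommGroup (Y d) :=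
  inferInstanceAs (AddCommGroup (Ω →₀ 𝕜))

noncomputable instance (d : YData 𝕜 Ω) : Module 𝕜 (Y d) :=
  inferInstanceAs (Module 𝕜 (Ω →₀ 𝕜))

/-- the identity -/
noncomputable def toY (d : YData 𝕜 Ω) : (Ω →₀ 𝕜) ≃ₗ[𝕜] Y d := LinearEquiv.refl 𝕜 (Ω →₀ 𝕜)

/-- the norm -/
noncomputable def normY (d : YData 𝕜 Ω) : AddGroupNorm (Y d) where
  toFun y := d.N ((toY d).symm y)
  map_zero' := by simp
  add_le' a b := by rw [map_add]; exact map_add_le_add _ _ _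
  neg' a := by rw [map_neg]; exact map_neg_eq_map _ _
  eq_zero_of_map_eq_zero' a ha := by
    have : (toY d).symm a = 0 := by
      ext γ
      have := d.coord_le ((toY d).symm a) γ
      rw [ha] at this
      simpa using this
    simpa using this

noncomputable instance (d : YData 𝕜 Ω) : NormedAddCommGroup (Y d) :=
  (normY d).toNormedAddCommGroup

lemma normY_eq (d : YData 𝕜 Ω) (y : Y d) : ‖y‖ = d.N ((toY d).symm y) := rfl

noncomputable instance (d : YData 𝕜 Ω) : NormedSpace 𝕜 (Y d) where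
  norm_smul_le c y := by
    rw [normY_eq, normY_eq, map_smul]
    exact (map_smul_eq_mul d.N c _).le

lemma norm_toY (d : YData 𝕜 Ω) (y : Ω →₀ 𝕜) : ‖toY d y‖ = d.N y := by
  rw [normY_eq, LinearEquiv.symm_apply_apply]

/-- bounded functionals as elements of the dual -/
noncomputable def mkZ (d : YData 𝕜 Ω) (φ : (Ω →₀ 𝕜) →ₗ[𝕜] 𝕜) (h : ∀ y, ‖φ y‖ ≤ d.N y) :
    Y d →L[𝕜] 𝕜 :=
  (φ ∘ₗ (toY d).symm.toLinearMap).mkContinuous 1 fun y => by
    rw [one_mul, normY_eq]; exact h _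

lemma mkZ_apply (d : YData 𝕜 Ω) (φ : (Ω →₀ 𝕜) →ₗ[𝕜] 𝕜) (h : ∀ y, ‖φ y‖ ≤ d.N y) (y : Ω →₀ 𝕜) :
    mkZ d φ h (toY d y) = φ y := by
  simp [mkZ]

/-- the concrete context -/
noncomputable def ctx (d : YData 𝕜 Ω) : Ctx d (Y d →L[𝕜] 𝕜) where
  E := (ContinuousLinearMap.apply 𝕜 𝕜 : Y d →L[𝕜] (Y d →L[𝕜] 𝕜) →L[𝕜] 𝕜).toLinearMap ∘ₗ
    (toY d).toLinearMap
  E_le y z := by
    have := z.le_opNorm (toY d y)
    rw [norm_toY] at this
    simpa using this
  norm_le z C hC h := by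
    refine z.opNorm_le_bound hC fun y => ?_
    have := h ((toY d).symm y)
    rw [normY_eq]
    simpa using this
  u β := mkZ d (Finsupp.lapply β) fun y => d.coord_le y β
  E_u y β := mkZ_apply d (Finsupp.lapply β) (fun y => d.coord_le y β) y
  Tz β K := mkZ d (act (d.T β K)) fun y => d.T_bdd β K y
  E_Tz y β K := by simp [mkZ_apply]

/-- everything below some point of the supports of the `D β K` -/
def Low (d : YData 𝕜 Ω) (β : Ω) : Set Ω := {γ | ∃ K, ∃ δ ∈ (d.D β K).support, γ ≤ δ}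

lemma lt_of_mem_Low {d : YData 𝕜 Ω} {β γ : Ω} (h : γ ∈ Low d β) : γ < β := by
  obtain ⟨K, δ, hδ, h⟩ := h
  exact h.trans_lt (d.D_lt β K δ hδ)

lemma isLowerSet_Low (d : YData 𝕜 Ω) (β : Ω) : IsLowerSet (Low d β) := by
  rintro a b hab ⟨K, δ, hδ, h⟩
  exact ⟨K, δ, hδ, hab.trans h⟩

lemma act_finsupp (f y : Ω →₀ 𝕜) : act f y = ∑ γ ∈ f.support, f γ * y γ := by
  classical
  rw [act_apply_of_subset f y (S := y.support ∪ f.support) Finset.subset_union_left]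
  symm
  rw [Finset.sum_subset (s₂ := y.support ∪ f.support) Finset.subset_union_right]
  · exact Finset.sum_congr rfl fun γ _ => mul_comm _ _
  · intro γ _ hγ
    rw [Finsupp.notMem_support_iff.1 hγ, zero_mul]

omit [LinearOrder Ω] in
lemma act_res (I : Set Ω) (w y : Ω →₀ 𝕜) : act (res I w) y = act w (res I y) := by
  classical
  rw [act_apply, act_apply_of_subset w (res I y) (S := y.support)
    fun γ hγ => (mem_support_res.1 hγ).1]
  refine Finset.sum_congr rfl fun γ _ => ?_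
  by_cases h : γ ∈ I
  · rw [res_apply_mem _ h, res_apply_mem _ h]
  · rw [res_apply_notMem _ h, res_apply_notMem _ h, mul_zero, zero_mul]

lemma exists_pow_le (A ε : ℝ) (hε : 0 < ε) : ∃ K₀ : ℕ, ∀ K, K₀ ≤ K → A * (1 / 2) ^ K ≤ ε := by
  have h : Filter.Tendsto (fun K : ℕ => A * (1 / 2 : ℝ) ^ K) Filter.atTop (nhds (A * 0)) :=
    (tendsto_pow_atTop_nhds_zero_of_lt_one (by norm_num) (by norm_num)).const_mul A
  rw [mul_zero] at h
  exact Filter.eventually_atTop.1 (h.eventually (ge_mem_nhds hε))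

variable {d : YData 𝕜 Ω} {Z : Type} [NormedAddCommGroup Z] [NormedSpace 𝕜 Z] (c : Ctx d Z)

lemma Ctx.ext' {z z' : Z} (h : ∀ y, c.E y z = c.E y z') : z = z' := by
  have := c.norm_le (z - z') 0 le_rfl fun y => by rw [map_sub, h, sub_self, norm_zero, zero_mul]
  exact sub_eq_zero.1 (norm_le_zero_iff.1 this)

/-- the functional given by a finitely supported function -/
noncomputable def Ctx.fz (f : Ω →₀ 𝕜) : Z := ∑ γ ∈ f.support, f γ • c.u γ

lemma Ctx.E_fz (f y : Ω →₀ 𝕜) : c.E y (c.fz f) = act f y := by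
  rw [act_finsupp, Ctx.fz, map_sum]
  exact Finset.sum_congr rfl fun γ _ => by rw [map_smul, c.E_u, smul_eq_mul]

/-- the lift -/
noncomputable def L (x : Ω → ℕ → Z) (K : ℕ) (f : Ω →₀ 𝕜) : Z := ∑ γ ∈ f.support, f γ • x γ K

/-- the invariant of the recursion -/
structure Ctx.Good (β : Ω) (x : Ω → ℕ → Z) (a : ℕ → Z) : Prop where
  approx : ∀ K, ‖a K - c.u β - c.Tz β K‖ ≤ 6 * (1 / 2) ^ K
  mem : ∀ K, a K - a 0 ∈ Submodule.span 𝕜 ((fun γ => x γ 0) '' Low d β)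
  zero : ∀ K γ, γ ∉ Low d β → c.E (single γ 1) (a K - c.u β) = 0

lemma Ctx.Good.mem' {c : Ctx d Z} {β : Ω} {x : Ω → ℕ → Z} (h : c.Good β x (x β)) {I : Set Ω}
    (hI : IsLowerSet I) (hβ : β ∈ I) (K : ℕ) :
    x β K ∈ Submodule.span 𝕜 ((fun γ => x γ 0) '' I) := by
  have h1 : x β K - x β 0 ∈ Submodule.span 𝕜 ((fun γ => x γ 0) '' I) :=
    Submodule.span_mono (Set.image_mono fun γ hγ => hI (lt_of_mem_Low hγ).le hβ) (h.mem K)
  have h2 : x β 0 ∈ Submodule.span 𝕜 ((fun γ => x γ 0) '' I) :=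
    Submodule.subset_span ⟨β, hβ, rfl⟩
  simpa using add_mem h1 h2

lemma Ctx.L_mem {x : Ω → ℕ → Z} {f : Ω →₀ 𝕜} (h : ∀ γ ∈ f.support, c.Good γ x (x γ)) {I : Set Ω}
    (hI : IsLowerSet I) (hf : ∀ γ ∈ f.support, γ ∈ I) (K : ℕ) :
    L x K f ∈ Submodule.span 𝕜 ((fun γ => x γ 0) '' I) :=
  Submodule.sum_mem _ fun γ hγ => Submodule.smul_mem _ _ ((h γ hγ).mem' hI (hf γ hγ) K)

lemma Ctx.L_sub (x : Ω → ℕ → Z) (f : Ω →₀ 𝕜) (K : ℕ) :
    L x K f - c.fz f = ∑ γ ∈ f.support, f γ • (x γ K - c.u γ) := by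
  rw [L, Ctx.fz, ← Finset.sum_sub_distrib]
  exact Finset.sum_congr rfl fun γ _ => (smul_sub _ _ _).symm

lemma Ctx.L_zero {x : Ω → ℕ → Z} {f : Ω →₀ 𝕜} (h : ∀ γ ∈ f.support, c.Good γ x (x γ)) (K : ℕ)
    {δ : Ω} (hδ : ∀ γ ∈ f.support, δ ∉ Low d γ) : c.E (single δ 1) (L x K f - c.fz f) = 0 := by
  rw [c.L_sub, map_sum]
  exact Finset.sum_eq_zero fun γ hγ => by rw [map_smul, (h γ hγ).zero K δ (hδ γ hγ), smul_zero]

lemma Ctx.L_sub' (x : Ω → ℕ → Z) (f : Ω →₀ 𝕜) (K : ℕ) :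
    L x K f - c.fz f = ∑ γ ∈ f.support, f γ • (x γ K - c.u γ - c.Tz γ K) +
      ∑ γ ∈ f.support, f γ • c.Tz γ K := by
  rw [c.L_sub, ← Finset.sum_add_distrib]
  exact Finset.sum_congr rfl fun γ _ => by rw [← smul_add, sub_add_cancel]

lemma Ctx.norm_first {x : Ω → ℕ → Z} {f : Ω →₀ 𝕜} (h : ∀ γ ∈ f.support, c.Good γ x (x γ)) (K : ℕ) :
    ‖∑ γ ∈ f.support, f γ • (x γ K - c.u γ - c.Tz γ K)‖ ≤ l1 f * 6 * (1 / 2) ^ K := by
  refine (norm_sum_le _ _).trans ?_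
  rw [l1, mul_assoc, Finset.sum_mul]
  refine Finset.sum_le_sum fun γ hγ => ?_
  rw [norm_smul]
  exact mul_le_mul_of_nonneg_left ((h γ hγ).approx K) (norm_nonneg _)

lemma Ctx.L_norm {x : Ω → ℕ → Z} {f : Ω →₀ 𝕜} (h : ∀ γ ∈ f.support, c.Good γ x (x γ)) {θ : ℝ}
    (hθ : 0 < θ) (hf : ∀ γ, ‖f γ‖ ≤ θ) : ∃ K₀, ∀ K, K₀ ≤ K → ‖L x K f - c.fz f‖ ≤ 3 * θ := by
  obtain ⟨K₀, hK₀⟩ := d.c0 f.support
  obtain ⟨K₁, hK₁⟩ := exists_pow_le (l1 f * 6) θ hθ
  refine ⟨max K₀ K₁, fun K hK => ?_⟩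
  have h1 := c.norm_first h K
  have h2 : ‖∑ γ ∈ f.support, f γ • c.Tz γ K‖ ≤ 2 * θ := by
    refine c.norm_le _ _ (by positivity) fun y => ?_
    rw [map_sum]
    refine (norm_sum_le _ _).trans ?_
    have h3 := hK₀ K ((le_max_left _ _).trans hK) y
    calc ∑ γ ∈ f.support, ‖c.E y (f γ • c.Tz γ K)‖
        ≤ ∑ γ ∈ f.support, θ * ‖act (d.T γ K) y‖ := Finset.sum_le_sum fun γ _ => by
          rw [map_smul, norm_smul, c.E_Tz]
          exact mul_le_mul_of_nonneg_right (hf γ) (norm_nonneg _)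
      _ = θ * ∑ γ ∈ f.support, ‖act (d.T γ K) y‖ := by rw [Finset.mul_sum]
      _ ≤ θ * (2 * d.N y) := mul_le_mul_of_nonneg_left h3 hθ.le
      _ = 2 * θ * d.N y := by ring
  have h4 := hK₁ K ((le_max_right _ _).trans hK)
  rw [c.L_sub']
  refine (norm_add_le _ _).trans ?_
  linarith

lemma Ctx.L_eval {x : Ω → ℕ → Z} {f : Ω →₀ 𝕜} (h : ∀ γ ∈ f.support, c.Good γ x (x γ))
    (y : Ω →₀ 𝕜) (K : ℕ) :
    ‖c.E y (L x K f - c.fz f)‖ ≤ (l1 f * 6 * d.N y + l1 f * l1 y) * (1 / 2) ^ K := by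
  have h1 := c.norm_first h K
  have h2 : ‖c.E y (∑ γ ∈ f.support, f γ • c.Tz γ K)‖ ≤ l1 f * ((1 / 2) ^ K * l1 y) := by
    rw [map_sum]
    refine (norm_sum_le _ _).trans ?_
    rw [l1, Finset.sum_mul]
    refine Finset.sum_le_sum fun γ _ => ?_
    rw [map_smul, norm_smul, c.E_Tz]
    exact mul_le_mul_of_nonneg_left (norm_act_le (d.T_le γ K) y) (norm_nonneg _)
  have h3 := (c.E_le y _).trans (mul_le_mul_of_nonneg_right h1 (apply_nonneg d.N y))
  rw [c.L_sub', map_add]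
  refine (norm_add_le _ _).trans ?_
  calc _ ≤ l1 f * 6 * (1 / 2) ^ K * d.N y + l1 f * ((1 / 2) ^ K * l1 y) := add_le_add h3 h2
    _ = _ := by ring

lemma Ctx.Tz_succ (β : Ω) (K : ℕ) : c.Tz β K = c.fz (d.D β K) + c.Tz β (K + 1) := by
  refine c.ext' fun y => ?_
  rw [map_add, c.E_fz, c.E_Tz, c.E_Tz, ← act_add]
  exact act_congr fun γ _ => d.T_succ β K γ

lemma Ctx.step [CompleteSpace Z] (β : Ω) (x : Ω → ℕ → Z) (h : ∀ γ, γ < β → c.Good γ x (x γ)) :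
    ∃ a, c.Good β x a := by
  have hg : ∀ i, ∀ γ ∈ (d.D β i).support, c.Good γ x (x γ) := fun i γ hγ => h γ (d.D_lt β i γ hγ)
  have h1 : ∀ i, ∃ K, ‖L x K (d.D β i) - c.fz (d.D β i)‖ ≤ 3 * (1 / 2) ^ i := fun i => by
    obtain ⟨K, hK⟩ := c.L_norm (hg i) (θ := (1 / 2) ^ i) (by positivity) (d.D_le β i)
    exact ⟨K, hK K le_rfl⟩
  choose k hk using h1
  set err : ℕ → Z := fun i => L x (k i) (d.D β i) - c.fz (d.D β i) with herr
  have hgeo : ∀ K : ℕ, HasSum (fun i : ℕ => 3 * (1 / 2 : ℝ) ^ (i + K)) (6 * (1 / 2) ^ K) := fun K => by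
    have := hasSum_geometric_two.mul_left (3 * (1 / 2 : ℝ) ^ K)
    have e1 : (fun i : ℕ => 3 * (1 / 2 : ℝ) ^ (i + K)) =
        fun i : ℕ => 3 * (1 / 2 : ℝ) ^ K * (1 / 2) ^ i := by
      ext i; rw [pow_add]; ring
    have e2 : 6 * (1 / 2 : ℝ) ^ K = 3 * (1 / 2 : ℝ) ^ K * 2 := by ring
    rw [e1, e2]
    exact this
  have hsum : ∀ K : ℕ, Summable fun i => err (i + K) := fun K =>
    Summable.of_norm_bounded (hgeo K).summable fun i => hk (i + K)
  refine ⟨fun K => c.u β + c.Tz β K + ∑' i, err (i + K), fun K => ?_, fun K => ?_, fun K γ hγ => ?_⟩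
  · have : c.u β + c.Tz β K + ∑' i, err (i + K) - c.u β - c.Tz β K = ∑' i, err (i + K) := by abel
    rw [this]
    exact tsum_of_norm_bounded (hgeo K) fun i => hk (i + K)
  · induction K with
    | zero => simp
    | succ K ih =>
      have h2 : ∑' i, err (i + K) = err K + ∑' i, err (i + (K + 1)) := by
        rw [(hsum K).tsum_eq_zero_add, zero_add]
        congr 1
        exact tsum_congr fun i => by rw [add_assoc, add_comm 1 K]
      have h3 : c.u β + c.Tz β (K + 1) + ∑' i, err (i + (K + 1)) =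
          c.u β + c.Tz β K + ∑' i, err (i + K) - L x (k K) (d.D β K) := by
        rw [h2, c.Tz_succ β K]
        simp only [herr]
        abel
      have h4 := c.L_mem (hg K) (isLowerSet_Low d β) (fun γ hγ => ⟨K, γ, hγ, le_rfl⟩) (k K)
      rw [h3, sub_right_comm]
      exact sub_mem ih h4
  · have : c.u β + c.Tz β K + ∑' i, err (i + K) - c.u β = c.Tz β K + ∑' i, err (i + K) := by abel
    rw [this, map_add, c.E_Tz, act_single, one_mul, (c.E _).map_tsum (hsum K)]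
    have h2 : d.T β K γ = 0 := by
      by_contra hne
      obtain ⟨K', hK'⟩ := d.T_supp β K γ hne
      exact hγ ⟨K', γ, hK', le_rfl⟩
    have h3 : ∀ i, c.E (single γ 1) (err i) = 0 := fun i =>
      c.L_zero (hg i) (k i) fun δ hδ h' => hγ ⟨i, δ, hδ, (lt_of_mem_Low h').le⟩
    simp [h2, h3]

lemma Ctx.exists_good [CompleteSpace Z] [WellFoundedLT Ω] :
    ∃ x : Ω → ℕ → Z, ∀ β, c.Good β x (x β) := by
  refine wf_exists (fun β x a => c.Good β x a) (fun β x x' a hx h => ⟨h.approx, ?_, h.zero⟩) c.step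
  have : (fun γ => x' γ 0) '' Low d β = (fun γ => x γ 0) '' Low d β :=
    Set.image_congr fun γ hγ => by rw [hx γ (lt_of_mem_Low hγ)]
  rw [this]
  exact h.mem

include c in
theorem Ctx.exists_XP [CompleteSpace Z] [WellFoundedLT Ω] :
    ∃ (X : Type) (_ : NormedAddCommGroup X) (_ : NormedSpace 𝕜 X) (_ : CompleteSpace X)
      (J : (Ω →₀ 𝕜) →ₗ[𝕜] (X →L[𝕜] 𝕜)) (xx : Ω → X), XP d J xx := by
  obtain ⟨x, hx⟩ := c.exists_good
  let S : Submodule 𝕜 Z := Submodule.span 𝕜 ((fun γ => x γ 0) '' Set.univ)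
  let X : Submodule 𝕜 Z := S.topologicalClosure
  have hmem : ∀ β K, x β K ∈ X := fun β K =>
    S.le_topologicalClosure ((hx β).mem' isLowerSet_univ (Set.mem_univ β) K)
  let xx : Ω → X := fun β => ⟨x β 0, hmem β 0⟩
  let J : (Ω →₀ 𝕜) →ₗ[𝕜] (X →L[𝕜] 𝕜) :=
    { toFun := fun y => (c.E y).comp X.subtypeL
      map_add' := fun a b => by rw [map_add, ContinuousLinearMap.add_comp]
      map_smul' := fun a b => by rw [map_smul, ContinuousLinearMap.smul_comp]; rfl }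
  have hJ : ∀ y (z : X), J y z = c.E y (z : Z) := fun _ _ => rfl
  have hmap : ∀ I : Set Ω, (Submodule.span 𝕜 (xx '' I)).map X.subtype =
      Submodule.span 𝕜 ((fun γ => x γ 0) '' I) := fun I => by
    rw [Submodule.map_span, Set.image_image]; rfl
  have hsplit : ∀ β K γ, γ ∉ Low d β → c.E (single γ 1) (x β K) = (single γ (1 : 𝕜)) β :=
    fun β K γ hγ => by
      have := (hx β).zero K γ hγ
      rwa [map_sub, c.E_u, sub_eq_zero] at this
  have : CompleteSpace X := S.isClosed_topologicalClosure.completeSpace_coe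
  refine ⟨X, inferInstance, inferInstance, inferInstance, J, xx, ?_, ?_, ?_, ?_, ?_, ?_⟩
  · rw [Topology.IsInducing.subtypeVal.dense_iff]
    intro z
    have h1 : (Subtype.val '' (Submodule.span 𝕜 (Set.range xx) : Set X) : Set Z) = S := by
      rw [← Set.image_univ]
      exact congrArg SetLike.coe (hmap Set.univ)
    have h2 : (z : Z) ∈ closure (S : Set Z) := z.2
    rw [← h1] at h2
    exact h2
  · intro y
    refine ContinuousLinearMap.opNorm_le_bound _ (apply_nonneg _ _) fun z => ?_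
    rw [hJ, mul_comm]
    exact c.E_le y z
  · intro β γ h
    rw [hJ, hsplit β 0 γ fun h' => lt_asymm h (lt_of_mem_Low h'), Finsupp.single_eq_of_ne h.ne]
  · intro β
    rw [hJ, hsplit β 0 β fun h' => lt_irrefl _ (lt_of_mem_Low h'), Finsupp.single_eq_same]
  · intro I hI y hy C hC h
    by_contra hlt
    obtain ⟨w, hw1, hw2, hw3⟩ := d.norming y (4 * C) (not_le.1 hlt)
    have hg : ∀ γ ∈ (res I w).support, c.Good γ x (x γ) := fun γ _ => hx γ
    have hw1' : ∀ γ, ‖res I w γ‖ ≤ 1 := fun γ => by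
      by_cases h' : γ ∈ I
      · rw [res_apply_mem _ h']; exact hw1 γ
      · rw [res_apply_notMem _ h', norm_zero]; exact zero_le_one
    have hfz : ‖c.fz (res I w)‖ ≤ 1 := c.norm_le _ _ zero_le_one fun y' => by
      rw [c.E_fz, act_res, one_mul]
      exact (hw2 _).trans (d.res_le I hI.ordConnected y')
    have hy' : c.E y (c.fz (res I w)) = act w y := by rw [c.E_fz, act_res, res_eq_self hy]
    obtain ⟨K₀, hK₀⟩ := c.L_norm hg one_pos hw1'
    obtain ⟨K₁, hK₁⟩ := exists_pow_le (l1 (res I w) * 6 * d.N y + l1 (res I w) * l1 y)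
      ((‖act w y‖ - 4 * C) / 2) (by linarith)
    have h1 := hK₀ (max K₀ K₁) (le_max_left _ _)
    have h2 := (c.L_eval hg y (max K₀ K₁)).trans (hK₁ _ (le_max_right _ _))
    have h3 := c.L_mem hg hI (fun γ hγ => (mem_support_res.1 hγ).2) (max K₀ K₁)
    rw [← hmap] at h3
    obtain ⟨z, hz, hz'⟩ := Submodule.mem_map.1 h3
    have hz'' : (z : Z) = L x (max K₀ K₁) (res I w) := hz'
    have h4 := h z hz
    rw [hJ, Submodule.coe_norm, hz''] at h4
    have h5 : ‖L x (max K₀ K₁) (res I w)‖ ≤ 4 := by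
      have := norm_add_le (L x (max K₀ K₁) (res I w) - c.fz (res I w)) (c.fz (res I w))
      rw [sub_add_cancel] at this
      linarith
    have h6 := mul_le_mul_of_nonneg_left h5 hC
    rw [map_sub, hy'] at h2
    have h7 := norm_sub_norm_le (act w y) (c.E y (L x (max K₀ K₁) (res I w)))
    rw [norm_sub_rev] at h7
    linarith
  · intro β ε hε
    obtain ⟨K, hK⟩ := exists_pow_le 6 ε hε
    refine ⟨K, ⟨x β K, hmem β K⟩, fun y => ?_, fun γ hγ h => ?_⟩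
    · rw [hJ, ← c.E_u, ← c.E_Tz, ← map_sub, ← map_sub]
      exact (c.E_le _ _).trans (mul_le_mul_of_nonneg_right
        (((hx β).approx K).trans (hK K le_rfl)) (apply_nonneg _ _))
    · rw [hJ, hsplit β K γ, Finsupp.single_eq_of_ne hγ.symm]
      rintro ⟨K', δ, hδ, h'⟩
      exact absurd (h K' δ hδ) (not_lt.2 h')

end XConsAux

theorem exists_XP {𝕜 : Type} [RCLike 𝕜] {Ω : Type} [LinearOrder Ω] [WellFoundedLT Ω]
    (d : YData 𝕜 Ω) :
    ∃ (X : Type) (_ : NormedAddCommGroup X) (_ : NormedSpace 𝕜 X) (_ : CompleteSpace X)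
      (J : (Ω →₀ 𝕜) →ₗ[𝕜] (X →L[𝕜] 𝕜)) (xx : Ω → X), XP d J xx :=
  (XConsAux.ctx d).exists_XP

end Crest.Agent.R114
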