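import Mathlib

/-!
# Row 114, statement S0152 (no separable quotient under CH): abstract interface

Vectors are finitely supported `y : Ω →₀ 𝕜` on a linear order `Ω` (later `ω₁`); functionals are functions `φ : Ω → 𝕜`
acting through `act`.  `YData` collects what the concrete construction (files `Y*.lean`) delivers: a norm `N` on
`Ω →₀ 𝕜` and, for each `β`, the tails `T β K` of the branch attached to `β`.  `XP` describes the Banach space `X`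
(a predual of the completion of `(Ω →₀ 𝕜, N)`) that is built from it in `XCons.lean`.
-/

set_option autoImplicit false

namespace Crest.Agent.R114

open Finsupp

section
variable {Ω : Type}

/-- action of the functional `φ` on finitely supported vectors: `act φ y = ∑ γ, y γ * φ γ` -/
noncomputable def act {𝕜 : Type} [RCLike 𝕜] (φ : Ω → 𝕜) : (Ω →₀ 𝕜) →ₗ[𝕜] 𝕜 :=
  Finsupp.linearCombination 𝕜 φ

/-- ℓ¹ norm -/
noncomputable def l1 {𝕜 : Type} [RCLike 𝕜] (y : Ω →₀ 𝕜) : ℝ := ∑ γ ∈ y.support, ‖y γ‖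

open Classical in
/-- restriction to a set -/
noncomputable def res {M : Type} [Zero M] (E : Set Ω) (f : Ω →₀ M) : Ω →₀ M := f.filter (· ∈ E)

/-- span of the vectors `b k`, `k ≥ n` -/
noncomputable def tailSp {𝕜 : Type} [RCLike 𝕜] (b : ℕ → Ω →₀ 𝕜) (n : ℕ) : Submodule 𝕜 (Ω →₀ 𝕜) :=
  Submodule.span 𝕜 (b '' Set.Ici n)

variable [LinearOrder Ω]

/-- the support of `f` lies strictly before the support of `g` -/
def Succ {M M' : Type} [Zero M] [Zero M'] (f : Ω →₀ M) (g : Ω →₀ M') : Prop :=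
  ∀ γ ∈ f.support, ∀ δ ∈ g.support, γ < δ

/-- successive sequence -/
def Chain {M : Type} [Zero M] (b : ℕ → Ω →₀ M) : Prop := ∀ u v, u < v → Succ (b u) (b v)

/-- smallest interval containing the support -/
def hull {M : Type} [Zero M] (y : Ω →₀ M) : Set Ω :=
  {γ | (∃ β ∈ y.support, β ≤ γ) ∧ ∃ β ∈ y.support, γ ≤ β}

end

/-- Output of the concrete construction. -/
structure YData (𝕜 : Type) [RCLike 𝕜] (Ω : Type) [LinearOrder Ω] where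
  N : Seminorm 𝕜 (Ω →₀ 𝕜)
  coord_le : ∀ y γ, ‖y γ‖ ≤ N y
  single_le : ∀ γ, N (single γ 1) ≤ 1
  res_le : ∀ (E : Set Ω), E.OrdConnected → ∀ y, N (res E y) ≤ N y
  lower : ∀ C : ℝ, ∃ n : ℕ, ∀ y : ℕ → Ω →₀ 𝕜, Chain y → (∀ u < n, 1 ≤ N (y u)) →
    C ≤ N (∑ u ∈ Finset.range n, y u)
  norming : ∀ (y : Ω →₀ 𝕜) (c : ℝ), c < N y → ∃ w : Ω →₀ 𝕜, (∀ γ, ‖w γ‖ ≤ 1) ∧
    (∀ y', ‖act w y'‖ ≤ N y') ∧ c < ‖act w y‖
  T : Ω → ℕ → Ω → 𝕜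
  D : Ω → ℕ → Ω →₀ 𝕜
  T_succ : ∀ β K γ, T β K γ = D β K γ + T β (K + 1) γ
  D_le : ∀ β K γ, ‖D β K γ‖ ≤ (1 / 2) ^ K
  T_le : ∀ β K γ, ‖T β K γ‖ ≤ (1 / 2) ^ K
  D_lt : ∀ β K, ∀ γ ∈ (D β K).support, γ < β
  T_supp : ∀ β K γ, T β K γ ≠ 0 → ∃ K', γ ∈ (D β K').support
  T_bdd : ∀ β K y, ‖act (T β K) y‖ ≤ N y
  c0 : ∀ S : Finset Ω, ∃ K₀, ∀ K, K₀ ≤ K → ∀ y, ∑ γ ∈ S, ‖act (T γ K) y‖ ≤ 2 * N y
  G : ∀ b : ℕ → Ω →₀ 𝕜, Chain b → (∀ k, b k ≠ 0) → ∃ (β : Ω) (ε : ℝ), 0 < ε ∧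
    (∀ K, ∀ γ ∈ (D β K).support, ∃ k, ∃ δ ∈ (b k).support, γ ≤ δ) ∧
    ∀ n, ∃ y ∈ tailSp b n, N y ≤ 1 ∧ ε ≤ ‖act (T β 0) y‖

/-- The predual `X`: `J y` is the functional on `X` induced by `y`, `xx β` the generators. -/
structure XP {𝕜 : Type} [RCLike 𝕜] {Ω : Type} [LinearOrder Ω] (d : YData 𝕜 Ω)
    {X : Type} [NormedAddCommGroup X] [NormedSpace 𝕜 X]
    (J : (Ω →₀ 𝕜) →ₗ[𝕜] (X →L[𝕜] 𝕜)) (xx : Ω → X) : Prop where
  dense : Dense ((Submodule.span 𝕜 (Set.range xx) : Submodule 𝕜 X) : Set X)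
  J_le : ∀ y, ‖J y‖ ≤ d.N y
  tri_lt : ∀ β γ, β < γ → J (single γ 1) (xx β) = 0
  tri_eq : ∀ β, J (single β 1) (xx β) = 1
  norming : ∀ I : Set Ω, IsLowerSet I → ∀ y : Ω →₀ 𝕜, (∀ γ ∈ y.support, γ ∈ I) → ∀ C : ℝ, 0 ≤ C →
    (∀ z ∈ Submodule.span 𝕜 (xx '' I), ‖J y z‖ ≤ C * ‖z‖) → d.N y ≤ 4 * C
  test : ∀ (β : Ω) (ε : ℝ), 0 < ε → ∃ (K : ℕ) (z : X),
    (∀ y, ‖J y z - y β - act (d.T β K) y‖ ≤ ε * d.N y) ∧
    ∀ γ, γ ≠ β → (∀ K', ∀ δ ∈ (d.D β K').support, δ < γ) → J (single γ 1) z = 0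

end Crest.Agent.R114
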