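import Crest.Agent.R114.XBasic

/-!
# Task R114-XDense (`J (Ω →₀ 𝕜)` is norm dense in the dual of `X`)

`XP.J_res`: both sides are linear in `z`; for `z = xx β`, `β ∈ I`, the difference is `J (res Iᶜ y) (xx β) = 0` by `tri_lt`
(`γ ∉ I`, `β ∈ I` lower ⇒ `β < γ`).
`XP.split`: `z ∈ span (xx '' Iic β)`, `z = z' + c • xx β` with `z' ∈ span (xx '' Iio β)`; `c = J (single β 1) z`, so
`‖c‖ ≤ ‖z‖` (`J_le`, `single_le`).
`App I := ∀ g ε > 0, ∃ y, supp y ⊆ I ∧ ∀ z ∈ span (xx '' I), ‖g z - J y z‖ ≤ ε ‖z‖`.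
Successor: `App (Iio β) → App (Iic β)` (add `(g (xx β) - J y (xx β)) • single β 1`, use `split`).
Limit: if `I` is a lower set and `App (Iic γ)` for all `γ ∈ I` then `App I`.  Otherwise (`I = ∅` is trivial with `y = 0`)
fix `g, ε` failing; take `n` from `d.lower` for a large `C` and tiny `ε'`.  Recursively `γ_0 ≤ γ_1 ≤ …` in `I` and `y_k`
(`ε'`-approximant on `Iic γ_k`): `y_k` fails on `span (xx '' I)` at some `z`, which lies in `span (xx '' Iic γ_{k+1})`, so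
`‖J (y_{k+1} - y_k) z‖ > (ε - ε') ‖z‖`, `N (y_{k+1} - y_k) ≥ ε - ε'`.  For `k ≤ n`: `N (res (Iic γ_k) y_n - y_k) ≤ 8 ε'`
(`norming` with `J_res`).  Hence `p_k = res (Ioc γ_k γ_{k+1}) y_n = res (Iic γ_{k+1}) y_n - res (Iic γ_k) y_n` has
`N p_k ≥ ε - 17 ε' ≥ ε/2`, the `p_k` form a `Chain`, `∑_{k<n} p_k = res (Ioc γ_0 γ_n) y_n` has norm
`≤ N y_n ≤ 4 (‖g‖ + ε')`; contradiction with `lower` applied to `(2/ε) • p_k`.
Well-founded induction gives `App (Iic β)` for all `β`, then `App univ`; finish by density (`h.dense`).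
-/

set_option autoImplicit false

namespace Crest.Agent.R114

open Finsupp

variable {𝕜 : Type} [RCLike 𝕜] {Ω : Type} [LinearOrder Ω] {d : YData 𝕜 Ω}
  {X : Type} [NormedAddCommGroup X] [NormedSpace 𝕜 X]
  {J : (Ω →₀ 𝕜) →ₗ[𝕜] (X →L[𝕜] 𝕜)} {xx : Ω → X}

namespace XD

lemma J_zero (h : XP d J xx) {y : Ω →₀ 𝕜} {β : Ω} (hy : ∀ γ ∈ y.support, β < γ) :
    J y (xx β) = 0 := by
  conv_lhs => rw [← y.sum_single, Finsupp.sum, map_sum]
  rw [_root_.sum_apply]
  refine Finset.sum_eq_zero fun γ hγ => ?_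
  rw [← Finsupp.smul_single_one, map_smul, _root_.smul_apply, h.tri_lt β γ (hy γ hγ), smul_zero]

lemma J_single_zero (h : XP d J xx) (β : Ω) {z : X}
    (hz : z ∈ Submodule.span 𝕜 (xx '' Set.Iio β)) : J (single β 1) z = 0 := by
  induction hz using Submodule.span_induction with
  | mem x hx => obtain ⟨γ, hγ, rfl⟩ := hx; exact h.tri_lt γ β hγ
  | zero => exact map_zero _
  | add x y _ _ hx hy => rw [map_add, hx, hy, add_zero]
  | smul c x _ hx => rw [map_smul, hx, smul_zero]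

end XD

theorem XP.J_res (h : XP d J xx) {I : Set Ω} (hI : IsLowerSet I) (y : Ω →₀ 𝕜) {z : X}
    (hz : z ∈ Submodule.span 𝕜 (xx '' I)) : J (res I y) z = J y z := by
  induction hz using Submodule.span_induction with
  | mem x hx =>
    obtain ⟨β, hβ, rfl⟩ := hx
    conv_rhs => rw [← res_add_res_compl I y]
    rw [map_add, _root_.add_apply, XD.J_zero h (y := res Iᶜ y), add_zero]
    intro γ hγ
    by_contra hn
    exact (mem_support_res.1 hγ).2 (hI (not_lt.1 hn) hβ)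
  | zero => rw [map_zero, map_zero]
  | add x y _ _ hx hy => rw [map_add, map_add, hx, hy]
  | smul c x _ hx => rw [map_smul, map_smul, hx]

theorem XP.split (h : XP d J xx) (β : Ω) {z : X} (hz : z ∈ Submodule.span 𝕜 (xx '' Set.Iic β)) :
    ∃ z' ∈ Submodule.span 𝕜 (xx '' Set.Iio β), ∃ c : 𝕜, z = z' + c • xx β ∧
      ‖z'‖ ≤ (1 + ‖xx β‖) * ‖z‖ := by
  rw [← Set.Iio_insert, Set.image_insert_eq, Submodule.mem_span_insert] at hz
  obtain ⟨c, z', hz', rfl⟩ := hz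
  refine ⟨z', hz', c, add_comm _ _, ?_⟩
  have hc : J (single β 1) (c • xx β + z') = c := by
    rw [map_add, map_smul, h.tri_eq, XD.J_single_zero h β hz', add_zero, smul_eq_mul, mul_one]
  have h1 : ‖c‖ ≤ ‖c • xx β + z'‖ := by
    conv_lhs => rw [← hc]
    refine ((J (single β 1)).le_opNorm _).trans ?_
    exact mul_le_of_le_one_left (norm_nonneg _) ((h.J_le _).trans (d.single_le β))
  have h2 : ‖z'‖ ≤ ‖c • xx β + z'‖ + ‖c‖ * ‖xx β‖ := by
    rw [← norm_smul]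
    conv_lhs => rw [show z' = (c • xx β + z') - c • xx β by abel]
    exact norm_sub_le _ _
  nlinarith [mul_le_mul_of_nonneg_right h1 (norm_nonneg (xx β))]

namespace XD

variable (J xx) in
/-- approximation of functionals on the span of the generators indexed by `I` -/
def App (I : Set Ω) : Prop :=
  ∀ (g : X →L[𝕜] 𝕜) (ε : ℝ), 0 < ε → ∃ y : Ω →₀ 𝕜, (∀ γ ∈ y.support, γ ∈ I) ∧
    ∀ z ∈ Submodule.span 𝕜 (xx '' I), ‖g z - J y z‖ ≤ ε * ‖z‖

lemma app_succ (h : XP d J xx) (β : Ω) (hA : App J xx (Set.Iio β)) : App J xx (Set.Iic β) := by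
  classical
  intro g ε hε
  have hp : 0 < 1 + ‖xx β‖ := by positivity
  obtain ⟨y, hy, hy'⟩ := hA g (ε / (1 + ‖xx β‖)) (by positivity)
  refine ⟨y + (g (xx β) - J y (xx β)) • single β 1, fun γ hγ => ?_, fun z hz => ?_⟩
  · rcases Finset.mem_union.1 (Finsupp.support_add hγ) with h1 | h1
    · exact le_of_lt (hy γ h1)
    · exact (Finset.mem_singleton.1
        (Finsupp.support_single_subset (Finsupp.support_smul h1))).le
  · obtain ⟨z', hz', c, rfl, hn⟩ := h.split β hz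
    have e : g (z' + c • xx β) - J (y + (g (xx β) - J y (xx β)) • single β 1) (z' + c • xx β) =
        g z' - J y z' := by
      simp only [map_add, map_smul, _root_.add_apply, _root_.smul_apply, h.tri_eq,
        J_single_zero h β hz', smul_eq_mul]
      ring
    rw [e]
    refine (hy' z' hz').trans ((mul_le_mul_of_nonneg_left hn (by positivity)).trans (le_of_eq ?_))
    field_simp

lemma exists_Iic {I : Set Ω} {γ : Ω} (hγ : γ ∈ I) {z : X} (hz : z ∈ Submodule.span 𝕜 (xx '' I)) :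
    ∃ γ' ∈ I, γ ≤ γ' ∧ z ∈ Submodule.span 𝕜 (xx '' Set.Iic γ') := by
  have mono : ∀ {a b : Ω}, a ≤ b →
      Submodule.span 𝕜 (xx '' Set.Iic a) ≤ Submodule.span 𝕜 (xx '' Set.Iic b) := fun hab =>
    Submodule.span_mono (Set.image_mono (Set.Iic_subset_Iic.2 hab))
  induction hz using Submodule.span_induction with
  | mem x hx =>
    obtain ⟨β, hβ, rfl⟩ := hx
    rcases le_total γ β with h1 | h1
    · exact ⟨β, hβ, h1, Submodule.subset_span ⟨β, le_rfl, rfl⟩⟩
    · exact ⟨γ, hγ, le_rfl, Submodule.subset_span ⟨β, h1, rfl⟩⟩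
  | zero => exact ⟨γ, hγ, le_rfl, zero_mem _⟩
  | add x y _ _ hx hy =>
    obtain ⟨a, ha, ha1, ha2⟩ := hx
    obtain ⟨b, hb, hb1, hb2⟩ := hy
    rcases le_total a b with h1 | h1
    · exact ⟨b, hb, hb1, add_mem (mono h1 ha2) hb2⟩
    · exact ⟨a, ha, ha1, add_mem ha2 (mono h1 hb2)⟩
  | smul c x _ hx =>
    obtain ⟨a, ha, ha1, ha2⟩ := hx
    exact ⟨a, ha, ha1, Submodule.smul_mem _ c ha2⟩

lemma res_Ioc {a b : Ω} (hab : a ≤ b) (y : Ω →₀ 𝕜) :
    res (Set.Ioc a b) y = res (Set.Iic b) y - res (Set.Iic a) y := by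
  ext γ
  rw [Finsupp.sub_apply]
  by_cases h1 : γ ≤ a
  · rw [res_apply_notMem _ fun h => absurd h.1 (not_lt.2 h1), res_apply_mem (E := Set.Iic a) _ h1,
      res_apply_mem (E := Set.Iic b) _ (h1.trans hab), sub_self]
  · rw [res_apply_notMem (E := Set.Iic a) _ h1, sub_zero]
    by_cases h2 : γ ≤ b
    · rw [res_apply_mem (E := Set.Ioc a b) _ ⟨not_le.1 h1, h2⟩, res_apply_mem (E := Set.Iic b) _ h2]
    · rw [res_apply_notMem _ fun h => h2 h.2, res_apply_notMem (E := Set.Iic b) _ h2]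

lemma app_lim (h : XP d J xx) {I : Set Ω} (hA : ∀ γ ∈ I, App J xx (Set.Iic γ)) (hI : IsLowerSet I) :
    App J xx I := by
  classical
  intro g ε hε
  by_contra hne
  push Not at hne
  obtain ⟨γ₀, hγ₀⟩ : I.Nonempty := by
    by_contra hI0
    rw [Set.not_nonempty_iff_eq_empty] at hI0
    obtain ⟨z, hz, hlt⟩ := hne 0 (by simp)
    rw [hI0, Set.image_empty, Submodule.span_empty, Submodule.mem_bot] at hz
    simp [hz] at hlt
  obtain ⟨δ, hδ⟩ : ∃ δ : ℝ, δ = ε / 40 := ⟨_, rfl⟩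
  have hδ0 : 0 < δ := by rw [hδ]; positivity
  choose! Y hY1 hY2 using fun γ hγ => hA γ hγ g δ hδ0
  have st : ∀ γ ∈ I, ∃ γ' ∈ I, γ ≤ γ' ∧ ε - δ ≤ d.N (Y γ' - Y γ) := by
    intro γ hγ
    obtain ⟨z, hz, hlt⟩ := hne (Y γ) fun β hβ => hI (hY1 γ hγ β hβ) hγ
    obtain ⟨γ', hγ', h1, h2⟩ := exists_Iic hγ hz
    refine ⟨γ', hγ', h1, le_of_lt (lt_of_mul_lt_mul_right ?_ (norm_nonneg z))⟩
    have t1 := hY2 γ' hγ' z h2
    have t2 : ‖J (Y γ' - Y γ) z‖ ≤ d.N (Y γ' - Y γ) * ‖z‖ :=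
      ((J _).le_opNorm z).trans (mul_le_mul_of_nonneg_right (h.J_le _) (norm_nonneg z))
    have t3 : g z - J (Y γ) z = (g z - J (Y γ') z) + J (Y γ' - Y γ) z := by
      rw [map_sub, _root_.sub_apply]; ring
    have t4 := norm_add_le (g z - J (Y γ') z) (J (Y γ' - Y γ) z)
    rw [← t3] at t4
    linarith
  choose! nx hnx1 hnx2 hnx3 using st
  obtain ⟨γ, hγ0, hγs⟩ : ∃ γ : ℕ → Ω, γ 0 = γ₀ ∧ ∀ k, γ (k + 1) = nx (γ k) :=
    ⟨fun k => nx^[k] γ₀, rfl, fun k => Function.iterate_succ_apply' _ _ _⟩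
  have hγI : ∀ k, γ k ∈ I := by
    intro k
    induction k with
    | zero => rwa [hγ0]
    | succ k ih => rw [hγs]; exact hnx1 _ ih
  have hmono : Monotone γ := monotone_nat_of_le_succ fun k => by
    rw [hγs]; exact hnx2 _ (hγI k)
  have close : ∀ a ∈ I, ∀ b ∈ I, a ≤ b → d.N (res (Set.Iic a) (Y b) - Y a) ≤ 4 * (2 * δ) := by
    intro a ha b hb hab
    refine h.norming (Set.Iic a) (isLowerSet_Iic a) _ (fun β hβ => ?_) _ (by positivity)
      fun z hz => ?_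
    · rcases Finset.mem_union.1 (Finsupp.support_sub hβ) with h1 | h1
      exacts [(mem_support_res.1 h1).2, hY1 a ha β h1]
    · have hz' : z ∈ Submodule.span 𝕜 (xx '' Set.Iic b) :=
        Submodule.span_mono (Set.image_mono (Set.Iic_subset_Iic.2 hab)) hz
      have e : J (res (Set.Iic a) (Y b) - Y a) z = (g z - J (Y a) z) - (g z - J (Y b) z) := by
        rw [map_sub, _root_.sub_apply, h.J_res (isLowerSet_Iic a) _ hz]; ring
      rw [e]
      refine (norm_sub_le _ _).trans ?_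
      linarith [hY2 a ha z hz, hY2 b hb z hz']
  obtain ⟨n, hn⟩ := d.lower (2 / ε * (4 * (‖g‖ + δ)) + 1)
  have hnorm : ‖((2 / ε : ℝ) : 𝕜)‖ = 2 / ε := by
    rw [RCLike.norm_ofReal, abs_of_pos (by positivity)]
  have hlow := hn (fun k => ((2 / ε : ℝ) : 𝕜) • res (Set.Ioc (γ k) (γ (k + 1))) (Y (γ n)))
    (fun u v huv a ha b hb => by
      have h1 := (mem_support_res.1 (Finsupp.support_smul ha)).2
      have h2 := (mem_support_res.1 (Finsupp.support_smul hb)).2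
      exact h1.2.trans_lt ((hmono huv).trans_lt h2.1)) (fun u hu => by
      rw [map_smul_eq_mul, hnorm, res_Ioc (hmono (Nat.le_succ u))]
      have t1 := close _ (hγI u) _ (hγI n) (hmono hu.le)
      have t2 := close _ (hγI (u + 1)) _ (hγI n) (hmono hu)
      have t3 := hnx3 _ (hγI u)
      rw [← hγs] at t3
      have t4 : Y (γ (u + 1)) - Y (γ u) =
          (res (Set.Iic (γ (u + 1))) (Y (γ n)) - res (Set.Iic (γ u)) (Y (γ n))) +
            (res (Set.Iic (γ u)) (Y (γ n)) - Y (γ u)) -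
            (res (Set.Iic (γ (u + 1))) (Y (γ n)) - Y (γ (u + 1))) := by abel
      have t5 := map_sub_le_add d.N
        ((res (Set.Iic (γ (u + 1))) (Y (γ n)) - res (Set.Iic (γ u)) (Y (γ n))) +
            (res (Set.Iic (γ u)) (Y (γ n)) - Y (γ u)))
        (res (Set.Iic (γ (u + 1))) (Y (γ n)) - Y (γ (u + 1)))
      have t6 := map_add_le_add d.N
        (res (Set.Iic (γ (u + 1))) (Y (γ n)) - res (Set.Iic (γ u)) (Y (γ n)))
        (res (Set.Iic (γ u)) (Y (γ n)) - Y (γ u))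
      rw [← t4] at t5
      rw [div_mul_eq_mul_div, le_div_iff₀ hε]
      linarith)
  rw [← Finset.smul_sum, map_smul_eq_mul, hnorm,
    Finset.sum_congr rfl fun u _ => res_Ioc (hmono (Nat.le_succ u)) (Y (γ n)),
    Finset.sum_range_sub fun u => res (Set.Iic (γ u)) (Y (γ n)),
    ← res_Ioc (hmono (Nat.zero_le n))] at hlow
  have t1 := d.res_le (Set.Ioc (γ 0) (γ n)) Set.ordConnected_Ioc (Y (γ n))
  have t2 : d.N (Y (γ n)) ≤ 4 * (‖g‖ + δ) := by
    refine h.norming (Set.Iic (γ n)) (isLowerSet_Iic _) _ (hY1 _ (hγI n)) _ (by positivity)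
      fun z hz => ?_
    have e : J (Y (γ n)) z = g z - (g z - J (Y (γ n)) z) := by ring
    have t3 := norm_sub_le (g z) (g z - J (Y (γ n)) z)
    rw [← e] at t3
    linarith [hY2 _ (hγI n) z hz, g.le_opNorm z]
  have t3 := mul_le_mul_of_nonneg_left (t1.trans t2) (show 0 ≤ 2 / ε by positivity)
  linarith

end XD

theorem XP.dense_range [WellFoundedLT Ω] (h : XP d J xx) (g : X →L[𝕜] 𝕜) (ε : ℝ) (hε : 0 < ε) :
    ∃ y : Ω →₀ 𝕜, ‖g - J y‖ ≤ ε := by
  have h1 : ∀ β, XD.App J xx (Set.Iic β) := by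
    intro β
    induction β using (wellFounded_lt (α := Ω)).induction with
    | _ β ih => exact XD.app_succ h β (XD.app_lim h (fun γ hγ => ih γ hγ) (isLowerSet_Iio β))
  obtain ⟨y, -, hy⟩ := XD.app_lim h (I := Set.univ) (fun γ _ => h1 γ) isLowerSet_univ g ε hε
  rw [Set.image_univ] at hy
  refine ⟨y, ContinuousLinearMap.opNorm_le_bound _ hε.le fun z => ?_⟩
  exact closure_minimal (t := {z | ‖(g - J y) z‖ ≤ ε * ‖z‖}) hy
    (isClosed_le (by fun_prop) (by fun_prop)) (h.dense z)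

end Crest.Agent.R114
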