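import Crest.Agent.R114.XDense

/-!
# Task R114-XFinal (`X` has no separable infinite-dimensional quotient)

`XP.infinite_dim`: `N y ≤ 4 ‖J y‖` (`norming` with `I = univ`) and `coord_le` make `J` injective; if `X` were finite-dimensional
so would be `Ω →₀ 𝕜`.  (Or: the `xx β` are linearly independent by triangularity.)
`XP.exists_coord`: `κ β : (X →L 𝕜) →L 𝕜` with `κ β (J y) = y β` (Hahn–Banach / `LinearMap.extendOfNorm`, bound `4`).

`XP.no_quotient`.  Suppose `M` closed, `X ⧸ M` separable, infinite-dimensional; `q i` dense sequence of `X ⧸ M`, lifted to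
`Q i : X`.  `Gp = {g | ∀ m ∈ M, g m = 0}` is infinite-dimensional (it is the image of the dual of the normed space `X ⧸ M`, which is
infinite-dimensional).  For `g ∈ Gp` killing `Q 0, …, Q (k-1)`: `‖g z‖ ≤ ‖g‖ * ‖mk z - q i‖` for `i < k`.
`Sm g I C := ∀ z ∈ span (xx '' I), ‖g z‖ ≤ C ‖z‖`;
`Big I := ∃ c > 0, ∃ H ≤ Gp, ¬ FiniteDimensional H ∧ ∀ g ∈ H, ∀ C ≥ 0, Sm g I C → c ‖g‖ ≤ C`.
`Big univ` (density), `¬ Big ∅`, `Big (Iic γ) → Big (Iio γ)` (`split`, intersect `H` with the kernel of `g ↦ g (xx γ)`).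
Take `lam : WithTop Ω` minimal with `Big I`, `I = {γ | ↑γ < lam}`; for finite `S ⊆ I` the lower closure of `S` (empty or
`Iic (max S)`) is not `Big`.  An infinite-dimensional subspace stays infinite-dimensional after intersecting with the kernels of
finitely many functionals.  Recursively choose `(g_k, y_k)`: `L_k` = lower closure of the supports of `b_0..b_{k-1}`,
`g_k ∈ H`, `‖g_k‖ = 1`, killing `Q i` (`i<k`) and `κ β` (`β ∈ supp y_i`, `i<k`), `Sm g_k L_k ε_k`; `‖g_k - J y_k‖ ≤ ε_k`;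
`b_k = res (I \ L_k) y_k`; `ε_k = c 2^{-k} / 100`.  Then `N (res L_k y_k) ≤ 8 ε_k`, `N (res I y_k) ≥ c - ε_k` (`J_res`), so
`N b_k ≥ c/2`, `Chain b`, `‖y_k β‖ ≤ 4 ε_k` whenever `β ∈ supp y_i` for some `i<k`.
`d.G b` gives `β, ε₀`; `test β (ε₀/4)` gives `K, z`.  For `y = ∑_{k∈S} a_k b_k ∈ tailSp b n`, `N y ≤ 1`:
`‖a_k‖ ≤ 2/c` (`res (hull (b k)) y = a_k • b_k`), `g = ∑ a_k g_k ∈ H`, `Sm g I (1 + ∑ ‖a_k‖ 9 ε_k)` so `‖g‖ ≤ C₀` (uniform),
`g z = J y z + ∑ a_k (J (res L_k y_k) z + J (res Iᶜ y_k) z + (g_k - J y_k) z)`; `J (res Iᶜ y_k) z` is `0` or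
`y_k β * J (single β 1) z` (second part of `test`, `supp D β K' ⊆ I`), and `y_k β` is `0` for all `k` or `≤ 4 ε_k` for large `k`.
For large `n`: `y β = 0` and `act (T β K) y = act (T β 0) y` (`Chain.exists_tail_zero`, `T_succ`), so `‖g z‖ ≥ ε₀/2`, whereas
`‖g z‖ ≤ C₀ ‖mk z - q i‖ < ε₀/2` for a suitable `i < n`.  Contradiction.
-/

set_option autoImplicit false

namespace Crest.Agent.R114

open Finsupp

variable {𝕜 : Type} [RCLike 𝕜] {Ω : Type} [LinearOrder Ω] {d : YData 𝕜 Ω}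
  {X : Type} [NormedAddCommGroup X] [NormedSpace 𝕜 X]
  {J : (Ω →₀ 𝕜) →ₗ[𝕜] (X →L[𝕜] 𝕜)} {xx : Ω → X}

namespace XF

lemma dual_inf {E : Type*} [NormedAddCommGroup E] [NormedSpace 𝕜 E] (h : ¬ FiniteDimensional 𝕜 E) :
    ¬ FiniteDimensional 𝕜 (E →L[𝕜] 𝕜) := fun _ =>
  h (FiniteDimensional.of_injective (NormedSpace.inclusionInDoubleDualLi 𝕜 (E := E)).toLinearMap
    (NormedSpace.inclusionInDoubleDualLi 𝕜 (E := E)).injective)

lemma inf_ker {V : Type*} [AddCommGroup V] [Module 𝕜 V] (H : Submodule 𝕜 V)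
    (hH : ¬ FiniteDimensional 𝕜 H) {ι : Type*} (S : Finset ι) (f : ι → V →ₗ[𝕜] 𝕜) :
    ∃ H' ≤ H, ¬ FiniteDimensional 𝕜 H' ∧ ∀ g ∈ H', ∀ i ∈ S, f i g = 0 := by
  let φ : V →ₗ[𝕜] (S → 𝕜) := LinearMap.pi fun i => f i
  refine ⟨H ⊓ LinearMap.ker φ, inf_le_left, fun hf => hH ?_, fun g hg i hi => ?_⟩
  · rw [FiniteDimensional, Module.Finite.iff_fg] at hf ⊢
    exact Submodule.fg_of_fg_map_of_fg_inf_ker φ (IsNoetherian.noetherian _) hf
  · exact congrFun (LinearMap.mem_ker.1 hg.2) ⟨i, hi⟩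

lemma N_le (h : XP d J xx) (y : Ω →₀ 𝕜) : d.N y ≤ 4 * ‖J y‖ :=
  h.norming Set.univ isLowerSet_univ y (fun _ _ => trivial) _ (norm_nonneg _)
    fun z _ => (J y).le_opNorm z

lemma J_apply_le (h : XP d J xx) (y : Ω →₀ 𝕜) (z : X) : ‖J y z‖ ≤ d.N y * ‖z‖ :=
  ((J y).le_opNorm z).trans (mul_le_mul_of_nonneg_right (h.J_le y) (norm_nonneg _))

lemma exists_coord [WellFoundedLT Ω] (h : XP d J xx) (β : Ω) :
    ∃ κ : (X →L[𝕜] 𝕜) →ₗ[𝕜] 𝕜, (∀ y, κ (J y) = y β) ∧ ∀ g, ‖κ g‖ ≤ 4 * ‖g‖ := by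
  have hd : DenseRange J := by
    rw [Metric.denseRange_iff]
    intro g r hr
    obtain ⟨y, hy⟩ := h.dense_range g (r / 2) (by positivity)
    exact ⟨y, by rw [dist_eq_norm]; linarith⟩
  have hn : ∀ y : Ω →₀ 𝕜, ‖(Finsupp.lapply β : (Ω →₀ 𝕜) →ₗ[𝕜] 𝕜) y‖ ≤ 4 * ‖J y‖ := fun y =>
    (d.coord_le y β).trans (N_le h y)
  exact ⟨((Finsupp.lapply β : (Ω →₀ 𝕜) →ₗ[𝕜] 𝕜).extendOfNorm J).toLinearMap,
    fun y => LinearMap.extendOfNorm_eq hd ⟨4, hn⟩ y,
    fun g => LinearMap.norm_extendOfNorm_apply_le hd 4 hn g⟩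

def Sm (xx : Ω → X) (g : X →L[𝕜] 𝕜) (I : Set Ω) (C : ℝ) : Prop :=
  ∀ z ∈ Submodule.span 𝕜 (xx '' I), ‖g z‖ ≤ C * ‖z‖

def Big (xx : Ω → X) (Gp : Submodule 𝕜 (X →L[𝕜] 𝕜)) (I : Set Ω) : Prop :=
  ∃ c : ℝ, 0 < c ∧ ∃ H ≤ Gp, ¬ FiniteDimensional 𝕜 H ∧
    ∀ g ∈ H, ∀ C : ℝ, 0 ≤ C → Sm xx g I C → c * ‖g‖ ≤ C

def lc (I : Set Ω) (S : Finset Ω) : Set Ω := {γ | ∃ δ ∈ S, δ ∈ I ∧ γ ≤ δ}

lemma lc_lower (I : Set Ω) (S : Finset Ω) : IsLowerSet (lc I S) :=
  fun _ _ hab ⟨δ, h1, h2, h3⟩ => ⟨δ, h1, h2, hab.trans h3⟩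

lemma lc_subset {I : Set Ω} (hI : IsLowerSet I) (S : Finset Ω) : lc I S ⊆ I :=
  fun _ ⟨_, _, h2, h3⟩ => hI h3 h2

lemma lc_cases (I : Set Ω) (S : Finset Ω) : lc I S = ∅ ∨ ∃ γ ∈ I, lc I S = Set.Iic γ := by
  classical
  rcases (S.filter (· ∈ I)).eq_empty_or_nonempty with h | h
  · left
    refine Set.eq_empty_of_forall_notMem fun γ ⟨δ, h1, h2, _⟩ => ?_
    have : δ ∈ S.filter (· ∈ I) := Finset.mem_filter.2 ⟨h1, h2⟩
    simp [h] at this
  · right
    have hm := Finset.mem_filter.1 ((S.filter (· ∈ I)).max'_mem h)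
    refine ⟨_, hm.2, Set.ext fun γ => ⟨fun ⟨δ, h1, h2, h3⟩ => ?_, fun hγ => ⟨_, hm.1, hm.2, hγ⟩⟩⟩
    exact h3.trans (Finset.le_max' _ δ (Finset.mem_filter.2 ⟨h1, h2⟩))

variable {Gp : Submodule 𝕜 (X →L[𝕜] 𝕜)}

lemma big_univ (h : XP d J xx) (hG : ¬ FiniteDimensional 𝕜 Gp) : Big xx Gp Set.univ := by
  refine ⟨1, one_pos, Gp, le_rfl, hG, fun g _ C hC hs => ?_⟩
  rw [one_mul]
  refine g.opNorm_le_bound hC fun z => ?_
  refine h.dense.induction (P := fun z => ‖g z‖ ≤ C * ‖z‖) (fun z hz => hs z ?_)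
    (isClosed_le (by fun_prop) (by fun_prop)) z
  rwa [Set.image_univ]

omit [LinearOrder Ω] in
lemma not_big_empty : ¬ Big xx Gp ∅ := by
  rintro ⟨c, hc, H, -, hH, hb⟩
  have : H = ⊥ := by
    refine (Submodule.eq_bot_iff H).2 fun g hg => ?_
    have := hb g hg 0 le_rfl fun z hz => by
      simp only [Set.image_empty, Submodule.span_empty, Submodule.mem_bot] at hz
      simp [hz]
    have h2 : ‖g‖ ≤ 0 := by nlinarith [norm_nonneg g]
    exact norm_le_zero_iff.1 h2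
  subst this
  exact hH inferInstance

lemma big_Iio (h : XP d J xx) {γ : Ω} (hb : Big xx Gp (Set.Iic γ)) : Big xx Gp (Set.Iio γ) := by
  obtain ⟨c, hc, H, hHG, hH, hb⟩ := hb
  obtain ⟨H', h1, h2, h3⟩ := inf_ker H hH ({()} : Finset Unit)
    (fun _ => (ContinuousLinearMap.apply 𝕜 𝕜 (xx γ)).toLinearMap)
  have hp : 0 < 1 + ‖xx γ‖ := by positivity
  refine ⟨c / (1 + ‖xx γ‖), by positivity, H', h1.trans hHG, h2, fun g hg C hC hs => ?_⟩
  have h0 : g (xx γ) = 0 := h3 g hg () (Finset.mem_singleton_self _)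
  have := hb g (h1 hg) (C * (1 + ‖xx γ‖)) (by positivity) fun z hz => by
    obtain ⟨z', hz', a, rfl, hn⟩ := h.split γ hz
    rw [map_add, map_smul, h0, smul_zero, add_zero, mul_assoc]
    exact (hs z' hz').trans (mul_le_mul_of_nonneg_left hn hC)
  rw [div_mul_eq_mul_div, div_le_iff₀ hp]
  exact this

lemma exists_min [WellFoundedLT Ω] (h : XP d J xx) (hG : ¬ FiniteDimensional 𝕜 Gp) :
    ∃ I : Set Ω, IsLowerSet I ∧ Big xx Gp I ∧ ∀ S : Finset Ω, ¬ Big xx Gp (lc I S) := by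
  let B : Set (WithTop Ω) := {lam | Big xx Gp {γ : Ω | (γ : WithTop Ω) < lam}}
  have hB : B.Nonempty := ⟨⊤, by
    have : {γ : Ω | (γ : WithTop Ω) < ⊤} = Set.univ := Set.eq_univ_of_forall fun γ => WithTop.coe_lt_top γ
    simp only [B, Set.mem_ofPred_eq, this]
    exact big_univ h hG⟩
  let lam := (wellFounded_lt (α := WithTop Ω)).min B hB
  refine ⟨{γ : Ω | (γ : WithTop Ω) < lam}, fun a b hab ha => (WithTop.coe_le_coe.2 hab).trans_lt ha,
    (wellFounded_lt (α := WithTop Ω)).min_mem B hB, fun S hS => ?_⟩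
  rcases lc_cases {γ : Ω | (γ : WithTop Ω) < lam} S with e | ⟨γ, hγ, e⟩
  · rw [e] at hS; exact not_big_empty hS
  · rw [e] at hS
    refine (wellFounded_lt (α := WithTop Ω)).not_lt_min B (x := γ) ?_ hγ
    have : {δ : Ω | (δ : WithTop Ω) < γ} = Set.Iio γ := Set.ext fun δ => WithTop.coe_lt_coe
    simp only [B, Set.mem_ofPred_eq, this]
    exact big_Iio h hS

omit [LinearOrder Ω] in
lemma small_of_not_big {L : Set Ω} (hL : ¬ Big xx Gp L) {H : Submodule 𝕜 (X →L[𝕜] 𝕜)} (hH : H ≤ Gp)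
    (hinf : ¬ FiniteDimensional 𝕜 H) {ε : ℝ} (hε : 0 < ε) :
    ∃ g ∈ H, ‖g‖ = 1 ∧ Sm xx g L ε := by
  unfold Big at hL
  push Not at hL
  obtain ⟨g, hg, C, hC, hs, hlt⟩ := hL ε hε H hH hinf
  have hg0 : 0 < ‖g‖ := by
    by_contra h0
    have : ‖g‖ = 0 := le_antisymm (not_lt.1 h0) (norm_nonneg _)
    rw [this, mul_zero] at hlt
    linarith
  refine ⟨((‖g‖⁻¹ : ℝ) : 𝕜) • g, H.smul_mem _ hg, ?_, fun z hz => ?_⟩
  · rw [norm_smul, RCLike.norm_ofReal, abs_of_pos (inv_pos.2 hg0), inv_mul_cancel₀ hg0.ne']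
  · rw [_root_.smul_apply, norm_smul, RCLike.norm_ofReal, abs_of_pos (inv_pos.2 hg0),
      inv_mul_le_iff₀ hg0]
    have := hs z hz
    nlinarith [norm_nonneg z]

lemma geom (T : Finset ℕ) (n : ℕ) (hT : ∀ k ∈ T, n ≤ k) :
    ∑ k ∈ T, (1 / 2 : ℝ) ^ k ≤ 2 * (1 / 2) ^ n := by
  have h1 : T ⊆ Finset.Ico n (T.sup id + n + 1) := fun i hi => by
    have : i ≤ T.sup id := Finset.le_sup (f := id) hi
    exact Finset.mem_Ico.2 ⟨hT i hi, by omega⟩
  refine (Finset.sum_le_sum_of_subset_of_nonneg h1 fun i _ _ => by positivity).trans ?_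
  refine (geom_sum_Ico_le_of_lt_one (by norm_num) (by norm_num)).trans (le_of_eq ?_)
  ring

omit [LinearOrder Ω] in
lemma J_expand (y : Ω →₀ 𝕜) (z : X) : J y z = ∑ γ ∈ y.support, y γ * J (single γ 1) z := by
  conv_lhs => rw [← Finsupp.sum_single y]
  rw [Finsupp.sum, map_sum, _root_.sum_apply]
  refine Finset.sum_congr rfl fun γ _ => ?_
  rw [← smul_eq_mul, ← _root_.smul_apply, ← map_smul, Finsupp.smul_single, smul_eq_mul,
    mul_one]

lemma T_zero (β : Ω) (K : ℕ) (γ : Ω) (h : ∀ i < K, d.D β i γ = 0) : d.T β 0 γ = d.T β K γ := by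
  induction K with
  | zero => rfl
  | succ K ih => rw [ih fun i hi => h i (by omega), d.T_succ β K γ, h K (by omega), zero_add]

lemma coeff {b : ℕ → Ω →₀ 𝕜} (hb : Chain b) (T : Finset ℕ) (a : ℕ → 𝕜) {k : ℕ} (hk : k ∈ T) :
    res (hull (b k)) (∑ i ∈ T, a i • b i) = a k • b k := by
  rw [res_sum, Finset.sum_eq_single_of_mem k hk]
  · rw [res_smul, res_eq_self fun _ h => mem_hull_of_mem_support h]
  · intro i _ hik
    rw [res_smul, res_eq_zero, smul_zero]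
    exact fun γ hγ hγ' => hik (hb.eq_of_mem (mem_hull_of_mem_support hγ) hγ')

theorem key [WellFoundedLT Ω] (h : XP d J xx) (hG : ¬ FiniteDimensional 𝕜 Gp) (Q : ℕ → X) :
    ∃ (z : X) (ε₀ C₀ : ℝ), 0 < ε₀ ∧ ∀ n, ∃ g ∈ Gp, (∀ i < n, g (Q i) = 0) ∧ ‖g‖ ≤ C₀ ∧
      ε₀ ≤ ‖g z‖ := by
  classical
  obtain ⟨I, hI, ⟨c, hc, H, hHG, hH, hbig⟩, hmin⟩ := exists_min h hG
  choose κ hκ hκn using exists_coord h
  let ε : ℕ → ℝ := fun k => c / 100 * (1 / 2) ^ k
  have hε : ∀ k, 0 < ε k := fun k => by positivity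
  have hε' : ∀ k, ε k ≤ c / 100 := fun k =>
    mul_le_of_le_one_right (by positivity) (pow_le_one₀ (by norm_num) (by norm_num))
  let S : ℕ → (ℕ → (X →L[𝕜] 𝕜) × (Ω →₀ 𝕜)) → Finset Ω := fun k p =>
    (Finset.range k).biUnion fun i => (p i).2.support
  obtain ⟨p, hp⟩ := wf_exists (Ω := ℕ) (A := (X →L[𝕜] 𝕜) × (Ω →₀ 𝕜))
    (fun k p a => a.1 ∈ H ∧ ‖a.1‖ = 1 ∧ (∀ i < k, a.1 (Q i) = 0) ∧ (∀ β ∈ S k p, κ β a.1 = 0) ∧
      Sm xx a.1 (lc I (S k p)) (ε k) ∧ ‖a.1 - J a.2‖ ≤ ε k)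
    (fun k p p' a hpp ha => by
      have : S k p = S k p' := Finset.biUnion_congr rfl fun i hi => by rw [hpp i (Finset.mem_range.1 hi)]
      rwa [← this])
    (fun k p _ => by
      obtain ⟨H₁, a1, a2, a3⟩ := inf_ker H hH (Finset.range k)
        (fun i => (ContinuousLinearMap.apply 𝕜 𝕜 (Q i)).toLinearMap)
      obtain ⟨H₂, b1, b2, b3⟩ := inf_ker H₁ a2 (S k p) κ
      obtain ⟨g, g1, g2, g3⟩ := small_of_not_big (hmin (S k p)) ((b1.trans a1).trans hHG) b2 (hε k)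
      obtain ⟨y, hy⟩ := h.dense_range g (ε k) (hε k)
      exact ⟨(g, y), a1 (b1 g1), g2, fun i hi => a3 g (b1 g1) i (Finset.mem_range.2 hi), b3 g g1, g3, hy⟩)
  set g : ℕ → X →L[𝕜] 𝕜 := fun k => (p k).1 with hg
  set y : ℕ → Ω →₀ 𝕜 := fun k => (p k).2 with hy
  let L : ℕ → Set Ω := fun k => lc I (S k p)
  let b : ℕ → Ω →₀ 𝕜 := fun k => res (I \ L k) (y k)
  have herr : ∀ k z, ‖g k z - J (y k) z‖ ≤ ε k * ‖z‖ := fun k z =>
    ((g k - J (y k)).le_opNorm z).trans (mul_le_mul_of_nonneg_right (hp k).2.2.2.2.2 (norm_nonneg _))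
  have F1 : ∀ k, d.N (res (L k) (y k)) ≤ 8 * ε k := by
    intro k
    have := h.norming (L k) (lc_lower _ _) (res (L k) (y k)) (fun γ hγ => (mem_support_res.1 hγ).2)
      (2 * ε k) (by have := hε k; positivity) fun z hz => by
        rw [h.J_res (lc_lower _ _) _ hz]
        have e1 := herr k z
        have e2 := (hp k).2.2.2.2.1 z hz
        have e3 := norm_sub_norm_le (J (y k) z) (g k z)
        rw [norm_sub_rev] at e3
        linarith
    linarith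
  have F2 : ∀ k, res I (y k) = b k + res (L k) (y k) := by
    intro k
    ext γ
    by_cases h1 : γ ∈ L k
    · rw [Finsupp.add_apply, res_apply_mem _ (lc_subset hI _ h1), res_apply_mem _ h1,
        res_apply_notMem _ fun hh => hh.2 h1, zero_add]
    · rw [Finsupp.add_apply, res_apply_notMem _ h1, add_zero]
      by_cases h2 : γ ∈ I
      · rw [res_apply_mem _ h2, res_apply_mem (E := I \ L k) _ ⟨h2, h1⟩]
      · rw [res_apply_notMem _ h2, res_apply_notMem _ fun hh => h2 hh.1]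
  have F2' : ∀ k, ∀ z ∈ Submodule.span 𝕜 (xx '' I), ‖g k z - J (b k) z‖ ≤ 9 * ε k * ‖z‖ := by
    intro k z hz
    have e1 := herr k z
    rw [← h.J_res hI (y k) hz, F2, map_add, _root_.add_apply] at e1
    have e2 := (J_apply_le h (res (L k) (y k)) z).trans
      (mul_le_mul_of_nonneg_right (F1 k) (norm_nonneg z))
    have e3 : g k z - J (b k) z = (g k z - (J (b k) z + J (res (L k) (y k)) z)) +
        J (res (L k) (y k)) z := by ring
    rw [e3]
    exact (norm_add_le _ _).trans (by linarith)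
  have F3 : ∀ k, c / 2 ≤ d.N (b k) := by
    intro k
    have := hbig (g k) (hp k).1 (d.N (b k) + 9 * ε k) (by have := hε k; positivity) fun z hz => by
      have e1 := F2' k z hz
      have e2 := J_apply_le h (b k) z
      have e3 := norm_sub_norm_le (g k z) (J (b k) z)
      linarith
    have e4 : ‖g k‖ = 1 := (hp k).2.1
    rw [e4] at this
    have := hε' k
    linarith
  have F4 : Chain b := by
    intro u v huv γ hγ δ hδ
    obtain ⟨h1, h2⟩ := mem_support_res.1 hγ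
    by_contra hn
    exact (mem_support_res.1 hδ).2.2 ⟨γ, Finset.mem_biUnion.2 ⟨u, Finset.mem_range.2 huv, h1⟩, h2.1,
      not_lt.1 hn⟩
  have F4' : ∀ k, b k ≠ 0 := fun k h0 => by
    have := F3 k
    rw [h0, map_zero] at this
    linarith
  have F6 : ∀ β, ∃ n, ∀ k, n ≤ k → ‖y k β‖ ≤ 4 * ε k := by
    intro β
    by_cases hβ : ∃ i, β ∈ (y i).support
    · obtain ⟨i, hi⟩ := hβ
      refine ⟨i + 1, fun k hk => ?_⟩
      have e1 : κ β (g k) = 0 :=
        (hp k).2.2.2.1 β (Finset.mem_biUnion.2 ⟨i, Finset.mem_range.2 hk, hi⟩)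
      have e2 := hκn β (g k - J (y k))
      rw [map_sub, e1, hκ, zero_sub, norm_neg] at e2
      have e3 : ‖g k - J (y k)‖ ≤ ε k := (hp k).2.2.2.2.2
      linarith
    · refine ⟨0, fun k _ => ?_⟩
      rw [Finsupp.notMem_support_iff.1 fun hh => hβ ⟨k, hh⟩, norm_zero]
      have := hε k
      positivity
  obtain ⟨β, ε₀, hε₀, hlow, hG'⟩ := d.G b F4 F4'
  obtain ⟨K, z, hz1, hz2⟩ := h.test β (ε₀ / 4) (by positivity)
  have F7 : ∀ k, ‖J (res Iᶜ (y k)) z‖ ≤ ‖y k β‖ * ‖z‖ := by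
    intro k
    rw [J_expand]
    have hz3 : ∀ γ ∈ (res Iᶜ (y k)).support, γ ≠ β → res Iᶜ (y k) γ * J (single γ 1) z = 0 := by
      intro γ hγ hne
      rw [hz2 γ hne, mul_zero]
      intro K' δ hδ
      obtain ⟨k', δ', hδ', hle⟩ := hlow K' δ hδ
      by_contra hn
      exact (mem_support_res.1 hγ).2 (hI ((not_lt.1 hn).trans hle) (mem_support_res.1 hδ').2.1)
    by_cases hβ : β ∈ (res Iᶜ (y k)).support
    · rw [Finset.sum_eq_single_of_mem β hβ hz3, norm_mul, res_apply_mem _ (mem_support_res.1 hβ).2]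
      refine mul_le_mul_of_nonneg_left ((J_apply_le h _ z).trans ?_) (norm_nonneg _)
      exact mul_le_of_le_one_left (norm_nonneg _) (d.single_le β)
    · rw [Finset.sum_eq_zero fun γ hγ => hz3 γ hγ fun e => hβ (e ▸ hγ), norm_zero]
      positivity
  obtain ⟨n₁, hn₁⟩ := F6 β
  obtain ⟨n₂, hn₂⟩ := F4.exists_tail_zero
    (insert β ((Finset.range K).biUnion fun i => (d.D β i).support))
  obtain ⟨n₃, hn₃⟩ := exists_pow_lt_of_lt_one (x := ε₀ / 4 / (‖z‖ + 1)) (y := 1 / 2)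
    (by positivity) (by norm_num)
  refine ⟨z, ε₀ / 2, 2 / c, by positivity, fun n => ?_⟩
  obtain ⟨Y, hY, hY1, hY2⟩ := hG' (n + n₁ + n₂ + n₃)
  obtain ⟨T, a, hT, hYe⟩ := tailSp_repr hY
  have ha : ∀ k ∈ T, ‖a k‖ ≤ 2 / c := by
    intro k hk
    have e1 := d.res_le _ (hull_ordConnected (b k)) Y
    rw [hYe, coeff F4 T a hk, map_smul_eq_mul, ← hYe] at e1
    rw [le_div_iff₀ hc]
    nlinarith [F3 k, norm_nonneg (a k)]
  have hsum : ∑ k ∈ T, ‖a k‖ * ε k ≤ 1 / 25 * (1 / 2) ^ (n + n₁ + n₂ + n₃) := by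
    have e1 : ∑ k ∈ T, ‖a k‖ * ε k ≤ ∑ k ∈ T, 1 / 50 * (1 / 2 : ℝ) ^ k := by
      refine Finset.sum_le_sum fun k hk => (mul_le_mul_of_nonneg_right (ha k hk) (hε k).le).trans
        (le_of_eq ?_)
      simp only [ε]
      field_simp
      ring
    rw [← Finset.mul_sum] at e1
    have := geom T _ hT
    linarith
  have hpow : (1 / 2 : ℝ) ^ (n + n₁ + n₂ + n₃) ≤ (1 / 2) ^ n₃ :=
    pow_le_pow_of_le_one (by norm_num) (by norm_num) (by omega)
  have hpow1 : (1 / 2 : ℝ) ^ n₃ ≤ 1 := pow_le_one₀ (by norm_num) (by norm_num)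
  have hdiff : ∀ (v : X) (C : ℝ), 0 ≤ C → (∀ k ∈ T, ‖g k v - J (b k) v‖ ≤ C * ε k * ‖v‖) →
      ‖(∑ k ∈ T, a k • g k) v - J Y v‖ ≤ C / 25 * (1 / 2) ^ n₃ * ‖v‖ := by
    intro v C hC hv
    rw [hYe, map_sum, _root_.sum_apply, _root_.sum_apply,
      ← Finset.sum_sub_distrib]
    refine (norm_sum_le _ _).trans ?_
    have e1 : ∑ k ∈ T, ‖(a k • g k) v - J (a k • b k) v‖ ≤ ∑ k ∈ T, ‖a k‖ * ε k * (C * ‖v‖) := by
      refine Finset.sum_le_sum fun k hk => ?_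
      rw [map_smul, _root_.smul_apply, _root_.smul_apply, ← smul_sub,
        norm_smul]
      exact (mul_le_mul_of_nonneg_left (hv k hk) (norm_nonneg _)).trans (le_of_eq (by ring))
    rw [← Finset.sum_mul] at e1
    refine e1.trans ((mul_le_mul_of_nonneg_right (hsum.trans (mul_le_mul_of_nonneg_left hpow
      (by norm_num))) (by positivity)).trans (le_of_eq (by ring)))
  have hgH : ∑ k ∈ T, a k • g k ∈ H := H.sum_mem fun k _ => H.smul_mem _ (hp k).1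
  refine ⟨∑ k ∈ T, a k • g k, hHG hgH, fun i hi => ?_, ?_, ?_⟩
  · rw [_root_.sum_apply]
    refine Finset.sum_eq_zero fun k hk => ?_
    have : g k (Q i) = 0 := (hp k).2.2.1 i (by have := hT k hk; omega)
    rw [_root_.smul_apply, this, smul_zero]
  · have := hbig _ hgH 2 (by norm_num) fun v hv => by
      have e1 := hdiff v 9 (by norm_num) fun k _ => F2' k v hv
      have e2 := J_apply_le h Y v
      have e3 := norm_sub_norm_le ((∑ k ∈ T, a k • g k) v) (J Y v)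
      nlinarith [norm_nonneg v]
    rw [le_div_iff₀ hc]
    linarith
  · have e1 := hdiff z 13 (by norm_num) fun k hk => by
      have f1 := herr k z
      rw [← res_add_res_compl I (y k), F2, map_add, map_add, _root_.add_apply,
        _root_.add_apply] at f1
      have f2 := (J_apply_le h (res (L k) (y k)) z).trans
        (mul_le_mul_of_nonneg_right (F1 k) (norm_nonneg z))
      have f3 := (F7 k).trans (mul_le_mul_of_nonneg_right (hn₁ k (by have := hT k hk; omega))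
        (norm_nonneg z))
      have f4 : g k z - J (b k) z = (g k z - (J (b k) z + J (res (L k) (y k)) z +
          J (res Iᶜ (y k)) z)) + J (res (L k) (y k)) z + J (res Iᶜ (y k)) z := by ring
      rw [f4]
      exact norm_add₃_le.trans (by linarith)
    have hY0 := hn₂ Y (tailSp_anti b (by omega) hY)
    have e2 := hz1 Y
    rw [hY0 β (Finset.mem_insert_self _ _), sub_zero] at e2
    have e3 : act (d.T β K) Y = act (d.T β 0) Y := by
      refine act_congr fun γ hγ => (T_zero β K γ fun i hi => ?_).symm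
      by_contra hne
      exact Finsupp.mem_support_iff.1 hγ (hY0 γ (Finset.mem_insert_of_mem (Finset.mem_biUnion.2
        ⟨i, Finset.mem_range.2 hi, Finsupp.mem_support_iff.2 hne⟩)))
    rw [e3] at e2
    have e4 := norm_sub_norm_le (act (d.T β 0) Y) (J Y z)
    rw [norm_sub_rev] at e4
    have e5 := norm_sub_norm_le (J Y z) ((∑ k ∈ T, a k • g k) z)
    rw [norm_sub_rev] at e5
    rw [lt_div_iff₀ (by positivity)] at hn₃
    have e6 : (0 : ℝ) ≤ (1 / 2) ^ n₃ := by positivity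
    nlinarith [norm_nonneg z, mul_nonneg e6 (norm_nonneg z)]

end XF

theorem XP.infinite_dim [Infinite Ω] (h : XP d J xx) : ¬ FiniteDimensional 𝕜 X := by
  intro hf
  have hinj : Function.Injective J := by
    rw [← LinearMap.ker_eq_bot, Submodule.eq_bot_iff]
    intro y hy
    ext γ
    have h1 := (d.coord_le y γ).trans (XF.N_le h y)
    rw [LinearMap.mem_ker.1 hy, norm_zero, mul_zero] at h1
    exact norm_le_zero_iff.1 h1
  have : FiniteDimensional 𝕜 (Ω →₀ 𝕜) := FiniteDimensional.of_injective J hinj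
  have := Module.Finite.finite_basis (Finsupp.basisSingleOne (R := 𝕜) (ι := Ω))
  exact not_finite Ω

theorem XP.no_quotient [WellFoundedLT Ω] (h : XP d J xx) (M : Submodule 𝕜 X)
    (hM : IsClosed (M : Set X)) (hsep : TopologicalSpace.SeparableSpace (X ⧸ M)) :
    FiniteDimensional 𝕜 (X ⧸ M) := by
  by_contra hinf
  let Φ : ((X ⧸ M) →L[𝕜] 𝕜) →ₗ[𝕜] (X →L[𝕜] 𝕜) :=
    { toFun := fun f => f.comp M.mkQL
      map_add' := fun _ _ => rfl
      map_smul' := fun _ _ => rfl }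
  have hΦ : Function.Injective Φ := by
    intro f f' hff
    ext q
    obtain ⟨x, rfl⟩ := M.mkQ_surjective q
    exact DFunLike.congr_fun hff x
  have hG : ¬ FiniteDimensional 𝕜 (LinearMap.range Φ) := fun _ =>
    XF.dual_inf hinf (Module.Finite.equiv (LinearEquiv.ofInjective Φ hΦ).symm)
  obtain ⟨q, hq⟩ := TopologicalSpace.exists_dense_seq (X ⧸ M)
  choose Q hQ using fun i => M.mkQ_surjective (q i)
  obtain ⟨z, ε₀, C₀, hε₀, hk⟩ := XF.key h hG Q
  have hC : 0 < |C₀| + 1 := by positivity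
  obtain ⟨i, hi⟩ := Metric.denseRange_iff.1 hq (M.mkQ z) (ε₀ / (|C₀| + 1) / 2) (by positivity)
  obtain ⟨g, ⟨f, rfl⟩, h1, h2, h3⟩ := hk (i + 1)
  obtain ⟨m, hm, hm'⟩ := Submodule.Quotient.norm_mk_lt (M.mkQ z - q i)
    (ε := ε₀ / (|C₀| + 1) / 2) (by positivity)
  have e1 : Φ f m = Φ f z := by
    have e2 : Φ f (Q i) = 0 := h1 i (Nat.lt_succ_self i)
    change f (M.mkQ (Q i)) = 0 at e2
    change f (Submodule.Quotient.mk m) = f (M.mkQ z)
    rw [hm, map_sub, ← hQ i, e2, sub_zero]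
  rw [dist_eq_norm] at hi
  have e3 : ‖m‖ < ε₀ / (|C₀| + 1) := by linarith
  rw [lt_div_iff₀ hC] at e3
  have e4 := (Φ f).le_opNorm m
  rw [e1] at e4
  nlinarith [norm_nonneg m, le_abs_self C₀]

end Crest.Agent.R114
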