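import Crest.Agent.R114.YBasic

/-!
# Task R114-YAvg (modified Schreier families and repeated averages)

`averaging`: induction on `d`, for all `ε, l, n`.
`d = 0`: `N ≥ 1/ε`, `l' = max l N`; `S` = any `N` indices `≥ n` with `lam u ≥ l'` (an interval `Ico u₀ (u₀+N)`), `a = 1/N`; `Grp.of_finset`, `Grp.anti`.
`d + 1`: `N ≥ 2/ε`, `l' = max l N`.  Recursively choose `S_0 < S_1 < … < S_{N-1}` and `a_c` by the induction hypothesis with label `l'`,
starting point beyond `S_{<c}`, and `ε_c = ε / (2 (4 T_c + 4))`, `T_c = sup of t on S_{<c}`.  `S = ⋃ S_c`, `a u = (1/N) ∑_c a_c u` restricted to `S_c`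
(make `a_c` vanish off `S_c`).  If `MS t (d+1) F` with data `r, A` and `c₀` is the first block meeting `F` (at `u₀`), then for `c > c₀`,
`r ≤ 4 t u₀ + 4 ≤ 4 T_c + 4` and `mass S_c a_c F ≤ r ε_c ≤ ε/2`; total `≤ 1/N + ε/2`.
The functional is the sum of the `N ≤ l'+1` successive children `∑_{u ∈ S_c} w u`.
-/

set_option autoImplicit false

namespace Crest.Agent.R114

open Finsupp Finset Filter

lemma MS.subset {t : ℕ → ℕ} {e : ℕ} {F F' : Set ℕ} (h : MS t e F) (hF : F' ⊆ F) : MS t e F' := by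
  cases e with
  | zero => exact Set.Subsingleton.anti h hF
  | succ e =>
    obtain ⟨r, A, h1, h2, h3⟩ := h
    exact ⟨r, A, h1, fun u hu => h2 u (hF hu), fun u hu => h3 u (hF hu)⟩

lemma MS.empty (t : ℕ → ℕ) (e : ℕ) : MS t e ∅ := by
  cases e with
  | zero => exact Set.subsingleton_empty
  | succ e => exact ⟨0, fun _ => ∅, by simp, by simp, by simp⟩

lemma MS.mono {t : ℕ → ℕ} {e e' : ℕ} {F : Set ℕ} (h : MS t e F) (he : e ≤ e') : MS t e' F := by
  induction e', he using Nat.le_induction with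
  | base => exact h
  | succ e' _ ih => exact ⟨1, fun _ => F, fun _ _ => ih, fun u hu => ⟨0, one_pos, hu⟩, fun _ _ => by omega⟩

lemma MS.singleton (t : ℕ → ℕ) (e u : ℕ) : MS t e {u} :=
  MS.mono (e := 0) Set.subsingleton_singleton (Nat.zero_le _)

/-- union of finitely many members, indexed by an arbitrary finite set -/
lemma MS.of_cover {t : ℕ → ℕ} {e : ℕ} {F : Set ℕ} {ι : Type*} (T : Finset ι) (A : ι → Set ℕ)
    (hA : ∀ c ∈ T, MS t e (A c)) (hF : ∀ u ∈ F, ∃ c ∈ T, u ∈ A c)
    (hT : ∀ u ∈ F, T.card ≤ 4 * t u + 4) : MS t (e + 1) F := by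
  refine ⟨T.card, fun c => if h : c < T.card then A (T.equivFin.symm ⟨c, h⟩) else ∅, fun c hc => ?_,
    fun u hu => ?_, hT⟩
  · simp only [dif_pos hc]
    exact hA _ (T.equivFin.symm ⟨c, hc⟩).2
  · obtain ⟨c, hc, h⟩ := hF u hu
    refine ⟨T.equivFin ⟨c, hc⟩, (T.equivFin ⟨c, hc⟩).2, ?_⟩
    simp only [dif_pos (T.equivFin ⟨c, hc⟩).2, Fin.eta, Equiv.symm_apply_apply]
    exact h

lemma MS.of_card {t : ℕ → ℕ} (e : ℕ) (F : Finset ℕ) (h : ∀ u ∈ F, F.card ≤ 4 * t u + 4) :
    MS t (e + 1) (F : Set ℕ) :=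
  MS.of_cover F (fun u => {u}) (fun u _ => MS.singleton t e u) (fun u hu => ⟨u, hu, rfl⟩) h

lemma MS.card_le {T e : ℕ} {F : Set ℕ} (h : MS (fun _ => T) e F) :
    F.Finite ∧ F.ncard ≤ (4 * T + 4) ^ e := by
  classical
  induction e generalizing F with
  | zero => exact ⟨Set.Subsingleton.finite h, (Set.ncard_le_one (Set.Subsingleton.finite h)).2 fun a ha b hb => h ha hb⟩
  | succ e ih =>
    obtain ⟨r, A, h1, h2, h3⟩ := h
    rcases F.eq_empty_or_nonempty with rfl | ⟨u, hu⟩
    · simp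
    have hr : r ≤ 4 * T + 4 := h3 u hu
    let B : ℕ → Finset ℕ := fun c => if h : c < r then (ih (h1 c h)).1.toFinset else ∅
    have hsub : F ⊆ ((range r).biUnion B : Finset ℕ) := by
      intro v hv
      obtain ⟨c, hc, h⟩ := h2 v hv
      refine Finset.mem_coe.2 (mem_biUnion.2 ⟨c, mem_range.2 hc, ?_⟩)
      simp only [B, dif_pos hc, Set.Finite.mem_toFinset]
      exact h
    refine ⟨(Finset.finite_toSet _).subset hsub, (Set.ncard_le_ncard hsub (Finset.finite_toSet _)).trans ?_⟩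
    rw [Set.ncard_coe_finset]
    refine (card_biUnion_le_card_mul _ _ ((4 * T + 4) ^ e) fun c hc => ?_).trans ?_
    · simp only [B, dif_pos (mem_range.1 hc)]
      rw [← Set.ncard_eq_toFinset_card _ (ih (h1 c (mem_range.1 hc))).1]
      exact (ih (h1 c (mem_range.1 hc))).2
    · rw [card_range, pow_succ']
      exact Nat.mul_le_mul_right _ hr

namespace AvgA

lemma mass_nonneg (S : Finset ℕ) {a : ℕ → ℝ} (ha : ∀ u, 0 ≤ a u) (F : Set ℕ) : 0 ≤ mass S a F :=
  Finset.sum_nonneg fun u _ => ha u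

lemma mass_le_sum (S : Finset ℕ) {a : ℕ → ℝ} (ha : ∀ u, 0 ≤ a u) (F : Set ℕ) :
    mass S a F ≤ ∑ u ∈ S, a u := by
  classical
  unfold mass
  exact Finset.sum_le_sum_of_subset_of_nonneg (fun u hu => by simp only [mem_filter] at hu; exact hu.1)
    fun u _ _ => ha u

lemma mass_eq_zero {S : Finset ℕ} (a : ℕ → ℝ) {F : Set ℕ} (h : ∀ u ∈ S, u ∉ F) : mass S a F = 0 := by
  classical
  unfold mass
  exact Finset.sum_eq_zero fun u hu => absurd (mem_filter.1 hu).2 (h u (mem_filter.1 hu).1)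

lemma mass_cover (S : Finset ℕ) {a : ℕ → ℝ} (ha : ∀ u, 0 ≤ a u) {F : Set ℕ} (r : ℕ) (A : ℕ → Set ℕ)
    (h : ∀ u ∈ F, ∃ c < r, u ∈ A c) : mass S a F ≤ ∑ c ∈ range r, mass S a (A c) := by
  classical
  simp only [mass, Finset.sum_filter]
  rw [Finset.sum_comm]
  refine Finset.sum_le_sum fun u _ => ?_
  have hnn : ∀ c ∈ range r, 0 ≤ if u ∈ A c then a u else 0 := fun c _ => by
    split_ifs
    exacts [ha u, le_rfl]
  split_ifs with hu
  · obtain ⟨c, hc, h'⟩ := h u hu
    have := Finset.single_le_sum hnn (mem_range.2 hc)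
    rwa [if_pos h'] at this
  · exact Finset.sum_nonneg hnn

end AvgA

open AvgA in
theorem averaging {Ω : Type} [LinearOrder Ω] {R : Rho Ω} {A : Set (ℕ × Fn Ω)} (t lam : ℕ → ℕ)
    (hlam : Tendsto lam atTop atTop) (w : ℕ → Fn Ω) (hw : Chain w) (e : ℕ)
    (hG : ∀ u, Grp R A e (lam u) (w u)) (d : ℕ) (ε : ℝ) (hε : 0 < ε) (l n : ℕ) :
    ∃ (S : Finset ℕ) (a : ℕ → ℝ), (∀ u ∈ S, n ≤ u) ∧ (∀ u, 0 ≤ a u) ∧ ∑ u ∈ S, a u = 1 ∧
      (∀ F, MS t d F → mass S a F ≤ ε) ∧ Grp R A (e + d + 1) l (∑ u ∈ S, w u) := by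
  classical
  induction d generalizing ε l n with
  | zero =>
    obtain ⟨N, hN⟩ := exists_nat_gt (1 / ε)
    have hN0 : (0 : ℝ) < N := (one_div_pos.2 hε).trans hN
    obtain ⟨u₀, hu₀⟩ := eventually_atTop.1 (hlam.eventually_ge_atTop (l + N))
    refine ⟨Ico (u₀ + n) (u₀ + n + N), fun _ => 1 / N, fun u hu => by have := mem_Ico.1 hu; omega,
      fun _ => by positivity, ?_, fun F hF => ?_, ?_⟩
    · rw [Finset.sum_const, Nat.card_Ico, Nat.add_sub_cancel_left, nsmul_eq_mul]
      field_simp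
    · rw [mass, Finset.sum_const, nsmul_eq_mul]
      have h1 : (((Ico (u₀ + n) (u₀ + n + N)).filter (· ∈ F)).card : ℝ) ≤ 1 := by
        exact_mod_cast Finset.card_le_one.2 fun a ha b hb => hF (mem_filter.1 ha).2 (mem_filter.1 hb).2
      have h2 : 1 / (N : ℝ) ≤ ε := by
        rw [div_le_iff₀ hN0]; rw [div_lt_iff₀ hε] at hN; linarith
      exact (mul_le_of_le_one_left (by positivity) h1).trans h2
    · refine (Grp.of_finset (l := l + N) _ w (by rw [Nat.card_Ico]; omega)
        (fun u hu => (hG u).anti (hu₀ u (by have := mem_Ico.1 hu; omega)))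
        fun u _ v _ huv => hw u v huv).anti (Nat.le_add_right _ _)
  | succ d ih =>
    obtain ⟨N, hN⟩ := exists_nat_gt (2 / ε)
    have hN0 : (0 : ℝ) < N := (div_pos two_pos hε).trans hN
    choose S a h1 h2 h3 h4 h5 using fun (T m : ℕ) =>
      ih (ε / 2 / (4 * T + 4)) (by positivity) (l + N) m
    let st : ℕ → ℕ × ℕ := fun c => Nat.rec (0, n)
      (fun _ q => (q.1 + (S q.1 q.2).sup t, q.2 + (S q.1 q.2).sup id + 1)) c
    let B : ℕ → Finset ℕ := fun c => S (st c).1 (st c).2
    let a' : ℕ → ℕ → ℝ := fun c => a (st c).1 (st c).2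
    have hst : ∀ c, st (c + 1) = ((st c).1 + (B c).sup t, (st c).2 + (B c).sup id + 1) := fun _ => rfl
    have m1 : Monotone fun c => (st c).1 := monotone_nat_of_le_succ fun c => by rw [hst]; simp
    have m2 : Monotone fun c => (st c).2 := monotone_nat_of_le_succ fun c => by
      rw [hst]; simp only; omega
    have hT : ∀ c c', c < c' → ∀ u ∈ B c, t u ≤ (st c').1 := by
      intro c c' hc u hu
      have e1 : (st (c + 1)).1 ≤ (st c').1 := m1 hc
      have e2 : t u ≤ (B c).sup t := Finset.le_sup hu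
      rw [hst] at e1
      simp only at e1
      omega
    have hlt : ∀ c c', c < c' → ∀ u ∈ B c, ∀ v ∈ B c', u < v := by
      intro c c' hc u hu v hv
      have e1 : (st (c + 1)).2 ≤ (st c').2 := m2 hc
      have e2 : u ≤ (B c).sup id := Finset.le_sup (f := id) hu
      have e3 := h1 _ _ v hv
      rw [hst] at e1
      simp only at e1
      omega
    have hdis : ∀ c c' u, u ∈ B c → u ∈ B c' → c = c' := by
      intro c c' u hu hu'
      rcases lt_trichotomy c c' with h | h | h
      exacts [absurd (hlt c c' h u hu u hu') (lt_irrefl _), h, absurd (hlt c' c h u hu' u hu) (lt_irrefl _)]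
    have hpd : ((range N : Finset ℕ) : Set ℕ).PairwiseDisjoint B := fun c _ c' _ hne =>
      Finset.disjoint_left.2 fun u hu hu' => hne (hdis c c' u hu hu')
    let aa : ℕ → ℝ := fun u => ∑ c ∈ range N, if u ∈ B c then a' c u / N else 0
    have haa : ∀ c < N, ∀ u ∈ B c, aa u = a' c u / N := by
      intro c hc u hu
      simp only [aa]
      rw [Finset.sum_eq_single_of_mem c (mem_range.2 hc) fun c' _ hne =>
        if_neg fun h => hne (hdis c' c u h hu), if_pos hu]
    have hmass : ∀ F, mass ((range N).biUnion B) aa F = ∑ c ∈ range N, mass (B c) (a' c) F / N := by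
      intro F
      simp only [mass, Finset.sum_filter]
      rw [Finset.sum_biUnion hpd]
      refine Finset.sum_congr rfl fun c hc => ?_
      rw [Finset.sum_div]
      refine Finset.sum_congr rfl fun u hu => ?_
      rw [haa c (mem_range.1 hc) u hu]
      split_ifs <;> simp
    refine ⟨(range N).biUnion B, aa, fun u hu => ?_, fun u => ?_, ?_, fun F hF => ?_, ?_⟩
    · obtain ⟨c, -, hu⟩ := mem_biUnion.1 hu
      exact (m2 (Nat.zero_le c)).trans (h1 _ _ u hu)
    · refine Finset.sum_nonneg fun c _ => ?_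
      split_ifs
      exacts [div_nonneg (h2 _ _ u) hN0.le, le_rfl]
    · rw [Finset.sum_biUnion hpd]
      have : ∀ c ∈ range N, ∑ u ∈ B c, aa u = 1 / N := fun c hc => by
        rw [Finset.sum_congr rfl fun u hu => haa c (mem_range.1 hc) u hu, ← Finset.sum_div, h3]
      rw [Finset.sum_congr rfl this, Finset.sum_const, card_range, nsmul_eq_mul]
      field_simp
    · rw [hmass, ← Finset.sum_div, div_le_iff₀ hN0]
      by_cases hne : ∃ c, ∃ u ∈ B c, u ∈ F
      · obtain ⟨u₀, hu₀, hu₀F⟩ := Nat.find_spec hne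
        obtain ⟨r, A, a1, a2, a3⟩ := hF
        have e1 : ∀ c ∈ range N, mass (B c) (a' c) F ≤ (if Nat.find hne = c then 1 else 0) + ε / 2 := by
          intro c _
          rcases lt_trichotomy c (Nat.find hne) with h | h | h
          · rw [mass_eq_zero _ fun u hu hF => Nat.find_min hne h ⟨u, hu, hF⟩]
            split_ifs <;> positivity
          · rw [if_pos h.symm]
            have := (mass_le_sum (B c) (h2 (st c).1 (st c).2) F).trans (h3 _ _).le
            linarith
          · rw [if_neg h.ne, zero_add]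
            refine (mass_cover _ (h2 _ _) r A a2).trans ?_
            refine (Finset.sum_le_sum fun i hi => h4 _ _ _ (a1 i (mem_range.1 hi))).trans ?_
            rw [Finset.sum_const, card_range, nsmul_eq_mul, mul_div_assoc', div_le_iff₀ (by positivity)]
            have e2 : r ≤ 4 * (st c).1 + 4 := by
              have := hT _ c h u₀ hu₀
              have := a3 u₀ hu₀F
              omega
            have e3 : (r : ℝ) ≤ 4 * (st c).1 + 4 := by exact_mod_cast e2
            nlinarith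
        refine (Finset.sum_le_sum e1).trans ?_
        rw [Finset.sum_add_distrib, Finset.sum_ite_eq, Finset.sum_const, card_range, nsmul_eq_mul]
        rw [div_lt_iff₀ hε] at hN
        split_ifs <;> nlinarith
      · rw [Finset.sum_eq_zero fun c _ => mass_eq_zero _ fun u hu hF => hne ⟨c, u, hu, hF⟩]
        positivity
    · rw [Finset.sum_biUnion hpd]
      refine ⟨l + N, N, fun c => ∑ u ∈ B c, w u, Nat.le_add_right _ _, by omega, fun c _ => h5 _ _,
        fun c c' hc _ γ hγ δ hδ => ?_, rfl⟩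
      obtain ⟨u, hu, hγ⟩ := Finsupp.mem_support_finsetSum _ hγ
      obtain ⟨v, hv, hδ⟩ := Finsupp.mem_support_finsetSum _ hδ
      exact hw u v (hlt c c' hc u hu v hv) γ hγ δ hδ

end Crest.Agent.R114
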