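import Crest.Agent.R114.YNum

/-!
# Task R114-YBasic (closure properties of the norming set, sup bounds)

Closure: use `mem_WW` (one unfolding), no induction on the fixed point is needed for `neg`, `res`
(`Lab`: flip the signs `ε`, resp. replace `E` by `E' ∩ E`; `Grp`: induction on the depth; the restriction of an atom is an atom or `0`,
and `0` is a group).  `Grp.succ`: one child (`r = 1 ≤ l' + 1`); extract the true label `l'` first.
`WW_lab`: the constant sequence `s = fun _ => (j, f)` with `k = 1` is special, `l' = j`, `r = 1`, `E = univ`.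
Sup bounds: `WW_subset` with `B = {q | ∀ γ, |q.2 γ| ≤ 1 / mm q.1}`; for any `A ⊆ B`: `Lab R A l w → |w γ| ≤ 2 / mm l` because the map
`(c, i) ↦ (s c i).1` is injective on the pairs `c < r, i < k c, l' ≤ (s c i).1` (`Sp.lt` and weight-disjointness) and `sum_inv_mm_rat`;
for `Grp`/`WT` at most one child is nonzero at `γ` (successive supports).
-/

set_option autoImplicit false

namespace Crest.Agent.R114

open Finsupp Finset

variable {Ω : Type} [LinearOrder Ω] {R : Rho Ω}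

section general
variable {A : Set (ℕ × Fn Ω)}

lemma Sp.lt {k : ℕ} {s : Sq Ω} (h : Sp R A k s) {i i' : ℕ} (hi : i < i') (hi' : i' < k) :
    (s i).1 < (s i').1 := by
  induction i', hi using Nat.le_induction with
  | base => obtain ⟨p, -, h1, -, h2⟩ := h.2.2 i hi'; exact h2 ▸ h1.trans_lt (lt_sig _ _)
  | succ n _ ih =>
    obtain ⟨p, -, h1, -, h2⟩ := h.2.2 n hi'
    exact (ih (by omega)).trans (h2 ▸ h1.trans_lt (lt_sig _ _))

lemma Sp.le_weight {k : ℕ} {s : Sq Ω} (h : Sp R A k s) {i : ℕ} (hi : i < k) : i ≤ (s i).1 := by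
  induction i with
  | zero => exact Nat.zero_le _
  | succ i ih => exact (ih (by omega)).trans_lt (h.lt i.lt_succ_self hi)

lemma Sp.trunc {k k' : ℕ} {s : Sq Ω} (h : Sp R A k s) (hk : k' ≤ k) : Sp R A k' s := by
  exact ⟨fun i hi => h.1 i (hi.trans_le hk), fun i i' h1 h2 => h.2.1 i i' h1 (h2.trans_le hk),
    fun i hi => h.2.2 i (hi.trans_le hk)⟩

lemma Sp.congr {k : ℕ} {s s' : Sq Ω} (h : Sp R A k s) (hs : ∀ i < k, s i = s' i) : Sp R A k s' := by
  refine ⟨fun i hi => hs i hi ▸ h.1 i hi, fun i i' h1 h2 =>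
    hs i (h1.trans h2) ▸ hs i' h2 ▸ h.2.1 i i' h1 h2, fun i hi => ?_⟩
  obtain ⟨p, η, h1, h2, h3⟩ := h.2.2 i hi
  refine ⟨p, η, hs i (by omega) ▸ h1, fun a ha => hs a (by omega) ▸ h2 a ha, ?_⟩
  rw [← hs _ hi, h3, shape, shape]
  congr 1
  exact List.map_congr_left fun a ha => by rw [hs a (by have := List.mem_range.1 ha; omega)]

/-- the window part of a special list is the tail of a truncation -/
lemma Sp.win_eq_seg {k : ℕ} {s : Sq Ω} (h : Sp R A k s) (a b : ℕ) :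
    ∃ k' ≤ k, (∀ i < k', (s i).1 < b) ∧ win a b k s = seg a k' s := by
  have hex : ∃ i, i = k ∨ b ≤ (s i).1 := ⟨k, .inl rfl⟩
  have h1 : Nat.find hex ≤ k := Nat.find_min' hex (.inl rfl)
  have h2 : ∀ i < Nat.find hex, (s i).1 < b := fun i hi =>
    lt_of_not_ge fun h => Nat.find_min hex hi (.inr h)
  refine ⟨_, h1, h2, sum_congr ?_ fun _ _ => rfl⟩
  ext i
  simp only [mem_filter, mem_range]
  refine ⟨fun ⟨h3, h4, h5⟩ => ⟨lt_of_not_ge fun h6 => ?_, h4⟩,
    fun ⟨h3, h4⟩ => ⟨h3.trans_le h1, h4, h2 i h3⟩⟩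
  have h7 := (Nat.find_spec hex).resolve_left (by omega)
  rcases h6.eq_or_lt with h6 | h6
  · rw [h6] at h7; omega
  · have := h.lt h6 h3; omega

lemma Lab.zero (l : ℕ) : Lab R A l 0 := by
  exact ⟨l, 0, 0, fun _ _ => (0, 0), 0, Set.univ, le_rfl, by simp, Set.ordConnected_univ, by simp,
    by simp, by simp, by simp⟩

lemma Grp.zero (d l : ℕ) : Grp R A d l 0 := by
  cases d with
  | zero => exact Lab.zero l
  | succ d => exact ⟨l, 0, 0, le_rfl, by simp, by simp, by simp, by simp⟩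

lemma Lab.anti {l l₀ : ℕ} {w : Fn Ω} (h : Lab R A l w) (hl : l₀ ≤ l) : Lab R A l₀ w := by
  obtain ⟨l', r, k, s, ε, E, h1, h2⟩ := h
  exact ⟨l', r, k, s, ε, E, hl.trans h1, h2⟩

lemma Grp.anti {d l l₀ : ℕ} {w : Fn Ω} (h : Grp R A d l w) (hl : l₀ ≤ l) : Grp R A d l₀ w := by
  cases d with
  | zero => exact Lab.anti h hl
  | succ d => obtain ⟨l', r, ch, h1, h2⟩ := h; exact ⟨l', r, ch, hl.trans h1, h2⟩

lemma Grp.mono_depth {d d' l : ℕ} {w : Fn Ω} (h : Grp R A d l w) (hd : d ≤ d') :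
    Grp R A d' l w := by
  induction d', hd using Nat.le_induction with
  | base => exact h
  | succ n _ ih => exact ⟨l, 1, fun _ => w, le_rfl, by omega, fun _ _ => ih, by omega, by simp⟩

lemma Lab.neg {l : ℕ} {w : Fn Ω} (h : Lab R A l w) : Lab R A l (-w) := by
  obtain ⟨l', r, k, s, ε, E, h1, h2, h3, h4, h5, h6, rfl⟩ := h
  refine ⟨l', r, k, s, -ε, E, h1, h2, h3, h4, fun c hc => ?_, h6, by simp [res_neg]⟩
  rcases h5 c hc with h | h <;> simp [h]

lemma Grp.neg {d l : ℕ} {w : Fn Ω} (h : Grp R A d l w) : Grp R A d l (-w) := by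
  induction d generalizing l w with
  | zero => exact Lab.neg h
  | succ d ih =>
    obtain ⟨l', r, ch, h1, h2, h3, h4, rfl⟩ := h
    exact ⟨l', r, -ch, h1, h2, fun c hc => ih (h3 c hc),
      fun c c' h h' => by simpa [Succ] using h4 c c' h h', by simp⟩

lemma Lab.restrict {l : ℕ} {w : Fn Ω} (h : Lab R A l w) {E : Set Ω} (hE : E.OrdConnected) :
    Lab R A l (res E w) := by
  obtain ⟨l', r, k, s, ε, E', h1, h2, h3, h4, h5, h6, rfl⟩ := h
  exact ⟨l', r, k, s, ε, E ∩ E', h1, h2, hE.inter h3, h4, h5, h6, res_res _ _ _⟩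

lemma Grp.restrict {d l : ℕ} {w : Fn Ω} (h : Grp R A d l w) {E : Set Ω} (hE : E.OrdConnected) :
    Grp R A d l (res E w) := by
  induction d generalizing l w with
  | zero => exact Lab.restrict h hE
  | succ d ih =>
    obtain ⟨l', r, ch, h1, h2, h3, h4, rfl⟩ := h
    exact ⟨l', r, fun c => res E (ch c), h1, h2, fun c hc => ih (h3 c hc),
      fun c c' h h' => (h4 c c' h h').restrict _ _, res_sum _ _ _⟩

/-- children indexed by a finite set of naturals -/
lemma Grp.of_finset {d l : ℕ} (T : Finset ℕ) (ch : ℕ → Fn Ω) (hT : T.card ≤ l + 1)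
    (h : ∀ c ∈ T, Grp R A d l (ch c)) (hs : ∀ c ∈ T, ∀ c' ∈ T, c < c' → Succ (ch c) (ch c')) :
    Grp R A (d + 1) l (∑ c ∈ T, ch c) := by
  refine ⟨l, T.card, fun c => if h : c < T.card then ch (T.orderEmbOfFin rfl ⟨c, h⟩) else 0, le_rfl, hT,
    fun c hc => ?_, fun c c' h1 h2 => ?_, ?_⟩
  · simp only [hc, dif_pos]; exact h _ (T.orderEmbOfFin_mem _ _)
  · simp only [h2, h1.trans h2, dif_pos]
    exact hs _ (T.orderEmbOfFin_mem _ _) _ (T.orderEmbOfFin_mem _ _) (by simpa using h1)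
  · rw [sum_range, ← T.sum_coe_sort, ← (T.orderIsoOfFin rfl).toEquiv.sum_comp]
    simp

omit [LinearOrder Ω] in
lemma Atom.neg {w : Fn Ω} (h : Atom w) : Atom (-w) := by
  obtain ⟨β, rfl | rfl⟩ := h <;> exact ⟨β, by simp⟩

omit [LinearOrder Ω] in
lemma Atom.res {w : Fn Ω} (h : Atom w) (E : Set Ω) : Atom (res E w) ∨ res E w = 0 := by
  obtain ⟨β, h⟩ := h
  have : ∀ γ ∈ w.support, γ = β := fun γ hγ => by
    rcases h with rfl | rfl <;> simpa using Finsupp.support_single_subset hγ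
  by_cases hβ : β ∈ E
  · rw [res_eq_self fun γ hγ => this γ hγ ▸ hβ]; exact .inl ⟨β, h⟩
  · exact .inr (res_eq_zero fun γ hγ => this γ hγ ▸ hβ)

lemma Atom.abs_le {w : Fn Ω} (h : Atom w) (γ : Ω) : |w γ| ≤ 1 := by
  obtain ⟨β, rfl | rfl⟩ := h <;> rw [Finsupp.single_apply] <;> split_ifs <;> simp

lemma chain_abs {r : ℕ} {ch : ℕ → Fn Ω} (hs : ∀ c c', c < c' → c' < r → Succ (ch c) (ch c')) {γ : Ω}
    {θ : ℚ} (h0 : 0 ≤ θ) (h : ∀ c < r, |ch c γ| ≤ θ) : |(∑ c ∈ range r, ch c) γ| ≤ θ := by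
  rw [Finsupp.finsetSum_apply]
  by_cases h1 : ∃ c < r, γ ∈ (ch c).support
  · obtain ⟨c, hc, h1⟩ := h1
    rw [Finset.sum_eq_single c (fun c' hc' hne => by_contra fun h2 => ?_) (by simp [hc])]
    · exact h c hc
    · rcases lt_or_gt_of_ne hne with h3 | h3
      · exact lt_irrefl γ (hs _ _ h3 hc γ (mem_support_iff.2 h2) γ h1)
      · exact lt_irrefl γ (hs _ _ h3 (mem_range.1 hc') γ h1 γ (mem_support_iff.2 h2))
  · rw [sum_eq_zero fun c hc => by_contra fun h2 => h1 ⟨c, mem_range.1 hc, mem_support_iff.2 h2⟩]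
    simpa

lemma grp_abs (hA : ∀ q ∈ A, ∀ γ, |q.2 γ| ≤ 1 / mm q.1) {d l : ℕ} {w : Fn Ω} (h : Grp R A d l w)
    (γ : Ω) : |w γ| ≤ 2 / mm l := by
  induction d generalizing l w with
  | zero =>
    obtain ⟨l', r, k, s, ε, E, h1, -, -, h4, h5, h6, rfl⟩ := h
    by_cases hγ : γ ∈ E
    swap
    · rw [res_apply_notMem _ hγ, abs_zero]; positivity
    rw [res_apply_mem _ hγ, Finsupp.finsetSum_apply]
    refine (abs_sum_le_sum_abs _ _).trans ((sum_le_sum (g := fun c =>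
      ∑ i ∈ (range (k c)).filter (fun i => l' ≤ (s c i).1), (1 : ℚ) / mm (s c i).1) fun c hc => ?_).trans ?_)
    · have : |ε c| = 1 := by rcases h5 c (mem_range.1 hc) with h | h <;> simp [h]
      rw [Finsupp.smul_apply, smul_eq_mul, abs_mul, this, one_mul, seg, Finsupp.finsetSum_apply]
      exact (abs_sum_le_sum_abs _ _).trans (sum_le_sum fun i hi =>
        hA _ ((h4 c (mem_range.1 hc)).1 i (mem_range.1 (mem_filter.1 hi).1)) γ)
    · rw [sum_sigma', ← sum_image (f := fun j => (1 : ℚ) / mm j) (g := fun p : Σ _ : ℕ, ℕ => (s p.1 p.2).1)]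
      · exact sum_inv_mm_rat _ _ (by
          simp only [mem_image, mem_sigma, mem_filter]
          rintro _ ⟨p, hp, rfl⟩; exact h1.trans hp.2.2)
      · rintro ⟨c, i⟩ h ⟨c', i'⟩ h' e
        simp only [coe_sigma, Set.mem_sigma_iff, mem_coe, mem_range, mem_filter] at h h' e
        obtain rfl : c = c' := by_contra fun hne => h6 c h.1 c' h'.1 hne i h.2.1 i' h'.2.1 h.2.2 e
        obtain rfl : i = i' := by
          rcases lt_trichotomy i i' with h7 | h7 | h7
          exacts [absurd e ((h4 c h.1).lt h7 h'.2.1).ne, h7, absurd e ((h4 c h.1).lt h7 h.2.1).ne']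
        rfl
  | succ d ih =>
    obtain ⟨l', r, ch, h1, -, h3, h4, rfl⟩ := h
    exact chain_abs h4 (by positivity) fun c hc => ih ((h3 c hc).anti h1)

end general

lemma WW_zero (j : ℕ) : (j, (0 : Fn Ω)) ∈ WW R := by
  exact mem_WW.2 ⟨0, 0, by simp, by simp, by simp, by simp⟩

lemma WW_neg {j : ℕ} {f : Fn Ω} (h : (j, f) ∈ WW R) : (j, -f) ∈ WW R := by
  obtain ⟨r, ch, h1, h2, h3, rfl⟩ := mem_WW.1 h
  exact mem_WW.2 ⟨r, -ch, h1, fun c hc => (h2 c hc).imp Atom.neg Grp.neg,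
    fun c c' h h' => by simpa [Succ] using h3 c c' h h', by simp⟩

lemma WW_res {j : ℕ} {f : Fn Ω} (h : (j, f) ∈ WW R) {E : Set Ω} (hE : E.OrdConnected) :
    (j, res E f) ∈ WW R := by
  obtain ⟨r, ch, h1, h2, h3, rfl⟩ := mem_WW.1 h
  refine mem_WW.2 ⟨r, fun c => res E (ch c), h1, fun c hc => ?_,
    fun c c' h h' => (h3 c c' h h').restrict _ _, by rw [res_smul, res_sum]⟩
  rcases h2 c hc with h | h
  · exact (h.res E).imp_right fun e => by simp only [e]; exact Grp.zero _ _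
  · exact .inr (h.restrict hE)

lemma WW_lab {j : ℕ} {f : Fn Ω} (h : (j, f) ∈ WW R) : Lab R (WW R) j f := by
  exact ⟨j, 1, fun _ => 1, fun _ _ => (j, f), 1, Set.univ, le_rfl, by omega, Set.ordConnected_univ,
    fun _ _ => ⟨fun _ _ => h, by beta_reduce; omega, by simp⟩, by simp, by omega, by simp [seg]⟩

lemma WW_mem_W {j : ℕ} {f : Fn Ω} (h : (j, f) ∈ WW R) : f ∈ W R :=
  Or.inr ((WW_lab h).anti (Nat.zero_le _))

lemma Lab.mem_W {l : ℕ} {w : Fn Ω} (h : Lab R (WW R) l w) : w ∈ W R :=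
  Or.inr (h.anti (Nat.zero_le _))

/-- a single group of depth at most `n_j`, divided by `m_j`, has weight `j` -/
lemma Grp.mem_WW {d l j : ℕ} {w : Fn Ω} (h : Grp R (WW R) d l w) (hd : d ≤ nn j) :
    (j, ((mm j : ℚ))⁻¹ • w) ∈ WW R := by
  exact R114.mem_WW.2 ⟨1, fun _ => w, nn_pos j, fun _ _ => .inr ((h.mono_depth hd).anti l.zero_le),
    by omega, by simp⟩

/-- at most `n_j` successive elements of `W`, divided by `m_j`, have weight `j` -/
lemma sum_mem_WW {j r : ℕ} (hr : r ≤ nn j) (ch : ℕ → Fn Ω) (h : ∀ c < r, ch c ∈ W R)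
    (hs : ∀ c c', c < c' → c' < r → Succ (ch c) (ch c')) :
    (j, ((mm j : ℚ))⁻¹ • ∑ c ∈ range r, ch c) ∈ WW R := by
  exact mem_WW.2 ⟨r, ch, hr, fun c hc => (h c hc).imp_right fun h =>
    Grp.mono_depth (d := 0) h (Nat.zero_le _), hs, rfl⟩

lemma W_zero : (0 : Fn Ω) ∈ W R := Or.inr (Lab.zero 0)

lemma W_neg {w : Fn Ω} (h : w ∈ W R) : -w ∈ W R := by
  exact h.imp Atom.neg Lab.neg

lemma W_res {w : Fn Ω} (h : w ∈ W R) {E : Set Ω} (hE : E.OrdConnected) : res E w ∈ W R := by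
  rcases h with h | h
  · rcases h.res E with h | h
    exacts [.inl h, h ▸ W_zero]
  · exact .inr (h.restrict hE)

lemma WW_abs_le {j : ℕ} {f : Fn Ω} (h : (j, f) ∈ WW R) (γ : Ω) : |f γ| ≤ 1 / mm j := by
  refine WW_subset (B := {q | ∀ γ, |q.2 γ| ≤ 1 / mm q.1}) ?_ h γ
  rintro j _ ⟨r, ch, -, h2, h3, rfl⟩ γ
  have h0 := mm_pos_rat j
  simp only [Finsupp.smul_apply, smul_eq_mul, abs_mul, abs_inv, abs_of_pos h0, one_div]
  refine mul_le_of_le_one_right (by positivity) (chain_abs h3 zero_le_one fun c hc => ?_)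
  rcases h2 c hc with h | h
  · exact h.abs_le γ
  · exact (grp_abs (fun _ h => h) h γ).trans (by norm_num [mm])

lemma Grp.abs_le {d l : ℕ} {w : Fn Ω} (h : Grp R (WW R) d l w) (γ : Ω) : |w γ| ≤ 2 / mm l := by
  exact grp_abs (fun _ h => WW_abs_le h) h γ

lemma W_abs_le {w : Fn Ω} (h : w ∈ W R) (γ : Ω) : |w γ| ≤ 1 := by
  rcases h with h | h
  · exact h.abs_le γ
  · exact (Grp.abs_le (d := 0) h γ).trans (by norm_num [mm])

end Crest.Agent.R114
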