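import Crest.Agent.R114.YNorm

/-!
# Task R114-YCode (tree property of the coding; tails of branches)

`Rho.pos_injOn`: for `β < β'` in `F p α`, `F p β ⊂ F p β'` strictly (`coh`, `self`, `le`).
`Sp.common`: `sig_inj` gives `p = p'` and equal shapes; lengths give `i = i'`; compare entries (`List.map` over `List.range`, e.g.
`List.map_inj_left`/`List.ext_getElem`).
`Sp.agree`: say `β ≤ β'` (the other case is symmetric).  With `p, η, η'` from the two lists and `ζ` from `hcov`: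
`β ∈ F p β' ⊆ F p η'`; for `a < c`, `supp (s a).2 ⊆ F p η` lies below `β`, so in `F p β ⊆ F p η'`; `supp (s' a).2 ⊆ F p η'`;
`Finsupp.mapDomain_injOn` with `pos_injOn`.
`Br.tail_disjoint`: otherwise there are common weights at arbitrarily large (equal) indices `i + 1`, with `p ≥ (s i).1 ≥ i`; for fixed `a`
cover `supp (s a).2 ∪ supp (s' a).2` by `F p ζ` (`exists_cover`; `Ω` is nonempty because of `η`) and use `mapDomain_injOn`.
`TT`: for a branch the supports are pairwise disjoint, so the `finsum` has at most one nonzero term (`finsum_eq_single`).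
-/

set_option autoImplicit false

namespace Crest.Agent.R114

open Finsupp Finset

variable {Ω : Type} [LinearOrder Ω] {R : Rho Ω}

lemma Rho.ycode_sub (R : Rho Ω) {p : ℕ} {α β : Ω} (h : β ∈ R.F p α) : R.F p β ⊆ R.F p α :=
  fun γ hγ => ((R.coh p α β h γ).1 hγ).1

lemma Rho.ycode_pos_lt (R : Rho Ω) {p : ℕ} {α β β' : Ω} (h : β ∈ R.F p α) (h' : β' ∈ R.F p α)
    (hlt : β < β') : R.pos p β < R.pos p β' := by
  refine Finset.card_lt_card ⟨fun γ hγ => ?_, fun hsub => ?_⟩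
  · have := (R.coh p α β h γ).1 hγ
    exact (R.coh p α β' h' γ).2 ⟨this.1, this.2.trans hlt.le⟩
  · exact absurd (R.le p β β' (hsub (R.self p β'))) (not_le.2 hlt)

lemma Rho.pos_injOn (R : Rho Ω) (p : ℕ) (α : Ω) : Set.InjOn (R.pos p) (R.F p α : Set Ω) := by
  intro β hβ β' hβ' he
  rcases lt_trichotomy β β' with h | h | h
  · exact absurd he (R.ycode_pos_lt hβ hβ' h).ne
  · exact h
  · exact absurd he (R.ycode_pos_lt hβ' hβ h).ne'

lemma Rho.exists_cover [Nonempty Ω] (R : Rho Ω) (A : Finset Ω) :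
    ∃ ζ p₀, ∀ p, p₀ ≤ p → A ⊆ R.F p ζ := by
  obtain ⟨ζ, hζ⟩ : ∃ ζ, ∀ β ∈ A, β ≤ ζ := by
    obtain ⟨ζ, hζ⟩ := A.bddAbove
    exact ⟨ζ, fun β hβ => hζ hβ⟩
  have h1 : ∀ β ∈ A, ∃ p, β ∈ R.F p ζ := fun β hβ => R.cover ζ β (hζ β hβ)
  choose! f hf using h1
  exact ⟨ζ, A.sup f, fun p hp β hβ => R.mono _ _ ζ ((Finset.le_sup hβ).trans hp) (hf β hβ)⟩

namespace YCodeAux

lemma common {A : Set (ℕ × Fn Ω)} {k k' : ℕ} {s s' : Sq Ω} (h : Sp R A k s) (h' : Sp R A k' s')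
    {i i' : ℕ} (hi : i + 1 < k) (hi' : i' + 1 < k') (he : (s (i + 1)).1 = (s' (i' + 1)).1) :
    i = i' ∧ ∃ p η η', (s i).1 ≤ p ∧ (∀ a ≤ i, (s a).2.support ⊆ R.F p η) ∧
      (∀ a ≤ i, (s' a).2.support ⊆ R.F p η') ∧
      ∀ a ≤ i, (s a).1 = (s' a).1 ∧
        (s a).2.mapDomain (R.pos p) = (s' a).2.mapDomain (R.pos p) := by
  obtain ⟨p, η, h1, h2, h3⟩ := h.2.2 i hi
  obtain ⟨p', η', h1', h2', h3'⟩ := h'.2.2 i' hi'
  rw [h3, h3'] at he
  obtain ⟨rfl, hL⟩ := sig_inj he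
  have hlen := congrArg List.length hL
  simp only [shape, List.length_map, List.length_range] at hlen
  obtain rfl : i = i' := by omega
  refine ⟨rfl, p, η, η', h1, h2, h2', fun a ha => ?_⟩
  have := List.map_inj_left.1 hL a (List.mem_range.2 (by omega))
  exact Prod.mk.inj this

lemma eq_of_cover {p : ℕ} {ζ : Ω} {f g : Fn Ω} (hf : f.support ⊆ R.F p ζ)
    (hg : g.support ⊆ R.F p ζ) (h : f.mapDomain (R.pos p) = g.mapDomain (R.pos p)) : f = g :=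
  Finsupp.mapDomain_injOn (R.F p ζ : Set Ω) (R.pos_injOn p ζ) (Finset.coe_subset.2 hf)
    (Finset.coe_subset.2 hg) h

lemma below {p : ℕ} {η η' ζ β β' : Ω} (hη : β ∈ R.F p η) (hη' : β' ∈ R.F p η')
    (hζ : β ∈ R.F p ζ) (hζ' : β' ∈ R.F p ζ) (hle : β ≤ β') {γ : Ω} (hγ : γ ∈ R.F p η)
    (hγβ : γ ≤ β) : γ ∈ R.F p η' := by
  have h1 : β ∈ R.F p β' := (R.coh p ζ β' hζ' β).2 ⟨hζ, hle⟩
  have h2 : γ ∈ R.F p β := (R.coh p η β hη γ).2 ⟨hγ, hγβ⟩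
  exact R.ycode_sub hη' (R.ycode_sub h1 h2)

lemma Br_lt {s : Sq Ω} (h : Br R s) : StrictMono fun i => (s i).1 :=
  fun _ i' hi => (h (i' + 1)).lt hi (Nat.lt_succ_self _)

lemma Br_le {s : Sq Ω} (h : Br R s) (i : ℕ) : i ≤ (s i).1 :=
  (h (i + 1)).le_weight (Nat.lt_succ_self _)

lemma Br_single {s : Sq Ω} (h : Br R s) (γ : Ω) : ∃ i₀, ∀ i, i ≠ i₀ → (s i).2 γ = 0 := by
  by_cases h0 : ∃ i₀, (s i₀).2 γ ≠ 0
  · obtain ⟨i₀, hi₀⟩ := h0
    refine ⟨i₀, fun i hi => ?_⟩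
    by_contra hne
    rcases lt_or_gt_of_ne hi with hlt | hlt
    · exact lt_irrefl _ ((h (i₀ + 1)).2.1 i i₀ hlt (Nat.lt_succ_self _) γ
        (Finsupp.mem_support_iff.2 hne) γ (Finsupp.mem_support_iff.2 hi₀))
    · exact lt_irrefl _ ((h (i + 1)).2.1 i₀ i hlt (Nat.lt_succ_self _) γ
        (Finsupp.mem_support_iff.2 hi₀) γ (Finsupp.mem_support_iff.2 hne))
  · exact ⟨0, fun i _ => by_contra fun hne => h0 ⟨i, hne⟩⟩

omit [LinearOrder Ω] in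
lemma TT_eq {s : Sq Ω} {γ : Ω} {i₀ : ℕ} (h : ∀ i, i ≠ i₀ → (s i).2 γ = 0) (K : ℕ) :
    TT s K γ = if K ≤ (s i₀).1 then (s i₀).2 γ else 0 := by
  unfold TT
  refine finsum_eq_single (fun i => if K ≤ (s i).1 then (s i).2 γ else 0) i₀ fun i hi => ?_
  simp [h i hi]

omit [LinearOrder Ω] in
lemma sum_eq {s : Sq Ω} {γ : Ω} {i₀ : ℕ} (h : ∀ i, i ≠ i₀ → (s i).2 γ = 0) (T : Finset ℕ) :
    (∑ i ∈ T, (s i).2) γ = if i₀ ∈ T then (s i₀).2 γ else 0 := by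
  rw [Finsupp.finsetSum_apply]
  split_ifs with hT
  · exact Finset.sum_eq_single_of_mem i₀ hT fun i _ hi => h i hi
  · exact Finset.sum_eq_zero fun i hi => h i fun he => hT (he ▸ hi)

lemma DD_eq {s : Sq Ω} (hs : Br R s) {γ : Ω} {i₀ : ℕ} (h : ∀ i, i ≠ i₀ → (s i).2 γ = 0) (K : ℕ) :
    DD s K γ = if (s i₀).1 = K then (s i₀).2 γ else 0 := by
  unfold DD
  rw [sum_eq h]
  have := Br_le hs i₀
  refine if_congr ?_ rfl rfl
  simp only [Finset.mem_filter, Finset.mem_range]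
  omega

lemma abs_le {s : Sq Ω} (hs : Br R s) {i K : ℕ} (h : K ≤ (s i).1) (γ : Ω) :
    |(s i).2 γ| ≤ 1 / mm K := by
  have h1 : ((s i).1, (s i).2) ∈ WW R := (hs (i + 1)).1 i (Nat.lt_succ_self _)
  refine (WW_abs_le h1 γ).trans (one_div_le_one_div_of_le (mm_pos_rat K) ?_)
  exact_mod_cast mm_mono h

end YCodeAux

open YCodeAux

lemma Sp.common {A : Set (ℕ × Fn Ω)} {k k' : ℕ} {s s' : Sq Ω} (h : Sp R A k s) (h' : Sp R A k' s')
    {i i' : ℕ} (hi : i + 1 < k) (hi' : i' + 1 < k') (he : (s (i + 1)).1 = (s' (i' + 1)).1) :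
    i = i' ∧ ∀ a ≤ i, (s a).1 = (s' a).1 := by
  obtain ⟨h1, p, η, η', -, -, -, h2⟩ := YCodeAux.common h h' hi hi' he
  exact ⟨h1, fun a ha => (h2 a ha).1⟩

lemma Sp.agree {A : Set (ℕ × Fn Ω)} {k k' : ℕ} {s s' : Sq Ω} (h : Sp R A k s) (h' : Sp R A k' s')
    {i : ℕ} (hi : i + 1 < k) (hi' : i + 1 < k') (he : (s (i + 1)).1 = (s' (i + 1)).1)
    {c c' : ℕ} (hc : c ≤ i) (hc' : c' ≤ i) {β β' : Ω} (hβ : β ∈ (s c).2.support)
    (hβ' : β' ∈ (s' c').2.support)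
    (hcov : ∀ p, (s i).1 ≤ p → ∃ ζ, β ∈ R.F p ζ ∧ β' ∈ R.F p ζ) :
    ∀ a, a < c → a < c' → s a = s' a := by
  obtain ⟨-, p, η, η', h1, h2, h2', h3⟩ := YCodeAux.common h h' hi hi' he
  obtain ⟨ζ, hζ, hζ'⟩ := hcov p h1
  intro a ha ha'
  have hai : a ≤ i := by omega
  refine Prod.ext (h3 a hai).1 ?_
  rcases le_total β β' with hle | hle
  · refine eq_of_cover (ζ := η') (fun γ hγ => ?_) (h2' a hai) (h3 a hai).2
    exact below (h2 c hc hβ) (h2' c' hc' hβ') hζ hζ' hle (h2 a hai hγ)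
      (h.2.1 a c ha (by omega) γ hγ β hβ).le
  · refine eq_of_cover (ζ := η) (h2 a hai) (fun γ hγ => ?_) (h3 a hai).2
    exact below (h2' c' hc' hβ') (h2 c hc hβ) hζ' hζ hle (h2' a hai hγ)
      (h'.2.1 a c' ha' (by omega) γ hγ β' hβ').le

lemma Br.tail_disjoint {s s' : Sq Ω} (h : Br R s) (h' : Br R s') (hne : s ≠ s') :
    ∃ K, ∀ i i', K ≤ (s i).1 → (s i).1 ≠ (s' i').1 := by
  classical
  by_contra hcon
  push Not at hcon
  refine hne (funext fun a => ?_)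
  obtain ⟨-, η₀, -⟩ := (h 2).2.2 0 (by norm_num)
  have : Nonempty Ω := ⟨η₀⟩
  obtain ⟨ζ, p₀, hp₀⟩ := R.exists_cover ((s a).2.support ∪ (s' a).2.support)
  obtain ⟨i, i', hK, he⟩ := hcon ((s (a + p₀)).1 + (s' 0).1 + 1)
  have hi : a + p₀ < i := (Br_lt h).lt_iff_lt.1 (show (s (a + p₀)).1 < (s i).1 by omega)
  have hi' : 0 < i' := (Br_lt h').lt_iff_lt.1 (show (s' 0).1 < (s' i').1 by omega)
  obtain ⟨j, rfl⟩ : ∃ j, i = j + 1 := ⟨i - 1, by omega⟩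
  obtain ⟨j', rfl⟩ : ∃ j, i' = j + 1 := ⟨i' - 1, by omega⟩
  obtain ⟨-, p, η, η', h1, -, -, h3⟩ := YCodeAux.common (h (j + 2)) (h' (j' + 2))
    (Nat.lt_succ_self _) (Nat.lt_succ_self _) he
  have hj := Br_le h j
  have h4 := hp₀ p (by omega)
  refine Prod.ext (h3 a (by omega)).1 ?_
  exact eq_of_cover (Finset.subset_union_left.trans h4) (Finset.subset_union_right.trans h4)
    (h3 a (by omega)).2

lemma Br.TT_succ {s : Sq Ω} (h : Br R s) (K : ℕ) (γ : Ω) :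
    TT s K γ = DD s K γ + TT s (K + 1) γ := by
  obtain ⟨i₀, hi₀⟩ := Br_single h γ
  rw [TT_eq hi₀, TT_eq hi₀, DD_eq h hi₀]
  split_ifs <;> first | omega | simp

lemma Br.abs_TT_le {s : Sq Ω} (h : Br R s) (K : ℕ) (γ : Ω) : |TT s K γ| ≤ 1 / mm K := by
  obtain ⟨i₀, hi₀⟩ := Br_single h γ
  rw [TT_eq hi₀]
  split_ifs with h1
  · exact YCodeAux.abs_le h h1 γ
  · rw [abs_zero]; exact (one_div_pos.2 (mm_pos_rat K)).le

lemma Br.abs_DD_le {s : Sq Ω} (h : Br R s) (K : ℕ) (γ : Ω) : |DD s K γ| ≤ 1 / mm K := by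
  obtain ⟨i₀, hi₀⟩ := Br_single h γ
  rw [DD_eq h hi₀]
  split_ifs with h1
  · exact YCodeAux.abs_le h h1.ge γ
  · rw [abs_zero]; exact (one_div_pos.2 (mm_pos_rat K)).le

omit [LinearOrder Ω] in
lemma DD_support {s : Sq Ω} {K : ℕ} {γ : Ω} (h : γ ∈ (DD s K).support) :
    ∃ i, γ ∈ (s i).2.support := by
  by_contra hcon
  push Not at hcon
  refine Finsupp.mem_support_iff.1 h ?_
  unfold DD
  rw [Finsupp.finsetSum_apply]
  exact Finset.sum_eq_zero fun i _ => Finsupp.notMem_support_iff.1 (hcon i)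

lemma Br.TT_supp {s : Sq Ω} (h : Br R s) {K : ℕ} {γ : Ω} (hγ : TT s K γ ≠ 0) :
    ∃ K', γ ∈ (DD s K').support := by
  obtain ⟨i₀, hi₀⟩ := Br_single h γ
  rw [TT_eq hi₀] at hγ
  refine ⟨(s i₀).1, Finsupp.mem_support_iff.2 ?_⟩
  rw [DD_eq h hi₀, if_pos rfl]
  intro h0
  simp [h0] at hγ

lemma Br.ac_TT {𝕜 : Type} [RCLike 𝕜] {s : Sq Ω} (h : Br R s) (y : Ω →₀ 𝕜) :
    ∃ k₀, ∀ k, k₀ ≤ k → ∀ K, ac (TT s K) y = ac (seg K k s) y := by
  choose f hf using Br_single h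
  refine ⟨y.support.sup f + 1, fun k hk K => ac_congr fun γ hγ => ?_⟩
  have h1 : f γ ≤ y.support.sup f := Finset.le_sup hγ
  unfold seg
  rw [TT_eq (hf γ), sum_eq (hf γ)]
  refine if_congr ?_ rfl rfl
  simp only [Finset.mem_filter, Finset.mem_range]
  omega

end Crest.Agent.R114
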