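import Crest.Agent.R114.YG

/-!
# Task R114-YData (assembly of `YData`)

`exists_ydata`.  `N` = `nrm R` as a `Seminorm` (`Seminorm.of`/`Seminorm.ofSMulLE`); `T β K = fun γ => (TT s K γ : 𝕜)` and `D β K = (DD s K).mapRange Rat.cast _` if `∃ s, Br R s ∧ idx s = β`
(chosen), else `0`.  `lower`: `n = nn j` with `4 C mm j ≤ nn j` (`exists_mul_mm_le_nn`), `w u ∈ W` with `1/2 < ‖ac (w u) (y u)‖` restricted to the hull, `sum_chain_le`.
`c0`: distinct `β` carry distinct branches, `Br.tail_disjoint`, `K₀ ≥ S.card`, `Br.ac_TT`, `sum_seg_le` over the `β ∈ S` that carry a branch.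
`T_bdd`: `seg K k s` is a `Lab` functional (`r = 1`).  `G`: unfold `not_H0`, `β = idx s`.
-/

set_option autoImplicit false

namespace Crest.Agent.R114

open Finsupp Finset

variable {Ω : Type} [LinearOrder Ω] {𝕜 : Type} [RCLike 𝕜]

namespace YD

variable {R : Rho Ω}

lemma lower (C : ℝ) : ∃ n : ℕ, ∀ y : ℕ → Ω →₀ 𝕜, Chain y → (∀ u < n, 1 ≤ nrm R (y u)) →
    C ≤ nrm R (∑ u ∈ Finset.range n, y u) := by
  obtain ⟨j, hj⟩ := exists_mul_mm_le_nn (4 * C)
  refine ⟨nn j, fun y hy h1 => ?_⟩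
  have h2 : ∀ u, ∃ w : Fn Ω, u < nn j → w ∈ W R ∧ 1 / 2 < ‖ac w (y u)‖ := fun u => by
    by_cases hu : u < nn j
    · obtain ⟨w, hw⟩ := exists_lt_ac (R := R) (y := y u) (c := 1 / 2) (by linarith [h1 u hu])
      exact ⟨w, fun _ => hw⟩
    · exact ⟨0, fun h => absurd h hu⟩
  choose w hw using h2
  have hs : ∀ u, ∀ γ ∈ (res (hull (y u)) (w u)).support, γ ∈ hull (y u) := fun u γ hγ => (mem_support_res.1 hγ).2
  have h3 := sum_chain_le (R := R) (le_refl (nn j)) (fun u => res (hull (y u)) (w u))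
    (fun u hu => W_res (hw u hu).1 (hull_ordConnected _))
    (fun u v huv _ => (hy u v huv).of_support_subset (hs u) (hs v)) (∑ u ∈ Finset.range (nn j), y u)
  have h4 : ∀ u ∈ range (nn j),
      (1 / 2 : ℝ) ≤ ‖ac (res (hull (y u)) (w u)) (∑ v ∈ Finset.range (nn j), y v)‖ := fun u hu => by
    rw [map_sum, Finset.sum_eq_single_of_mem u hu, ac_res_hull]
    · exact (hw u (Finset.mem_range.1 hu)).2.le
    · intro v _ hvu
      refine ac_eq_zero_of_succ ?_
      rcases lt_or_gt_of_ne hvu with h | h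
      · exact Or.inr ((hy v u h).of_support_subset (fun _ => mem_hull_of_mem_support) (hs u))
      · exact Or.inl ((hy u v h).of_support_subset (hs u) fun _ => mem_hull_of_mem_support)
  have h5 := (Finset.sum_le_sum h4).trans h3
  rw [Finset.sum_const, Finset.card_range, nsmul_eq_mul] at h5
  have h6 := mm_pos j
  refine le_of_mul_le_mul_right ?_ h6
  linarith

lemma TT_bdd {s : Sq Ω} (h : Br R s) (K : ℕ) (y : Ω →₀ 𝕜) : ‖ac (TT s K) y‖ ≤ nrm R y := by
  obtain ⟨k, hk⟩ := h.ac_TT y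
  rw [hk k le_rfl]
  refine ac_le_nrm (Or.inr ⟨K, 1, fun _ => k, fun _ => s, fun _ => 1, Set.univ, Nat.zero_le _, by omega,
    Set.ordConnected_univ, fun _ _ => h k, fun _ _ => Or.inl rfl, fun c hc c' hc' hne => by omega, by simp⟩) y

lemma c0 (T : Finset Ω) (s : Ω → Sq Ω) (hs : ∀ β ∈ T, Br R (s β)) (hi : ∀ β ∈ T, ∀ β' ∈ T, β ≠ β' → s β ≠ s β') :
    ∃ K₀, ∀ K, K₀ ≤ K → ∀ y : Ω →₀ 𝕜, ∑ β ∈ T, ‖ac (TT (s β) K) y‖ ≤ 2 * nrm R y := by
  have h1 : ∀ q : Ω × Ω, ∃ K, q.1 ∈ T → q.2 ∈ T → q.1 ≠ q.2 →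
      ∀ i i', K ≤ (s q.1 i).1 → (s q.1 i).1 ≠ (s q.2 i').1 := fun q => by
    by_cases h : q.1 ∈ T ∧ q.2 ∈ T ∧ q.1 ≠ q.2
    · obtain ⟨K, hK⟩ := (hs _ h.1).tail_disjoint (hs _ h.2.1) (hi _ h.1 _ h.2.1 h.2.2)
      exact ⟨K, fun _ _ _ => hK⟩
    · exact ⟨0, fun a b c => absurd ⟨a, b, c⟩ h⟩
  choose f hf using h1
  refine ⟨T.card + (T ×ˢ T).sup f, fun K hK y => ?_⟩
  have h2 : ∀ β, ∃ k, β ∈ T → ac (TT (s β) K) y = ac (seg K k (s β)) y := fun β => by
    by_cases h : β ∈ T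
    · obtain ⟨k, hk⟩ := (hs β h).ac_TT y
      exact ⟨k, fun _ => hk k le_rfl K⟩
    · exact ⟨0, fun a => absurd a h⟩
  choose k hk using h2
  rw [Finset.sum_congr rfl fun β hβ => by rw [hk β hβ]]
  refine sum_seg_le T K k s (by omega) (fun β hβ => hs β hβ _) (fun β hβ β' hβ' hne i _ i' _ hi => ?_) y
  have : f (β, β') ≤ (T ×ˢ T).sup f := Finset.le_sup (Finset.mem_product.2 ⟨hβ, hβ'⟩)
  exact hf (β, β') hβ hβ' hne i i' (by simp only; omega)

omit [LinearOrder Ω] in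
lemma norm_cast_le {q : ℚ} {K : ℕ} (h : |q| ≤ 1 / mm K) : ‖(q : 𝕜)‖ ≤ (1 / 2) ^ K := by
  rw [norm_ratCast]
  refine le_trans ?_ (inv_mm_le_half_pow K)
  have : ((|q| : ℚ) : ℝ) ≤ ((1 / mm K : ℚ) : ℝ) := Rat.cast_le.2 h
  rwa [Rat.cast_div, Rat.cast_one, Rat.cast_natCast] at this

end YD

theorem exists_ydata (R : Rho Ω) (idx : Sq Ω → Ω) (hinj : Function.Injective idx)
    (hidx : ∀ s i, ∀ γ ∈ (s i).2.support, γ < idx s) : Nonempty (YData 𝕜 Ω) := by
  classical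
  let P : Ω → Prop := fun β => ∃ s, Br R s ∧ idx s = β
  obtain ⟨t, d, h1, h2⟩ : ∃ (t : Ω → ℕ → Ω → ℚ) (d : Ω → ℕ → Fn Ω),
      (∀ s, Br R s → t (idx s) = TT s ∧ d (idx s) = DD s) ∧ ∀ β, ¬ P β → t β = 0 ∧ d β = 0 := by
    refine ⟨fun β => if h : P β then TT h.choose else 0, fun β => if h : P β then DD h.choose else 0,
      fun s hs => ?_, fun β h => ⟨dif_neg h, dif_neg h⟩⟩
    have h : P (idx s) := ⟨s, hs, rfl⟩
    simp only [dif_pos h, hinj h.choose_spec.2, and_self]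
  refine ⟨{ N := Seminorm.of (nrm R) nrm_add_le nrm_smul
            coord_le := coord_le_nrm
            single_le := fun γ => (nrm_le_l1 _).trans (by simp [l1])
            res_le := fun E hE y => nrm_res_le hE y
            lower := YD.lower
            norming := fun y c hc => ?_
            T := fun β K γ => (t β K γ : 𝕜)
            D := fun β K => (d β K).mapRange Rat.cast Rat.cast_zero
            T_succ := fun β K γ => ?_
            D_le := fun β K γ => ?_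
            T_le := fun β K γ => ?_
            D_lt := fun β K γ hγ => ?_
            T_supp := fun β K γ hγ => ?_
            T_bdd := fun β K y => ?_
            c0 := fun S => ?_
            G := fun b hb hne => ?_ }⟩
  · obtain ⟨w, hw, h⟩ := exists_lt_ac hc
    refine ⟨w.mapRange Rat.cast Rat.cast_zero, fun γ => ?_, fun y' => ac_le_nrm hw y', h⟩
    rw [mapRange_apply, norm_ratCast]
    exact_mod_cast W_abs_le hw γ
  · by_cases h : P β
    · obtain ⟨s, hs, rfl⟩ := h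
      rw [mapRange_apply, (h1 s hs).1, (h1 s hs).2, hs.TT_succ, Rat.cast_add]
    · simp [(h2 β h).1, (h2 β h).2]
  · by_cases h : P β
    · obtain ⟨s, hs, rfl⟩ := h
      rw [mapRange_apply, (h1 s hs).2]
      exact YD.norm_cast_le (hs.abs_DD_le K γ)
    · simp [(h2 β h).2]
  · by_cases h : P β
    · obtain ⟨s, hs, rfl⟩ := h
      rw [(h1 s hs).1]
      exact YD.norm_cast_le (hs.abs_TT_le K γ)
    · simp [(h2 β h).1]
  · have hγ' := support_mapRange hγ
    by_cases h : P β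
    · obtain ⟨s, hs, rfl⟩ := h
      rw [(h1 s hs).2] at hγ'
      obtain ⟨i, hi⟩ := DD_support hγ'
      exact hidx s i γ hi
    · simp [(h2 β h).2] at hγ'
  · by_cases h : P β
    · obtain ⟨s, hs, rfl⟩ := h
      rw [(h1 s hs).1, Rat.cast_ne_zero] at hγ
      obtain ⟨K', hK'⟩ := hs.TT_supp hγ
      refine ⟨K', ?_⟩
      rw [(h1 s hs).2, Finsupp.mem_support_iff, mapRange_apply, Rat.cast_ne_zero]
      exact Finsupp.mem_support_iff.1 hK'
    · simp [(h2 β h).1] at hγ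
  · change ‖ac (t β K) y‖ ≤ nrm R y
    by_cases h : P β
    · obtain ⟨s, hs, rfl⟩ := h
      rw [(h1 s hs).1]
      exact YD.TT_bdd hs K y
    · rw [ac_eq_zero fun γ _ => by rw [(h2 β h).1]; rfl, norm_zero]
      exact nrm_nonneg y
  · have h3 : ∀ β, ∃ s, P β → Br R s ∧ idx s = β := fun β => by
      by_cases h : P β
      · exact ⟨h.choose, fun _ => h.choose_spec⟩
      · exact ⟨fun _ => (0, 0), fun a => absurd a h⟩
    choose s hs using h3
    have hs' : ∀ β ∈ S.filter P, Br R (s β) ∧ idx (s β) = β := fun β hβ => hs β (Finset.mem_filter.1 hβ).2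
    obtain ⟨K₀, hK₀⟩ := YD.c0 (𝕜 := 𝕜) (S.filter P) s (fun β hβ => (hs' β hβ).1)
      fun β hβ β' hβ' hne e => hne (by rw [← (hs' β hβ).2, e, (hs' β' hβ').2])
    refine ⟨K₀, fun K hK y => le_trans (le_of_eq ?_) (hK₀ K hK y)⟩
    rw [Finset.sum_filter]
    refine Finset.sum_congr rfl fun β _ => ?_
    change ‖ac (t β K) y‖ = _
    split_ifs with h
    · rw [← (h1 _ (hs β h).1).1, (hs β h).2]
    · rw [ac_eq_zero fun γ _ => by rw [(h2 β h).1]; rfl, norm_zero]
  · have h := not_H0 (R := R) hb hne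
    unfold H0 at h
    push Not at h
    obtain ⟨s, hs, hl, ε, hε, h⟩ := h
    refine ⟨idx s, ε, hε, fun K γ hγ => ?_, fun n => ?_⟩
    · have hγ' := support_mapRange hγ
      rw [(h1 s hs).2] at hγ'
      obtain ⟨i, hi⟩ := DD_support hγ'
      exact hl i γ hi
    · obtain ⟨y, hy, h3, h4⟩ := h n
      refine ⟨y, hy, h3, ?_⟩
      rw [(h1 s hs).1]
      exact h4

end Crest.Agent.R114
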