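import Crest.Agent.R114.YNorm

/-!
# Task R114-YDecomp (decomposition of `Lab` functionals by weights)

`Lab.decomp`: `g i = res E (∑ c < r, ε c • ∑_{a < k c, (s c a).1 = i, l' ≤ i} (s c a).2)`; at most one pair `(c, a)` contributes, so `g i` is `0` or
`± res E f` with `(i, f) ∈ WW` (`WW_zero, WW_neg, WW_res`); regroup with `Finset.sum_fiberwise_of_maps_to`/`Finset.sum_comm`.
`B` = 1 + the largest weight occurring.  Last clause: for `J ≤ l'` the sum is `w`; for `J > l'` it is `res E (∑ ε c • seg J (k c) (s c))`, label `J`.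
-/

set_option autoImplicit false

namespace Crest.Agent.R114

open Finsupp Finset

variable {Ω : Type} [LinearOrder Ω] {R : Rho Ω}

omit [LinearOrder Ω] in
lemma sum_win (l a b k : ℕ) (s : Sq Ω) :
    ∑ i ∈ Ico a b, win (max l i) (i + 1) k s = win (max l a) b k s := by
  simp only [win, sum_filter]
  rw [Finset.sum_comm]
  refine sum_congr rfl fun x _ => ?_
  rw [sum_congr rfl (g := fun i => if (s x).1 = i then if l ≤ (s x).1 then (s x).2 else 0 else 0)
    fun i _ => by split_ifs <;> first | rfl | omega, Finset.sum_ite_eq]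
  simp only [mem_Ico]
  split_ifs <;> first | rfl | omega

omit [LinearOrder Ω] in
lemma win_eq_zero {a b k : ℕ} {s : Sq Ω} (h : ∀ i < k, a ≤ (s i).1 → b ≤ (s i).1) : win a b k s = 0 :=
  sum_eq_zero fun i hi => by
    simp only [mem_filter, mem_range] at hi; exact absurd (h i hi.1 hi.2.1) hi.2.2.not_ge

theorem Lab.decomp {l : ℕ} {w : Fn Ω} (hw : Lab R (WW R) l w) :
    ∃ (l' r : ℕ) (k : ℕ → ℕ) (s : ℕ → Sq Ω) (ε : ℕ → ℚ) (E : Set Ω) (g : ℕ → Fn Ω) (B : ℕ),
      l ≤ l' ∧ r ≤ l' + 1 ∧ E.OrdConnected ∧ (∀ c < r, Sp R (WW R) (k c) (s c)) ∧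
      (∀ c < r, ε c = 1 ∨ ε c = -1) ∧ (∀ i, (i, g i) ∈ WW R) ∧ (∀ i < l', g i = 0) ∧
      (∀ i, B ≤ i → g i = 0) ∧ w = ∑ i ∈ range B, g i ∧
      (∀ a b, l' ≤ a → ∑ i ∈ Ico a b, g i = res E (∑ c ∈ range r, ε c • win a b (k c) (s c))) ∧
      ∀ J, Lab R (WW R) J (∑ i ∈ Ico J B, g i) := by
  obtain ⟨l', r, k, s, ε, E, h1, h2, h3, h4, h5, h6, rfl⟩ := hw
  obtain ⟨B, hB⟩ : ∃ B, ∀ c < r, ∀ a < k c, (s c a).1 < B :=
    ⟨(range r).sup (fun c => (range (k c)).sup fun a => (s c a).1) + 1, fun c hc a ha =>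
      Nat.lt_succ_of_le ((le_sup (f := fun a => (s c a).1) (mem_range.2 ha)).trans
        (le_sup (f := fun c => (range (k c)).sup fun a => (s c a).1) (mem_range.2 hc)))⟩
  have hg : ∀ a b, ∑ i ∈ Ico a b, res E (∑ c ∈ range r, ε c • win (max l' i) (i + 1) (k c) (s c)) =
      res E (∑ c ∈ range r, ε c • win (max l' a) b (k c) (s c)) := fun a b => by
    rw [← res_sum, Finset.sum_comm]; simp only [← Finset.smul_sum, sum_win]
  have hg' : ∀ a, ∑ i ∈ Ico a B, res E (∑ c ∈ range r, ε c • win (max l' i) (i + 1) (k c) (s c)) =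
      res E (∑ c ∈ range r, ε c • seg (max l' a) (k c) (s c)) := fun a => by
    rw [hg]
    refine congrArg _ (sum_congr rfl fun c hc => congrArg _ (sum_congr (filter_congr fun i hi => ?_)
      fun _ _ => rfl))
    simp [hB c (mem_range.1 hc) i (mem_range.1 hi)]
  have h0 : ∀ i, (∀ c < r, ∀ a < k c, l' ≤ (s c a).1 → (s c a).1 ≠ i) →
      res E (∑ c ∈ range r, ε c • win (max l' i) (i + 1) (k c) (s c)) = 0 := fun i h => by
    rw [sum_eq_zero fun c hc => ?_, res_eq_zero (by simp)]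
    rw [win_eq_zero fun a ha h' => ?_, smul_zero]
    have := h c (mem_range.1 hc) a ha
    omega
  refine ⟨l', r, k, s, ε, E, fun i => res E (∑ c ∈ range r, ε c • win (max l' i) (i + 1) (k c) (s c)), B,
    h1, h2, h3, h4, h5, fun i => ?_, fun i hi => h0 i (by omega), fun i hi => h0 i fun c hc a ha _ => ?_,
    by rw [range_eq_Ico B, hg', Nat.max_zero], fun a b h => by rw [hg, max_eq_right h], fun J =>
    ⟨_, r, k, s, ε, E, le_max_right l' J, by omega, h3, h4, h5, fun c hc c' hc' hne i hi i' hi' h =>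
      h6 c hc c' hc' hne i hi i' hi' (le_of_max_le_left h), hg' J⟩⟩
  · by_cases! h : ∀ c < r, ∀ a < k c, l' ≤ (s c a).1 → (s c a).1 ≠ i
    · simpa only [h0 i h] using WW_zero i
    obtain ⟨c, hc, a, ha, h7, rfl⟩ := h
    have h8 : win (max l' (s c a).1) ((s c a).1 + 1) (k c) (s c) = (s c a).2 := by
      refine Finset.sum_eq_single_of_mem a (by simp [ha, h7]) fun a' ha' hne => ?_
      simp only [mem_filter, mem_range] at ha'
      rcases lt_or_gt_of_ne hne with h | h
      · have := (h4 c hc).lt h ha; omega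
      · have := (h4 c hc).lt h ha'.1; omega
    refine WW_res ?_ h3
    rw [Finset.sum_eq_single_of_mem c (mem_range.2 hc) fun c' hc' hne => ?_, h8]
    · have := (h4 c hc).1 a ha
      rcases h5 c hc with h | h <;> simp [h, this, WW_neg]
    · rw [win_eq_zero fun a' ha' h' => ?_, smul_zero]
      have := h6 c hc c' (mem_range.1 hc') hne.symm a ha a' ha' h7
      omega
  · have := hB c hc a ha
    omega

theorem Lab.split {l : ℕ} {w : Fn Ω} (hw : Lab R (WW R) l w) (J : ℕ) :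
    ∃ (w' : Fn Ω) (g : ℕ → Fn Ω), Lab R (WW R) J w' ∧ (∀ i, (i, g i) ∈ WW R) ∧
      w = w' + ∑ i ∈ range J, g i := by
  obtain ⟨-, -, -, -, -, -, g, B, -, -, -, -, -, h1, -, h2, rfl, -, h3⟩ := hw.decomp
  refine ⟨_, g, h3 J, h1, ?_⟩
  rcases le_total J B with h | h
  · rw [add_comm, sum_range_add_sum_Ico _ h]
  · rw [Ico_eq_empty_of_le h, sum_empty, zero_add, ← sum_range_add_sum_Ico _ h,
      sum_eq_zero fun i hi => h2 i (mem_Ico.1 hi).1, add_zero]

end Crest.Agent.R114
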