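import Crest.Agent.R114.XBasic

/-!
# Row 114, S0152: the concrete norming set

* `Rho Ω`   : a ρ-system of finite sets `F p α`;  `pos p β = |F p β|`.
* `Sp R A k s` : the first `k` terms of `s : ℕ → ℕ × Fn Ω` (weight, functional) form a special list with entries in `A`.
* `Lab R A ℓ w` : `w` is the restriction to an interval of a signed sum of at most `ℓ'+1` weight-disjoint tails
  (weights `≥ ℓ'`) of special lists, `ℓ' ≥ ℓ` ("label").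
* `Grp R A d ℓ w` : `d`-fold iterated successive sums, the number of children being bounded by the labels.
* `WT R A j f` : `f` has weight `j`: `f = (1/m_j) ∑` of at most `n_j` successive atoms or groups of depth `n_j`.
* `WW R` : least fixed point; `W R` : the norming set; `nrm R` : the norm.
* `MS t e F` : modified Schreier families.
-/

set_option autoImplicit false

namespace Crest.Agent.R114

open Finsupp Finset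

def mm (j : ℕ) : ℕ := 2 ^ (j + 6)

def nn (j : ℕ) : ℕ := 2 ^ ((j + 8) ^ 2)

structure Rho (Ω : Type) [LinearOrder Ω] where
  F : ℕ → Ω → Finset Ω
  self : ∀ p α, α ∈ F p α
  le : ∀ p α β, β ∈ F p α → β ≤ α
  mono : ∀ p q α, p ≤ q → F p α ⊆ F q α
  cover : ∀ α β, β ≤ α → ∃ p, β ∈ F p α
  coh : ∀ p α β, β ∈ F p α → ∀ γ, γ ∈ F p β ↔ γ ∈ F p α ∧ γ ≤ β

abbrev Fn (Ω : Type) := Ω →₀ ℚ

abbrev Sq (Ω : Type) := ℕ → ℕ × Fn Ω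

/-- the coding function -/
noncomputable def sig (p : ℕ) (L : List (ℕ × (ℕ →₀ ℚ))) : ℕ :=
  Nat.pair p (Classical.choose (exists_injective_nat (List (ℕ × (ℕ →₀ ℚ)))) L) + 1

lemma lt_sig (p : ℕ) (L : List (ℕ × (ℕ →₀ ℚ))) : p < sig p L :=
  Nat.lt_succ_of_le (Nat.left_le_pair _ _)

lemma sig_inj {p p' : ℕ} {L L' : List (ℕ × (ℕ →₀ ℚ))} (h : sig p L = sig p' L') :
    p = p' ∧ L = L' := by
  have h1 := Nat.pair_eq_pair.1 (Nat.succ_injective h)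
  exact ⟨h1.1, Classical.choose_spec (exists_injective_nat (List (ℕ × (ℕ →₀ ℚ)))) h1.2⟩

/-- modified Schreier families with thresholds `t` -/
def MS (t : ℕ → ℕ) : ℕ → Set ℕ → Prop
  | 0, F => F.Subsingleton
  | e + 1, F => ∃ (r : ℕ) (A : ℕ → Set ℕ), (∀ c < r, MS t e (A c)) ∧ (∀ u ∈ F, ∃ c < r, u ∈ A c) ∧
      ∀ u ∈ F, r ≤ 4 * t u + 4

open Classical in
noncomputable def mass (S : Finset ℕ) (a : ℕ → ℝ) (F : Set ℕ) : ℝ := ∑ u ∈ S.filter (· ∈ F), a u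

section
variable {Ω : Type}

/-- action of a rational functional -/
noncomputable def ac {𝕜 : Type} [RCLike 𝕜] (f : Ω → ℚ) : (Ω →₀ 𝕜) →ₗ[𝕜] 𝕜 :=
  act fun γ => ((f γ : ℚ) : 𝕜)

/-- sum of the entries with index `< k` and weight `≥ a` -/
noncomputable def seg (a k : ℕ) (s : Sq Ω) : Fn Ω :=
  ∑ i ∈ (range k).filter (fun i => a ≤ (s i).1), (s i).2

/-- sum of the entries with index `< k` and weight in `[a, b)` -/
noncomputable def win (a b k : ℕ) (s : Sq Ω) : Fn Ω :=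
  ∑ i ∈ (range k).filter (fun i => a ≤ (s i).1 ∧ (s i).1 < b), (s i).2

/-- tail of a branch: the (pointwise) sum of all entries of weight `≥ K` -/
noncomputable def TT (s : Sq Ω) (K : ℕ) : Ω → ℚ :=
  fun γ => ∑ᶠ i, if K ≤ (s i).1 then (s i).2 γ else 0

/-- the entry of weight `K` of a branch (weights are strictly increasing, so its index is `≤ K`) -/
noncomputable def DD (s : Sq Ω) (K : ℕ) : Fn Ω :=
  ∑ i ∈ (range (K + 1)).filter (fun i => (s i).1 = K), (s i).2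

def Atom (w : Fn Ω) : Prop := ∃ β, w = single β 1 ∨ w = single β (-1)

variable [LinearOrder Ω]

def Rho.pos (R : Rho Ω) (p : ℕ) (β : Ω) : ℕ := (R.F p β).card

noncomputable def shape (R : Rho Ω) (p i : ℕ) (s : Sq Ω) : List (ℕ × (ℕ →₀ ℚ)) :=
  (List.range i).map fun a => ((s a).1, (s a).2.mapDomain (R.pos p))

def Sp (R : Rho Ω) (A : Set (ℕ × Fn Ω)) (k : ℕ) (s : Sq Ω) : Prop :=
  (∀ i < k, s i ∈ A) ∧ (∀ i i', i < i' → i' < k → Succ (s i).2 (s i').2) ∧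
  ∀ i, i + 1 < k → ∃ p η, (s i).1 ≤ p ∧ (∀ a ≤ i, (s a).2.support ⊆ R.F p η) ∧
    (s (i + 1)).1 = sig p (shape R p (i + 1) s)

def Lab (R : Rho Ω) (A : Set (ℕ × Fn Ω)) (l : ℕ) (w : Fn Ω) : Prop :=
  ∃ (l' r : ℕ) (k : ℕ → ℕ) (s : ℕ → Sq Ω) (ε : ℕ → ℚ) (E : Set Ω),
    l ≤ l' ∧ r ≤ l' + 1 ∧ E.OrdConnected ∧ (∀ c < r, Sp R A (k c) (s c)) ∧
    (∀ c < r, ε c = 1 ∨ ε c = -1) ∧
    (∀ c < r, ∀ c' < r, c ≠ c' → ∀ i < k c, ∀ i' < k c', l' ≤ (s c i).1 → (s c i).1 ≠ (s c' i').1) ∧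
    w = res E (∑ c ∈ range r, ε c • seg l' (k c) (s c))

def Grp (R : Rho Ω) (A : Set (ℕ × Fn Ω)) : ℕ → ℕ → Fn Ω → Prop
  | 0, l, w => Lab R A l w
  | d + 1, l, w => ∃ (l' r : ℕ) (ch : ℕ → Fn Ω), l ≤ l' ∧ r ≤ l' + 1 ∧
      (∀ c < r, Grp R A d l' (ch c)) ∧ (∀ c c', c < c' → c' < r → Succ (ch c) (ch c')) ∧
      w = ∑ c ∈ range r, ch c

def WT (R : Rho Ω) (A : Set (ℕ × Fn Ω)) (j : ℕ) (f : Fn Ω) : Prop :=
  ∃ (r : ℕ) (ch : ℕ → Fn Ω), r ≤ nn j ∧ (∀ c < r, Atom (ch c) ∨ Grp R A (nn j) 0 (ch c)) ∧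
    (∀ c c', c < c' → c' < r → Succ (ch c) (ch c')) ∧
    f = ((mm j : ℚ))⁻¹ • ∑ c ∈ range r, ch c

lemma Sp.mono_set {R : Rho Ω} {A B : Set (ℕ × Fn Ω)} (h : A ⊆ B) {k : ℕ} {s : Sq Ω}
    (hs : Sp R A k s) : Sp R B k s := ⟨fun i hi => h (hs.1 i hi), hs.2⟩

lemma Lab.mono_set {R : Rho Ω} {A B : Set (ℕ × Fn Ω)} (h : A ⊆ B) {l : ℕ} {w : Fn Ω}
    (hw : Lab R A l w) : Lab R B l w := by
  obtain ⟨l', r, k, s, ε, E, h1, h2, h3, h4, h5⟩ := hw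
  exact ⟨l', r, k, s, ε, E, h1, h2, h3, fun c hc => (h4 c hc).mono_set h, h5⟩

lemma Grp.mono_set {R : Rho Ω} {A B : Set (ℕ × Fn Ω)} (h : A ⊆ B) :
    ∀ {d l : ℕ} {w : Fn Ω}, Grp R A d l w → Grp R B d l w
  | 0, _, _, hw => Lab.mono_set h hw
  | _ + 1, _, _, ⟨l', r, ch, h1, h2, h3, h4⟩ =>
    ⟨l', r, ch, h1, h2, fun c hc => Grp.mono_set h (h3 c hc), h4⟩

lemma WT.mono_set {R : Rho Ω} {A B : Set (ℕ × Fn Ω)} (h : A ⊆ B) {j : ℕ} {f : Fn Ω}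
    (hf : WT R A j f) : WT R B j f := by
  obtain ⟨r, ch, h1, h2, h3⟩ := hf
  exact ⟨r, ch, h1, fun c hc => (h2 c hc).imp id (Grp.mono_set h), h3⟩

def Gam (R : Rho Ω) : Set (ℕ × Fn Ω) →o Set (ℕ × Fn Ω) :=
  ⟨fun A => {q | WT R A q.1 q.2}, fun _ _ h _ hq => WT.mono_set h hq⟩

/-- the weighted functionals -/
def WW (R : Rho Ω) : Set (ℕ × Fn Ω) := OrderHom.lfp (Gam R)

lemma mem_WW {R : Rho Ω} {j : ℕ} {f : Fn Ω} : (j, f) ∈ WW R ↔ WT R (WW R) j f := by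
  have h : Gam R (WW R) = WW R := OrderHom.map_lfp (Gam R)
  conv_lhs => rw [← h]
  rfl

lemma WW_subset {R : Rho Ω} {B : Set (ℕ × Fn Ω)} (h : ∀ j f, WT R B j f → (j, f) ∈ B) :
    WW R ⊆ B := OrderHom.lfp_le (Gam R) (a := B) fun q hq => h q.1 q.2 hq

/-- the norming set -/
def W (R : Rho Ω) : Set (Fn Ω) := {w | Atom w ∨ Lab R (WW R) 0 w}

variable {𝕜 : Type} [RCLike 𝕜]

noncomputable def nrm (R : Rho Ω) (y : Ω →₀ 𝕜) : ℝ := ⨆ w : W R, ‖ac (w : Fn Ω) y‖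

/-- infinite branch -/
def Br (R : Rho Ω) (s : Sq Ω) : Prop := ∀ k, Sp R (WW R) k s

/-- the branch lives below the points of the block sequence `b` -/
def Low (b : ℕ → Ω →₀ 𝕜) (s : Sq Ω) : Prop :=
  ∀ i, ∀ γ ∈ (s i).2.support, ∃ k, ∃ δ ∈ (b k).support, γ ≤ δ

/-- the hypothesis to be refuted: every branch tends to zero uniformly on the tails of `b` -/
def H0 (R : Rho Ω) (b : ℕ → Ω →₀ 𝕜) : Prop :=
  ∀ s, Br R s → Low b s → ∀ ε : ℝ, 0 < ε → ∃ n, ∀ y ∈ tailSp b n, nrm R y ≤ 1 →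
    ‖ac (TT s 0) y‖ < ε

/-- `w` is at most `θ` on the vectors `x u` outside an exceptional set of order `e` -/
def Exc (t : ℕ → ℕ) (x : ℕ → Ω →₀ 𝕜) (e : ℕ) (θ : ℝ) (w : Fn Ω) : Prop :=
  ∃ F, MS t e F ∧ ∀ u, u ∉ F → ‖ac w (x u)‖ ≤ θ

def RISvec (R : Rho Ω) (J : ℕ) (x : Ω →₀ 𝕜) : Prop :=
  nrm R x ≤ 1 ∧ (∀ i < J, ∀ g, (i, g) ∈ WW R → ‖ac g x‖ ≤ 2 / mm i) ∧
    ∃ w, Lab R (WW R) J w ∧ 1 / 4 ≤ ‖ac w x‖

def Sup (R : Rho Ω) (b : ℕ → Ω →₀ 𝕜) (D : ℕ) (ρ : ℝ) : Prop :=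
  ∀ l n, ∃ z ∈ tailSp b n, ∃ w, Grp R (WW R) D l w ∧ nrm R z ≤ 1 ∧ ρ ≤ ‖ac w z‖

structure RIS (R : Rho Ω) (b : ℕ → Ω →₀ 𝕜) (j : ℕ) (x : ℕ → Ω →₀ 𝕜) (a bb : ℕ → ℕ)
    (w : ℕ → Fn Ω) : Prop where
  mem : ∀ l, x l ∈ tailSp b l
  chain : Chain x
  nrm_le : ∀ l, nrm R (x l) ≤ 1
  small : ∀ l, ∀ i < a l, ∀ g, (i, g) ∈ WW R → ‖ac g (x l)‖ ≤ 2 / mm i
  big : ∀ l, 2 * l1 (x l) / mm (bb l) ≤ 1 / mm (j + l)
  ab : ∀ l, a l ≤ bb l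
  ba : ∀ l, bb l ≤ a (l + 1)
  lo : ∀ l, nn j + l ≤ a l
  rho : ∀ l p, a (l + 1) ≤ p → ∃ ζ, ∀ l' ≤ l, (x l').support ⊆ R.F p ζ
  lab : ∀ l, Lab R (WW R) (a l) (w l)
  within : ∀ l, ∀ γ ∈ (w l).support, γ ∈ hull (x l)
  val : ∀ l, 1 / 4 ≤ RCLike.re (ac (w l) (x l))

/-- the special list `(k, s)` acts on `x l` through the weights of the window `[a l, bb l)` by more than `ε` -/
def Hit (x : ℕ → Ω →₀ 𝕜) (a bb : ℕ → ℕ) (ε : ℝ) (k : ℕ) (s : Sq Ω) (l : ℕ) : Prop :=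
  ε < ‖ac (win (a l) (bb l) k s) (x l)‖

def Few (R : Rho Ω) (x : ℕ → Ω →₀ 𝕜) (a bb : ℕ → ℕ) (η : ℝ) : Prop :=
  ∀ u₀ u₁ u₂ u₃ u₄, u₀ < u₁ → u₁ < u₂ → u₂ < u₃ → u₃ < u₄ → ∀ k s, Sp R (WW R) k s →
    ¬ (Hit x a bb (η / bb u₀) k s u₁ ∧ Hit x a bb (η / bb u₀) k s u₂ ∧
       Hit x a bb (η / bb u₀) k s u₃ ∧ Hit x a bb (η / bb u₀) k s u₄)

end

end Crest.Agent.R114
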