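import Crest.Agent.R114.YGrp

/-!
# Task R114-YIneq (the basic inequality)

`η = 1 / mm j`.  `bb` is monotone and unbounded (`ab`, `ba`, `lo`).
`in_window`.  `Lab.decomp`.  `u₀` = least `u` with `l' < bb u`; so `r ≤ l' + 1 ≤ bb u₀`.  For `u < u₀` the window sum is `0` (`g i = 0` for `i < l'`... here `i < bb u ≤ l'`).
For `u > u₀`, `l' ≤ a u`, so the window sum is `res E (∑ ε c • win ..)`.  At most two `u` are *cut* by `E` (support neither inside nor disjoint from `E`: if `u₁ < u₂ < u₃` all meet `E`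
then `supp (x u₂) ⊆ E`); for each `c < r` at most three `u > u₀` are `Hit` at level `η / bb u₀` (`Few`; a set of naturals without four increasing elements has at most three).
`F = {u₀} ∪ cut ∪ hits` (only `u ≥ u₀`), `|F| ≤ 3 + 3 r ≤ 4 bb u + 4` (`MS.of_card 0`).  Off `F`: norm `≤ r η / bb u₀ ≤ η`.
`basic_ineq`.  Induction on `κ`: every `w` with `Lab R (WW R) 0 w` has `Exc bb x (κ * (nn (j-1) + 2)) ((1/2)^κ + 7η) w`.  `κ = 0`: `ac_le_nrm`, `F = ∅`.
Step: `in_window`; for `i < j` apply `exc_wt` (`D = nn (j-1)`, `hleaf` = induction hypothesis, `hbig` from `Grp.ac_le` and `h.big`); the union of these `j` sets and the window set is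
`MS.of_cover` (`j + 1 ≤ 4 bb u + 4` by `lo`, `lt_nn`).  Off it, split `∑_{i<B} g i` (enlarge `B` to `≥ bb u`) into `i < j` (`≤ θ/32`, `sum_inv_mm_le`), `j ≤ i < a u` (`h.small`, `≤ 4η`), the window (`≤ η`),
`i ≥ bb u` (`WW_ac_le`, `sum_inv_mm`, `h.big`: `≤ η`).  Finally `κ = j + 6` (`(1/2)^(j+6) = η`), `budget`, `MS.mono`.  Atoms act on at most one `x u`.
-/

set_option autoImplicit false

namespace Crest.Agent.R114

open Finsupp Finset

variable {Ω : Type} [LinearOrder Ω] {R : Rho Ω} {𝕜 : Type} [RCLike 𝕜]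
  {b : ℕ → Ω →₀ 𝕜} {j : ℕ} {x : ℕ → Ω →₀ 𝕜} {a bb : ℕ → ℕ} {w₀ : ℕ → Fn Ω}

namespace YI

lemma card_le_of_no_chain (n : ℕ) (S : Set ℕ)
    (h : ∀ f : Fin (n + 1) → ℕ, StrictMono f → ¬ ∀ i, f i ∈ S) :
    ∃ T : Finset ℕ, T.card ≤ n ∧ ∀ u ∈ S, u ∈ T := by
  have key : ∀ T : Finset ℕ, (T : Set ℕ) ⊆ S → T.card ≠ n + 1 := fun T hT hc =>
    h (T.orderEmbOfFin hc) (T.orderEmbOfFin hc).strictMono fun i => hT (T.orderEmbOfFin_mem hc i)
  have hfin : S.Finite := by
    by_contra hinf
    obtain ⟨T, hT, hc⟩ := Set.Infinite.exists_subset_card_eq hinf (n + 1)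
    exact key T hT hc
  refine ⟨hfin.toFinset, ?_, fun u hu => hfin.mem_toFinset.2 hu⟩
  by_contra hlt
  obtain ⟨T, hT, hc⟩ := Finset.exists_subset_card_eq (s := hfin.toFinset) (n := n + 1) (by omega)
  exact key T (fun u hu => hfin.mem_toFinset.1 (hT hu)) hc

lemma bb_ge (h : RIS R b j x a bb w₀) (u : ℕ) : nn j + u ≤ bb u := (h.lo u).trans (h.ab u)

lemma a_mono (h : RIS R b j x a bb w₀) : Monotone a :=
  monotone_nat_of_le_succ fun l => (h.ab l).trans (h.ba l)

lemma bb_mono (h : RIS R b j x a bb w₀) : Monotone bb :=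
  monotone_nat_of_le_succ fun l => (h.ba l).trans (h.ab _)

end YI

theorem in_window (h : RIS R b j x a bb w₀) (hF : Few R x a bb (1 / mm j)) {w : Fn Ω}
    (hw : Lab R (WW R) 0 w) :
    ∃ (g : ℕ → Fn Ω) (B : ℕ), (∀ i, (i, g i) ∈ WW R) ∧ (∀ i, B ≤ i → g i = 0) ∧
      w = ∑ i ∈ range B, g i ∧ ∃ F, MS bb 1 F ∧ ∀ u, u ∉ F →
        ‖ac (∑ i ∈ Ico (a u) (bb u), g i : Fn Ω) (x u)‖ ≤ 1 / mm j := by
  classical
  obtain ⟨l', r, k, s, ε, E, g, B, -, hr, hE, hsp, hε, hg, hg0, hgB, hwB, hwin, -⟩ := hw.decomp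
  refine ⟨g, B, hg, hgB, hwB, ?_⟩
  have hex : ∃ u, l' < bb u := ⟨l' + 1, by have := YI.bb_ge h (l' + 1); omega⟩
  obtain ⟨u₀, hu₀, hmin⟩ : ∃ u₀, l' < bb u₀ ∧ ∀ u < u₀, bb u ≤ l' :=
    ⟨Nat.find hex, Nat.find_spec hex, fun u hu => not_lt.1 (Nat.find_min hex hu)⟩
  obtain ⟨Tc, hTc, hTc'⟩ := YI.card_le_of_no_chain 2
    {u | (∃ γ ∈ (x u).support, γ ∈ E) ∧ ∃ γ ∈ (x u).support, γ ∉ E} (by
      intro f hf hS
      obtain ⟨⟨γ₀, h0, h0'⟩, -⟩ := hS 0
      obtain ⟨-, γ₁, h1, h1'⟩ := hS 1
      obtain ⟨⟨γ₂, h2, h2'⟩, -⟩ := hS 2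
      exact h1' (hE.out h0' h2' ⟨(h.chain _ _ (hf (by decide)) _ h0 _ h1).le,
        (h.chain _ _ (hf (by decide)) _ h1 _ h2).le⟩))
  have hTh : ∀ c, ∃ T : Finset ℕ, T.card ≤ 3 ∧ (c < r → ∀ u, u₀ < u →
      Hit x a bb (1 / mm j / bb u₀) (k c) (s c) u → u ∈ T) := by
    intro c
    by_cases hc : c < r
    · obtain ⟨T, hT, hT'⟩ := YI.card_le_of_no_chain 3
        {u | u₀ < u ∧ Hit x a bb (1 / mm j / bb u₀) (k c) (s c) u} fun f hf hS =>
          hF u₀ (f 0) (f 1) (f 2) (f 3) (hS 0).1 (hf (by decide)) (hf (by decide)) (hf (by decide))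
            (k c) (s c) (hsp c hc) ⟨(hS 0).2, (hS 1).2, (hS 2).2, (hS 3).2⟩
      exact ⟨T, hT, fun _ u h1 h2 => hT' u ⟨h1, h2⟩⟩
    · exact ⟨∅, by simp, fun h => absurd h hc⟩
  choose Th hTh1 hTh2 using hTh
  refine ⟨(insert u₀ ((Tc ∪ (range r).biUnion Th).filter (u₀ ≤ ·)) : Finset ℕ),
    MS.of_card 0 _ fun u hu => ?_, fun u hu => ?_⟩
  · have h1 : u₀ ≤ u := by
      rcases Finset.mem_insert.1 hu with rfl | hu
      · exact le_rfl
      · exact (Finset.mem_filter.1 hu).2
    have h2 := YI.bb_mono h h1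
    have h3 : ((range r).biUnion Th).card ≤ r * 3 := by
      simpa using Finset.card_biUnion_le_card_mul (range r) Th 3 fun c _ => hTh1 c
    have h4 := Finset.card_insert_le u₀ ((Tc ∪ (range r).biUnion Th).filter (u₀ ≤ ·))
    have h5 := Finset.card_filter_le (Tc ∪ (range r).biUnion Th) (u₀ ≤ ·)
    have h6 := Finset.card_union_le Tc ((range r).biUnion Th)
    omega
  · have hη : (0 : ℝ) < 1 / mm j := one_div_pos.2 (mm_pos j)
    simp only [Finset.coe_insert, Set.mem_insert_iff, Finset.mem_coe, Finset.mem_filter,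
      Finset.mem_union, Finset.mem_biUnion, Finset.mem_range, not_or, not_and] at hu
    obtain ⟨hu1, hu2⟩ := hu
    rcases lt_or_gt_of_ne hu1 with hlt | hlt
    · rw [Finset.sum_eq_zero fun i hi => hg0 i ((Finset.mem_Ico.1 hi).2.trans_le (hmin u hlt)),
        ac_zero, norm_zero]
      exact hη.le
    · have hla : l' ≤ a u := by
        have := (h.ba u₀).trans (YI.a_mono h hlt)
        omega
      rw [hwin _ _ hla, ac_res]
      by_cases h1 : ∃ γ ∈ (x u).support, γ ∈ E
      · have h2 : ∀ γ ∈ (x u).support, γ ∈ E := by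
          by_contra hn
          push Not at hn
          exact hu2 (Or.inl (hTc' u ⟨h1, hn⟩)) hlt.le
        have hb0 : (0 : ℝ) < bb u₀ := by exact_mod_cast (show 0 < bb u₀ by omega)
        rw [res_eq_self h2, ac_sum]
        calc _ ≤ ∑ c ∈ range r, 1 / mm j / (bb u₀ : ℝ) := by
              refine norm_sum_le_of_le _ fun c hc => ?_
              have hc' := Finset.mem_range.1 hc
              have h3 : ¬ Hit x a bb (1 / mm j / bb u₀) (k c) (s c) u := fun hH =>
                hu2 (Or.inr ⟨c, hc', hTh2 c hc' u hlt hH⟩) hlt.le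
              rw [ac_smul, norm_mul]
              have h4 : ‖((ε c : ℚ) : 𝕜)‖ = 1 := by rcases hε c hc' with h' | h' <;> simp [h']
              rw [h4, one_mul]
              exact not_lt.1 h3
          _ = r / (bb u₀ : ℝ) * (1 / mm j) := by
              rw [Finset.sum_const, Finset.card_range, nsmul_eq_mul]; ring
          _ ≤ 1 * (1 / mm j) := by
              gcongr
              rw [div_le_one hb0]
              exact_mod_cast (show r ≤ bb u₀ by omega)
          _ = _ := one_mul _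
      · push Not at h1
        rw [res_eq_zero h1, map_zero, norm_zero]
        exact hη.le

theorem basic_ineq (hj : 1 ≤ j) (h : RIS R b j x a bb w₀) (hF : Few R x a bb (1 / mm j))
    {w : Fn Ω} (hw : w ∈ W R) : Exc bb x (nn j - 1) (8 / mm j) w := by
  classical
  have hη : (0 : ℝ) < 1 / mm j := one_div_pos.2 (mm_pos j)
  have hjn := lt_nn j
  have ind : ∀ κ : ℕ, ∀ w, Lab R (WW R) 0 w →
      Exc bb x (κ * (nn (j - 1) + 2)) ((1 / 2) ^ κ + 7 * (1 / mm j)) w := by
    intro κ
    induction κ with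
    | zero =>
      intro w hw
      refine ⟨∅, MS.empty _ _, fun u _ => ?_⟩
      have := (ac_le_nrm hw.mem_W (x u)).trans (h.nrm_le u)
      rw [pow_zero]
      linarith
    | succ κ ih =>
      intro w hw
      obtain ⟨θ, hθ⟩ : ∃ θ : ℝ, θ = (1 / 2) ^ κ + 7 * (1 / mm j) := ⟨_, rfl⟩
      have hp : (0 : ℝ) < (1 / 2) ^ κ := by positivity
      have hθ0 : 0 ≤ θ := by rw [hθ]; positivity
      rw [← hθ] at ih
      obtain ⟨g, B, hg, hgB, hwB, Fw, hFw, hFw'⟩ := in_window h hF hw
      have big : ∀ u l, bb u ≤ l → 2 * l1 (x u) / mm l ≤ 1 / mm j := by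
        intro u l hl
        have h1 := l1_nonneg (x u)
        calc 2 * l1 (x u) / mm l = 2 * l1 (x u) * (1 / mm l) := by ring
          _ ≤ 2 * l1 (x u) * (1 / mm (bb u)) := by
            have := inv_mm_anti hl
            gcongr
          _ = 2 * l1 (x u) / mm (bb u) := by ring
          _ ≤ 1 / mm j := (h.big u).trans (inv_mm_anti (Nat.le_add_right j u))
      have hex : ∀ i, ∃ F, MS bb (κ * (nn (j - 1) + 2) + nn (j - 1) + 1) F ∧
          (i < j → ∀ u, u ∉ F → ‖ac (g i) (x u)‖ ≤ θ / mm i) := by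
        intro i
        by_cases hi : i < j
        · have h1 : nn i ≤ nn (j - 1) := nn_mono (by omega)
          obtain ⟨F, hF1, hF2⟩ := exc_wt h.chain hθ0 ih (D := nn (j - 1))
            (fun u d l w' _ hl hG => (hG.ac_le (x u)).trans ((big u l hl).trans (by linarith))) h1
            (fun u => by
              have := nn_mono hi.le
              have := YI.bb_ge h u
              omega) (hg i)
          exact ⟨F, hF1.mono (by omega), fun _ => hF2⟩
        · exact ⟨∅, MS.empty _ _, fun h => absurd h hi⟩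
      choose F hF1 hF2 using hex
      refine ⟨{u | ∃ i ∈ range (j + 1), u ∈ (if i < j then F i else Fw)}, ?_, fun u hu => ?_⟩
      · rw [show (κ + 1) * (nn (j - 1) + 2) = κ * (nn (j - 1) + 2) + nn (j - 1) + 1 + 1 by ring]
        refine MS.of_cover (range (j + 1)) (fun i => if i < j then F i else Fw) (fun i _ => ?_)
          (fun u hu => hu) fun u _ => ?_
        · split_ifs
          exacts [hF1 i, hFw.mono (by omega)]
        · have := YI.bb_ge h u
          rw [Finset.card_range]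
          omega
      · simp only [Set.mem_ofPred_eq, not_exists, not_and, Finset.mem_range] at hu
        have hja : j ≤ a u := by have := h.lo u; omega
        have e : w = ∑ i ∈ Ico 0 j, g i + ∑ i ∈ Ico j (a u), g i + ∑ i ∈ Ico (a u) (bb u), g i +
            ∑ i ∈ Ico (bb u) (max B (bb u)), g i := by
          rw [Finset.sum_Ico_consecutive _ (Nat.zero_le j) hja,
            Finset.sum_Ico_consecutive _ (Nat.zero_le _) (h.ab u),
            Finset.sum_Ico_consecutive _ (Nat.zero_le _) (le_max_right _ _), hwB,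
            Finset.range_eq_Ico]
          refine Finset.sum_subset (Finset.Ico_subset_Ico le_rfl (le_max_left _ _)) fun i _ hi => ?_
          exact hgB i (by simpa using hi)
        have t1 : ‖ac (∑ i ∈ Ico 0 j, g i : Fn Ω) (x u)‖ ≤ θ * (1 / 32) := by
          rw [ac_sum]
          refine le_trans (norm_sum_le_of_le (n := fun i => θ * (1 / mm i)) _ fun i hi => ?_) ?_
          · have hi' := (Finset.mem_Ico.1 hi).2
            have := hu i (by omega)
            rw [if_pos hi'] at this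
            rw [mul_one_div]
            exact hF2 i hi' u this
          · rw [← Finset.mul_sum]
            exact mul_le_mul_of_nonneg_left (sum_inv_mm_le _) hθ0
        have t2 : ‖ac (∑ i ∈ Ico j (a u), g i : Fn Ω) (x u)‖ ≤ 2 * (2 / mm j) := by
          rw [ac_sum]
          refine le_trans (norm_sum_le_of_le (n := fun i => 2 * (1 / mm i)) _ fun i hi => ?_) ?_
          · rw [mul_one_div]
            exact h.small u i (Finset.mem_Ico.1 hi).2 _ (hg i)
          · rw [← Finset.mul_sum]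
            exact mul_le_mul_of_nonneg_left (sum_inv_mm _ j fun i hi => (Finset.mem_Ico.1 hi).1)
              zero_le_two
        have t3 := hFw' u (by
          have := hu j (by omega)
          rwa [if_neg (lt_irrefl j)] at this)
        have t4 : ‖ac (∑ i ∈ Ico (bb u) (max B (bb u)), g i : Fn Ω) (x u)‖ ≤ 1 / mm j := by
          rw [ac_sum]
          refine le_trans (norm_sum_le_of_le (n := fun i => l1 (x u) * (1 / mm i)) _
            fun i _ => ?_) ?_
          · rw [mul_one_div]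
            exact WW_ac_le (hg i) (x u)
          · rw [← Finset.mul_sum]
            refine (mul_le_mul_of_nonneg_left (sum_inv_mm _ (bb u)
              fun i hi => (Finset.mem_Ico.1 hi).1) (l1_nonneg _)).trans ?_
            exact le_trans (le_of_eq (by ring)) (big u _ le_rfl)
        rw [e, ac_add, ac_add, ac_add]
        refine norm_add₄_le.trans ?_
        have t5 : (2 : ℝ) / mm j = 2 * (1 / mm j) := by ring
        rw [pow_succ]
        linarith
  rcases hw with ⟨β, hβ⟩ | hw
  · refine ⟨{u | β ∈ (x u).support}, MS.mono (e := 0) ?_ (Nat.zero_le _), fun u hu => ?_⟩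
    · exact fun u hu v hv =>
        h.chain.eq_of_mem (mem_hull_of_mem_support hu) (mem_hull_of_mem_support hv)
    · have h0 : x u β = 0 := Finsupp.notMem_support_iff.1 hu
      have : ac w (x u) = 0 := by rcases hβ with rfl | rfl <;> rw [ac_single_left, h0, mul_zero]
      rw [this, norm_zero]
      exact (div_pos (by norm_num) (mm_pos j)).le
  · obtain ⟨F, hF1, hF2⟩ := ind (j + 6) w hw
    refine ⟨F, hF1.mono (budget hj), fun u hu => (hF2 u hu).trans (le_of_eq ?_)⟩
    rw [one_div_pow, ← mm_cast]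
    ring

end Crest.Agent.R114
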