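import Crest.Agent.R114.YKonigA

/-!
# Task R114-YKonigB (under `H0` a subsequence is hit at most three times)

`not_H0_of_hits`.  Let `K` with `4 / mm K ≤ ε/4`.  For large `m` with `Hit`: `ac (TT t 0) (x m) = ac (seg 0 k t) (x m) = ∑_{i<k} ac (t i).2 (x m)` (`Br.ac_TT`, `k ≥ bb m`).
Split by the weight: `< K`: these `i` are `< K` and `x m` vanishes on their supports for `m` large (`Chain.exists_tail_zero` for `b`, `h.mem`);
`K ≤ · < a m`: `h.small` and `sum_inv_mm` on the (injective) image of weights, total `≤ 4 / mm K`; window: `win (a m) (bb m) k t = win (a m) (bb m) (bb m) t` (`Sp.le_weight`);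
`≥ bb m`: `WW_ac_le`, total `≤ 2 l1 (x m) / mm (bb m) ≤ 1 / mm (j + m) ≤ ε/4`.  So `‖ac (TT t 0) (x m)‖ ≥ ε/2` for arbitrarily large `m`; `H0` with `ε/2` fails.
`exists_few`.  By `exists_branch` and `not_H0_of_hits`: `∀ ε > 0, ∃ M, ∀ m ≥ M, ∀ m' > m, ∀ m'' > m', ∀ᶠ n in hyperfilter, ¬ ∃ k s, …` (`Ultrafilter.eventually_not`).
Build `φ` recursively (history = list/finset of earlier values): `φ u` larger than the earlier values, `≥ M (η / bb (φ u₀))` for all `u₀ < u`, and in the `U`-large sets for all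
earlier triples and all `ε = η / bb (φ u₀)` (finite intersection; `Nat.hyperfilter_le_atTop`/`hyperfilter_le_cofinite`).  `bb _ > 0` from `h.lo`, `h.ab`, `nn_pos`.
-/

set_option autoImplicit false

namespace Crest.Agent.R114

open Finsupp Finset Filter

variable {Ω : Type} [LinearOrder Ω] {R : Rho Ω} {𝕜 : Type} [RCLike 𝕜]
  {b : ℕ → Ω →₀ 𝕜} {j : ℕ} {x : ℕ → Ω →₀ 𝕜} {a bb : ℕ → ℕ} {w : ℕ → Fn Ω}

namespace KB

lemma sum_wt {A : Set (ℕ × Fn Ω)} {k : ℕ} {s : Sq Ω} (h : Sp R A k s) (l : ℕ) :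
    ∑ i ∈ range k, (if l ≤ (s i).1 then (1 : ℝ) / mm (s i).1 else 0) ≤ 2 / mm l := by
  rw [← Finset.sum_filter]
  have inj : Set.InjOn (fun i => (s i).1) ((range k).filter fun i => l ≤ (s i).1 : Finset ℕ) := by
    intro i hi i' hi' he
    have h1 := Finset.mem_range.1 (Finset.mem_filter.1 (Finset.mem_coe.1 hi)).1
    have h2 := Finset.mem_range.1 (Finset.mem_filter.1 (Finset.mem_coe.1 hi')).1
    rcases lt_trichotomy i i' with h' | h' | h'
    · exact absurd he (h.lt h' h2).ne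
    · exact h'
    · exact absurd he (h.lt h' h1).ne'
  rw [← Finset.sum_image (f := fun w => (1 : ℝ) / mm w) inj]
  refine sum_inv_mm _ l fun w hw => ?_
  obtain ⟨i, hi, rfl⟩ := Finset.mem_image.1 hw
  exact (Finset.mem_filter.1 hi).2

end KB

theorem RIS.sub (h : RIS R b j x a bb w) {φ : ℕ → ℕ} (hφ : StrictMono φ) :
    RIS R b j (fun u => x (φ u)) (fun u => a (φ u)) (fun u => bb (φ u)) (fun u => w (φ u)) := by
  have hle : ∀ l, l ≤ φ l := fun l => hφ.le_apply
  refine ⟨fun l => tailSp_anti b (hle l) (h.mem _), h.chain.comp hφ, fun l => h.nrm_le _,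
    fun l => h.small _, fun l => (h.big _).trans (inv_mm_anti (by have := hle l; omega)),
    fun l => h.ab _, fun l => KA.bb_le_a h (hφ (Nat.lt_succ_self l)),
    fun l => le_trans (by have := hle l; omega) (h.lo (φ l)), fun l p hp => ?_, fun l => h.lab _,
    fun l => h.within _, fun l => h.val _⟩
  obtain ⟨ζ, hζ⟩ := h.rho (φ l) p ((KA.a_mono h (hφ (Nat.lt_succ_self l))).trans hp)
  exact ⟨ζ, fun l' hl' => hζ _ (hφ.monotone hl')⟩

theorem not_H0_of_hits (hb : Chain b) (h : RIS R b j x a bb w) {ε : ℝ} (hε : 0 < ε) {t : Sq Ω}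
    (ht : Br R t) (hl : Low b t) (hh : ∀ M, ∃ m, M ≤ m ∧ Hit x a bb ε (bb m) t m) : ¬ H0 R b := by
  classical
  intro h0
  obtain ⟨n, hn⟩ := h0 t ht hl (ε / 2) (by positivity)
  obtain ⟨K, hK⟩ := exists_div_mm_le 4 (ε / 4) (by positivity)
  obtain ⟨t₁, ht₁⟩ := exists_div_mm_le 1 (ε / 4) (by positivity)
  obtain ⟨n₁, hn₁⟩ := hb.exists_tail_zero ((range K).biUnion fun i => (t i).2.support)
  obtain ⟨m, hm, hH⟩ := hh (n + n₁ + t₁)
  obtain ⟨k₀, hk₀⟩ := ht.ac_TT (x m)
  obtain ⟨k, hk1, hk2⟩ : ∃ k, k₀ ≤ k ∧ bb m ≤ k := ⟨_, le_max_left _ _, le_max_right _ _⟩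
  have e0 := hn (x m) (tailSp_anti b (by omega) (h.mem m)) (h.nrm_le m)
  rw [hk₀ k hk1 0] at e0
  have hsp := ht k
  obtain ⟨P, hP⟩ : ∃ P : ℕ → Prop, ∀ i, P i ↔ a m ≤ (t i).1 ∧ (t i).1 < bb m := ⟨_, fun _ => Iff.rfl⟩
  have e1 : ac (seg 0 k t) (x m) = ∑ i ∈ range k, ac (t i).2 (x m) := by
    rw [seg, ac_sum, Finset.filter_true_of_mem fun _ _ => Nat.zero_le _]
  have e2 : ac (win (a m) (bb m) (bb m) t) (x m) =
      ∑ i ∈ (range k).filter P, ac (t i).2 (x m) := by
    rw [win, ac_sum]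
    refine Finset.sum_congr ?_ fun _ _ => rfl
    ext i
    simp only [Finset.mem_filter, Finset.mem_range, hP]
    constructor
    · rintro ⟨h1, h2⟩
      exact ⟨by omega, h2⟩
    · rintro ⟨h1, h2⟩
      exact ⟨(hsp.le_weight h1).trans_lt h2.2, h2⟩
  have e3 : ‖∑ i ∈ (range k).filter (fun i => ¬ P i), ac (t i).2 (x m)‖ ≤ ε / 2 := by
    have hl1 := l1_nonneg (x m)
    calc _ ≤ ∑ i ∈ (range k).filter (fun i => ¬ P i),
          (2 * (if K ≤ (t i).1 then (1 : ℝ) / mm (t i).1 else 0) +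
            l1 (x m) * (if bb m ≤ (t i).1 then (1 : ℝ) / mm (t i).1 else 0)) := by
          refine norm_sum_le_of_le _ fun i hi => ?_
          obtain ⟨hi1, hi2⟩ := Finset.mem_filter.1 hi
          have hik := Finset.mem_range.1 hi1
          have hW : ((t i).1, (t i).2) ∈ WW R := hsp.1 i hik
          have hp := mm_pos (t i).1
          by_cases c1 : bb m ≤ (t i).1
          · rw [if_pos c1, mul_one_div]
            refine (WW_ac_le hW (x m)).trans (le_add_of_nonneg_left ?_)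
            split_ifs <;> positivity
          · rw [if_neg c1, mul_zero, add_zero]
            by_cases c2 : K ≤ (t i).1
            · rw [if_pos c2, mul_one_div]
              refine h.small m _ ?_ _ hW
              rw [hP] at hi2
              omega
            · rw [if_neg c2, mul_zero]
              refine le_of_eq (norm_eq_zero.2 ?_)
              rw [ac_apply]
              refine Finset.sum_eq_zero fun γ hγ => ?_
              by_cases hγ' : γ ∈ (t i).2.support
              · rw [hn₁ (x m) (tailSp_anti b (by omega) (h.mem m)) γ (Finset.mem_biUnion.2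
                  ⟨i, Finset.mem_range.2 (by have := hsp.le_weight hik; omega), hγ'⟩), zero_mul]
              · rw [Finsupp.notMem_support_iff.1 hγ', Rat.cast_zero, mul_zero]
      _ ≤ ∑ i ∈ range k, (2 * (if K ≤ (t i).1 then (1 : ℝ) / mm (t i).1 else 0) +
            l1 (x m) * (if bb m ≤ (t i).1 then (1 : ℝ) / mm (t i).1 else 0)) := by
          refine Finset.sum_le_sum_of_subset_of_nonneg (Finset.filter_subset _ _) fun i _ _ => ?_
          have hp := mm_pos (t i).1
          split_ifs <;> positivity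
      _ ≤ 2 * (2 / mm K) + l1 (x m) * (2 / mm (bb m)) := by
          rw [Finset.sum_add_distrib, ← Finset.mul_sum, ← Finset.mul_sum]
          gcongr
          exacts [KB.sum_wt hsp K, KB.sum_wt hsp (bb m)]
      _ ≤ ε / 4 + ε / 4 := by
          refine add_le_add (le_trans (le_of_eq (by ring)) (hK K le_rfl)) ?_
          exact le_trans (le_of_eq (by ring)) ((h.big m).trans (ht₁ _ (by omega)))
      _ = ε / 2 := by ring
  rw [Hit, e2] at hH
  rw [e1, ← Finset.sum_filter_add_sum_filter_not (range k) P] at e0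
  have e4 := norm_sub_le ((∑ i ∈ (range k).filter P, ac (t i).2 (x m)) +
    ∑ i ∈ (range k).filter (fun i => ¬ P i), ac (t i).2 (x m))
    (∑ i ∈ (range k).filter (fun i => ¬ P i), ac (t i).2 (x m))
  rw [add_sub_cancel_right] at e4
  linarith

theorem exists_few (hb : Chain b) (h : RIS R b j x a bb w) (h0 : H0 R b) {η : ℝ} (hη : 0 < η) :
    ∃ φ : ℕ → ℕ, StrictMono φ ∧
      Few R (fun u => x (φ u)) (fun u => a (φ u)) (fun u => bb (φ u)) η := by
  classical
  obtain ⟨Bad, hBad⟩ : ∃ Bad : ℕ → ℕ → ℕ → ℕ → ℕ → Prop, ∀ v m m' m'' n, Bad v m m' m'' n ↔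
      ∃ k s, Sp R (WW R) k s ∧ Hit x a bb (η / bb v) k s m ∧ Hit x a bb (η / bb v) k s m' ∧
        Hit x a bb (η / bb v) k s m'' ∧ Hit x a bb (η / bb v) k s n :=
    ⟨_, fun _ _ _ _ _ => Iff.rfl⟩
  have key : ∀ v, ∃ M, ∀ m, M ≤ m → ∀ m' m'', m < m' → m' < m'' →
      ∀ᶠ n in (hyperfilter ℕ : Filter ℕ), ¬ Bad v m m' m'' n := by
    intro v
    have hpos : 0 < η / bb v := by
      have h1 := h.lo v
      have h2 := h.ab v
      have h3 := nn_pos j
      have : 0 < bb v := by omega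
      positivity
    by_contra hne
    push Not at hne
    obtain ⟨t, ht, hl, hh⟩ := exists_branch h hpos fun M => by
      obtain ⟨m, hm, m', m'', h1, h2, h3⟩ := hne M
      refine ⟨m, hm, m', m'', h1, h2, ?_⟩
      simpa only [hBad] using h3
    exact not_H0_of_hits hb h hpos ht hl hh h0
  choose M hM using key
  have st : ∀ S : Finset ℕ, ∃ n, (∀ v ∈ S, v < n ∧ M v ≤ n) ∧ ∀ v ∈ S, ∀ m ∈ S, ∀ m' ∈ S,
      ∀ m'' ∈ S, M v ≤ m → m < m' → m' < m'' → ¬ Bad v m m' m'' n := by
    intro S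
    refine (Eventually.and (f := (hyperfilter ℕ : Filter ℕ)) ?_ ?_).exists
    · refine (Filter.eventually_all_finset S).2 fun v _ => Nat.hyperfilter_le_atTop ?_
      exact (eventually_gt_atTop v).and (eventually_ge_atTop (M v))
    · refine (Filter.eventually_all_finset S).2 fun v _ => (Filter.eventually_all_finset S).2
        fun m _ => (Filter.eventually_all_finset S).2 fun m' _ =>
        (Filter.eventually_all_finset S).2 fun m'' _ => ?_
      by_cases hc : M v ≤ m ∧ m < m' ∧ m' < m''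
      · filter_upwards [hM v m hc.1 m' m'' hc.2.1 hc.2.2] with n hn _ _ _ using hn
      · exact Eventually.of_forall fun n h1 h2 h3 => absurd ⟨h1, h2, h3⟩ hc
  choose nx hnx1 hnx2 using st
  let S : ℕ → Finset ℕ := fun u => Nat.rec ∅ (fun _ T => insert (nx T) T) u
  have hS : ∀ u v, v < u → nx (S v) ∈ S u := by
    intro u v hv
    induction u with
    | zero => omega
    | succ u ih =>
      rcases Nat.lt_succ_iff_lt_or_eq.1 hv with h' | rfl
      · exact Finset.mem_insert_of_mem (ih h')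
      · exact Finset.mem_insert_self _ _
  have hφ : StrictMono fun u => nx (S u) := fun v u hv => (hnx1 _ _ (hS u v hv)).1
  refine ⟨fun u => nx (S u), hφ, fun u₀ u₁ u₂ u₃ u₄ h1 h2 h3 h4 k s hs hh => ?_⟩
  exact hnx2 (S u₄) _ (hS u₄ u₀ (by omega)) _ (hS u₄ u₁ (by omega)) _ (hS u₄ u₂ (by omega)) _
    (hS u₄ u₃ h4) (hnx1 _ _ (hS u₁ u₀ h1)).2 (hφ h2) (hφ h3) ((hBad _ _ _ _ _).2 ⟨k, s, hs, hh⟩)

end Crest.Agent.R114
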