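import Crest.Agent.R114.YStage2
import Crest.Agent.R114.YKonigB
import Crest.Agent.R114.YIneq

/-!
# Task R114-YG (exact pairs, refutation of `H0`)

`exact_pair`.  `exists_RIS`, `exists_few` (`η = 1/mm j`), `RIS.sub`; `averaging` with `t = bb`, `lam = a`, `e = 0`, `d = nn j - 1`, `ε = η`, `l = 0` (`Chain w` from `within`).
`y = ∑ a u • x u`, `nrm y ≤ 9η` (`nrm_le`, `basic_ineq`, on the exceptional set `‖ac w (x u)‖ ≤ 1`), `f = (mm j)⁻¹ • ∑_{S} w u` (`Grp.mem_WW`), `re (ac f y) ≥ η/4`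
(`ac (w u) (x v) = 0` for `u ≠ v`).  Divide `y` by `9η`; replace `f` by `res (hull y) f`.
`not_H0`.  `Chain.exists_chain_dep` with `A = (Ω →₀ 𝕜) × ℕ × Fn Ω` (`y, j, f`): for the empty history `j = 1`; for a nonempty history `l` with last weight `j'` choose `ζ, p₀`
(`Rho.exists_cover` for the union of the supports of the `f`'s), `p = max p₀ j'`, `j = sig p (l.map fun q => (q.2.1, q.2.2.mapDomain (R.pos p)))` (`≥ 1`).
`s i = (j_i, f_i)` is a branch (`Succ.of_support_subset`), `Low` (`hull`, `tailSp_support`), `ac (TT s 0) (y i) = ac (f i) (y i)` (`Br.ac_TT`), norm `≥ 1/36`; `H0` with `ε = 1/36` fails.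
-/

set_option autoImplicit false

namespace Crest.Agent.R114

open Finsupp Finset

variable {Ω : Type} [LinearOrder Ω] {R : Rho Ω} {𝕜 : Type} [RCLike 𝕜]

namespace YG

lemma off {x : ℕ → Ω →₀ 𝕜} (hx : Chain x) {w : ℕ → Fn Ω} (hh : ∀ u, ∀ γ ∈ (w u).support, γ ∈ hull (x u))
    {S : Finset ℕ} {u : ℕ} (hu : u ∈ S) : ac (∑ v ∈ S, w v : Fn Ω) (x u) = ac (w u) (x u) := by
  rw [ac_sum]
  refine Finset.sum_eq_single_of_mem u hu fun v _ hv => ac_eq_zero_of_succ ?_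
  rcases lt_or_gt_of_ne hv with h' | h'
  · exact .inl ((hx v u h').of_support_subset (hh v) fun _ => mem_hull_of_mem_support)
  · exact .inr ((hx u v h').of_support_subset (fun _ => mem_hull_of_mem_support) (hh v))

end YG

theorem exact_pair {b : ℕ → Ω →₀ 𝕜} (hb : Chain b) (hne : ∀ k, b k ≠ 0) (h0 : H0 R b) {j : ℕ}
    (hj : 1 ≤ j) (n : ℕ) : ∃ y ∈ tailSp b n, ∃ f : Fn Ω, (j, f) ∈ WW R ∧ nrm R y ≤ 1 ∧
      (∀ γ ∈ f.support, γ ∈ hull y) ∧ 1 / 36 ≤ ‖ac f y‖ := by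
  classical
  have hm := mm_pos j
  obtain ⟨x, a, bb, w, h, hF⟩ : ∃ x a bb w, RIS R b j x a bb w ∧ Few R x a bb (1 / mm j) := by
    obtain ⟨x, a, bb, w, h⟩ := exists_RIS (R := R) hb hne j
    obtain ⟨φ, hφ, hF⟩ := exists_few hb h h0 (one_div_pos.2 hm)
    exact ⟨_, _, _, _, h.sub hφ, hF⟩
  obtain ⟨S, c, hS, hc, hsum, hmass, hG⟩ := averaging bb a
    (Filter.tendsto_atTop_mono (fun l => (Nat.le_add_left l _).trans (h.lo l)) Filter.tendsto_id) w
    (fun u v huv => (h.chain u v huv).of_support_subset (h.within u) (h.within v)) 0 h.lab (nn j - 1)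
    (1 / mm j) (one_div_pos.2 hm) 0 n
  have h1 : nrm R (∑ u ∈ S, (c u : 𝕜) • x u) ≤ 9 / mm j := by
    refine nrm_le fun g hg => ?_
    obtain ⟨F, hF1, hF2⟩ := basic_ineq hj h hF hg
    have h2 := hmass F hF1
    rw [mass, Finset.sum_filter] at h2
    rw [map_sum]
    calc _ ≤ ∑ u ∈ S, ((if u ∈ F then c u else 0) + c u * (8 / mm j)) := by
          refine norm_sum_le_of_le _ fun u _ => ?_
          rw [map_smul, norm_smul, RCLike.norm_ofReal, abs_of_nonneg (hc u)]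
          split_ifs with hu
          · have := mul_le_mul_of_nonneg_left ((ac_le_nrm hg (x u)).trans (h.nrm_le u)) (hc u)
            have : 0 ≤ c u * (8 / mm j) := mul_nonneg (hc u) (by positivity)
            linarith
          · rw [zero_add]; exact mul_le_mul_of_nonneg_left (hF2 u hu) (hc u)
      _ ≤ 1 / mm j + 8 / mm j := by
          rw [Finset.sum_add_distrib, ← Finset.sum_mul, hsum, one_mul]
          exact add_le_add (by convert h2) le_rfl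
      _ = _ := by ring
  have h2 : 1 / 4 ≤ ‖ac (∑ u ∈ S, w u : Fn Ω) (∑ u ∈ S, (c u : 𝕜) • x u)‖ := by
    refine le_trans ?_ (RCLike.re_le_norm _)
    rw [map_sum, map_sum, show (1 / 4 : ℝ) = ∑ u ∈ S, c u * (1 / 4) by
      rw [← Finset.sum_mul, hsum, one_mul]]
    refine Finset.sum_le_sum fun u hu => ?_
    rw [map_smul, YG.off h.chain h.within hu, smul_eq_mul, RCLike.re_ofReal_mul]
    exact mul_le_mul_of_nonneg_left (h.val u) (hc u)
  have h3 : ‖((mm j / 9 : ℝ) : 𝕜)‖ = mm j / 9 := by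
    rw [RCLike.norm_ofReal, abs_of_pos (by positivity)]
  refine ⟨((mm j / 9 : ℝ) : 𝕜) • ∑ u ∈ S, (c u : 𝕜) • x u, Submodule.smul_mem _ _
    (Submodule.sum_mem _ fun u hu => Submodule.smul_mem _ _ (tailSp_anti b (hS u hu) (h.mem u))),
    res (hull _) (((mm j : ℚ))⁻¹ • ∑ u ∈ S, w u),
    WW_res (hG.mem_WW (by have := nn_pos j; omega)) (hull_ordConnected _), ?_,
    fun γ hγ => (mem_support_res.1 hγ).2, ?_⟩
  · rw [nrm_smul, h3]
    refine (mul_le_mul_of_nonneg_left h1 (by positivity)).trans (le_of_eq ?_)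
    field_simp
  · rw [ac_res_hull, ac_smul, map_smul, norm_mul, norm_smul, h3, norm_ratCast,
      abs_of_pos (inv_pos.2 (mm_pos_rat j)), ← mul_assoc, Rat.cast_inv, Rat.cast_natCast,
      show (mm j : ℝ)⁻¹ * (mm j / 9) = 1 / 9 by field_simp]
    linarith

theorem not_H0 {b : ℕ → Ω →₀ 𝕜} (hb : Chain b) (hne : ∀ k, b k ≠ 0) : ¬ H0 R b := by
  classical
  intro h0
  have : Nonempty Ω := ⟨(Finsupp.support_nonempty_iff.2 (hne 0)).choose⟩
  obtain ⟨z, h1, h2, h3⟩ := hb.exists_chain_dep (A := (Ω →₀ 𝕜) × ℕ × Fn Ω) Prod.fst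
    (fun L q => q.2 ∈ WW R ∧ nrm R q.1 ≤ 1 ∧ (∀ γ ∈ q.2.2.support, γ ∈ hull q.1) ∧
      1 / 36 ≤ ‖ac q.2.2 q.1‖ ∧ ∃ p ζ, (∀ q' ∈ L, q'.2.1 ≤ p ∧ q'.2.2.support ⊆ R.F p ζ) ∧
        q.2.1 = sig p (L.map fun q => (q.2.1, q.2.2.mapDomain (R.pos p)))) (fun L n => by
    obtain ⟨ζ, p₀, hp⟩ := R.exists_cover (L.toFinset.biUnion fun q => q.2.2.support)
    obtain ⟨p, hp1, hp2⟩ : ∃ p, p₀ ≤ p ∧ L.toFinset.sup (fun q => q.2.1) ≤ p :=
      ⟨_, le_max_left _ _, le_max_right _ _⟩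
    obtain ⟨y, hy, f, hf⟩ := exact_pair hb hne h0
      (Nat.succ_le_of_lt ((Nat.zero_le _).trans_lt
        (lt_sig p (L.map fun q => (q.2.1, q.2.2.mapDomain (R.pos p)))))) n
    exact ⟨(y, _, f), hy, hf.1, hf.2.1, hf.2.2.1, hf.2.2.2, p, ζ, fun q hq =>
      ⟨(Finset.le_sup (f := fun q : (Ω →₀ 𝕜) × ℕ × Fn Ω => q.2.1) (List.mem_toFinset.2 hq)).trans hp2,
        (Finset.subset_biUnion_of_mem (fun q : (Ω →₀ 𝕜) × ℕ × Fn Ω => q.2.2.support)
          (List.mem_toFinset.2 hq)).trans (hp p hp1)⟩, rfl⟩) 0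
  simp only [List.forall_mem_map, List.mem_range, List.map_map] at h3
  have hBr : Br R fun i => (z i).2 := fun k => ⟨fun i _ => (h3 i).1, fun i i' hi _ =>
    (h1 i i' hi).of_support_subset (h3 i).2.2.1 (h3 i').2.2.1, fun i _ => by
      obtain ⟨p, ζ, h4, h5⟩ := (h3 (i + 1)).2.2.2.2
      exact ⟨p, ζ, (h4 i (Nat.lt_succ_self i)).1, fun a ha => (h4 a (Nat.lt_succ_of_le ha)).2, h5⟩⟩
  obtain ⟨n, hn⟩ := h0 _ hBr (fun i γ hγ => by
    obtain ⟨-, β, hβ, h4⟩ := (h3 i).2.2.1 γ hγ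
    obtain ⟨k, -, hk⟩ := tailSp_support (h2 i) β hβ
    exact ⟨k, β, hk, h4⟩) (1 / 36) (by norm_num)
  have h4 := hn (z n).1 (by simpa using h2 n) (h3 n).2.1
  obtain ⟨k₀, hk₀⟩ := hBr.ac_TT (z n).1
  rw [hk₀ (k₀ + n + 1) (by omega) 0, seg, Finset.filter_true_of_mem fun _ _ => Nat.zero_le _,
    YG.off h1 (fun u => (h3 u).2.2.1) (Finset.mem_range.2 (by omega))] at h4
  exact h4.not_ge (h3 n).2.2.2.1

end Crest.Agent.R114
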