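import Crest.Agent.R114.YAvg
import Crest.Agent.R114.YDecomp

/-!
# Task R114-YGrp (exceptional sets of groups and weighted functionals; averages are RIS vectors)

`split_card`: `u` is *split* if two different children meet `supp (x u)`.  Map `u` to the smallest child index meeting it; the map is injective on
split indices (if `u < u'` had the same smallest child `c`, then `c` meets `x u'` at a point above `supp (x u)`, which contains a point of a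
later child).  So there is a finset of at most `r` indices outside which at most one child acts.
`exc_grp`: induction on `d`.  `w = ∑_{c<r} ch c`, `r ≤ l'+1`.  For `t u ≤ l'` use `hbig` for `w` itself (it is `Grp (d+1) l' w`).
`F = {u | l' < t u ∧ (u ∈ F_c for some c ∨ u split)}` is covered by `≤ 2r ≤ 2 t u` sets of order `e + d` (`MS.of_cover` over
`range r ⊕ splits`, `MS.singleton`).
`exc_wt`: same with the `r ≤ nn i ≤ t u` children; an atom acts on at most one `x u` (exceptional set a singleton).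
`avg_ris`: `exc_wt` with `e = 0`, `θ = 1` (`hleaf` with `F = ∅`), on the exceptional set `‖ac g (z u)‖ ≤ nrm ≤ 1` (`WW_mem_W`), so
`‖ac g x‖ ≤ 1/m_i + 1/m_J ≤ 2/m_i`.  Take `w ∈ W` with `3/8 < ‖ac w x‖`.  An atom is impossible (`‖x β‖ ≤ a u ≤ mass {u} ≤ 1/64`).
For `Lab` use `Lab.split` at `J` and `sum_inv_mm_le`.
-/

set_option autoImplicit false

namespace Crest.Agent.R114

open Finsupp Finset

variable {Ω : Type} [LinearOrder Ω] {R : Rho Ω} {𝕜 : Type} [RCLike 𝕜]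

lemma split_card {x : ℕ → Ω →₀ 𝕜} (hx : Chain x) (r : ℕ) (ch : ℕ → Fn Ω)
    (hs : ∀ c c', c < c' → c' < r → Succ (ch c) (ch c')) :
    ∃ P : Finset ℕ, P.card ≤ r ∧ ∀ u, u ∉ P →
      ac (∑ c ∈ range r, ch c : Fn Ω) (x u) = 0 ∨
        ∃ c < r, ac (∑ c ∈ range r, ch c : Fn Ω) (x u) = ac (ch c) (x u) := by
  classical
  let Sp : ℕ → ℕ → Prop := fun c u => (∃ γ ∈ (ch c).support, γ ∈ (x u).support) ∧
    ∃ c', c < c' ∧ c' < r ∧ ∃ γ ∈ (ch c').support, γ ∈ (x u).support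
  have huniq : ∀ c u u', Sp c u → Sp c u' → u = u' := by
    have key : ∀ c u u', u < u' → Sp c u → Sp c u' → False := by
      rintro c u u' huu ⟨-, c', h1, h2, γ, h3, h4⟩ ⟨⟨δ, h5, h6⟩, -⟩
      exact lt_asymm (hx u u' huu γ h4 δ h6) (hs c c' h1 h2 δ h5 γ h3)
    intro c u u' h h'
    rcases lt_trichotomy u u' with e | e | e
    exacts [(key c u u' e h h').elim, e, (key c u' u e h' h).elim]
  let f : ℕ → ℕ := fun c => if h : ∃ u, Sp c u then h.choose else 0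
  refine ⟨(range r).image f, card_image_le.trans (card_range r).le, fun u hu => ?_⟩
  have hns : ∀ c < r, ¬ Sp c u := by
    intro c hc h
    have he : ∃ u, Sp c u := ⟨u, h⟩
    refine hu (mem_image.2 ⟨c, mem_range.2 hc, ?_⟩)
    simp only [f, dif_pos he]
    exact huniq c _ _ he.choose_spec h
  have hz : ∀ c, (¬ ∃ γ ∈ (ch c).support, γ ∈ (x u).support) → ac (ch c) (x u) = 0 := by
    intro c h
    refine ac_eq_zero fun γ hγ => ?_
    by_contra hne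
    exact h ⟨γ, Finsupp.mem_support_iff.2 hne, hγ⟩
  rw [ac_sum]
  by_cases h : ∃ c < r, ∃ γ ∈ (ch c).support, γ ∈ (x u).support
  · obtain ⟨c, hc, hγ⟩ := h
    refine Or.inr ⟨c, hc, Finset.sum_eq_single_of_mem c (mem_range.2 hc) fun c' hc' hne => hz c' ?_⟩
    intro h'
    rcases lt_or_gt_of_ne hne with e | e
    · exact hns c' (mem_range.1 hc') ⟨h', c, e, hc, hγ⟩
    · exact hns c hc ⟨hγ, c', e, mem_range.1 hc', h'⟩
  · exact Or.inl (Finset.sum_eq_zero fun c hc => hz c fun h' => h ⟨c, mem_range.1 hc, h'⟩)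

/-- combining the exceptional sets of successive children -/
lemma exc_sum {x : ℕ → Ω →₀ 𝕜} (hx : Chain x) {t : ℕ → ℕ} {e : ℕ} {θ : ℝ} (hθ : 0 ≤ θ) (r : ℕ)
    (ch : ℕ → Fn Ω) (hs : ∀ c c', c < c' → c' < r → Succ (ch c) (ch c'))
    (hch : ∀ c < r, Exc t x e θ (ch c)) :
    ∃ F, MS t (e + 1) F ∧ ∀ u, r ≤ t u → u ∉ F → ‖ac (∑ c ∈ range r, ch c : Fn Ω) (x u)‖ ≤ θ := by
  classical
  obtain ⟨P, hP, hP'⟩ := split_card hx r ch hs
  choose! F hF hF' using hch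
  refine ⟨{u | r ≤ t u ∧ ((∃ c < r, u ∈ F c) ∨ u ∈ P)}, ?_, fun u hu hn => ?_⟩
  · refine MS.of_cover ((range r).disjSum P) (Sum.elim F fun u => {u}) ?_ ?_ ?_
    · rintro (c | u) hc
      · exact hF c (by simpa using hc)
      · exact MS.singleton t e u
    · rintro u ⟨-, ⟨c, hc, h⟩ | h⟩
      · exact ⟨Sum.inl c, by simpa using hc, h⟩
      · exact ⟨Sum.inr u, by simpa using h, rfl⟩
    · rintro u ⟨hu, -⟩
      rw [card_disjSum, card_range]
      omega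
  · have h1 : u ∉ P := fun h => hn ⟨hu, Or.inr h⟩
    rcases hP' u h1 with h | ⟨c, hc, h⟩
    · rw [h, norm_zero]; exact hθ
    · rw [h]; exact hF' c hc u fun h' => hn ⟨hu, Or.inl ⟨c, hc, h'⟩⟩

lemma Atom.exc {x : ℕ → Ω →₀ 𝕜} (hx : Chain x) (t : ℕ → ℕ) (e : ℕ) {θ : ℝ} (hθ : 0 ≤ θ)
    {w : Fn Ω} (hw : Atom w) : Exc t x e θ w := by
  obtain ⟨β, hβ⟩ := hw
  refine ⟨{u | β ∈ (x u).support}, MS.mono (e := 0) ?_ (Nat.zero_le _), fun u hu => ?_⟩
  · intro u hu v hv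
    exact hx.eq_of_mem (mem_hull_of_mem_support hu) (mem_hull_of_mem_support hv)
  · have h0 : x u β = 0 := Finsupp.notMem_support_iff.1 hu
    rcases hβ with rfl | rfl <;> rw [ac_single_left, h0, mul_zero, norm_zero] <;> exact hθ

theorem exc_grp {x : ℕ → Ω →₀ 𝕜} (hx : Chain x) {t : ℕ → ℕ} {e D : ℕ} {θ : ℝ} (hθ : 0 ≤ θ)
    (hleaf : ∀ w, Lab R (WW R) 0 w → Exc t x e θ w)
    (hbig : ∀ u d l w, d ≤ D → t u ≤ l → Grp R (WW R) d l w → ‖ac w (x u)‖ ≤ θ) :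
    ∀ d ≤ D, ∀ l w, Grp R (WW R) d l w → Exc t x (e + d) θ w := by
  intro d
  induction d with
  | zero => exact fun _ l w hw => hleaf w (Lab.anti hw (Nat.zero_le _))
  | succ d ih =>
    rintro hd l w ⟨l', r, ch, h1, h2, h3, h4, rfl⟩
    obtain ⟨F, hF, hF'⟩ := exc_sum hx hθ r ch h4 fun c hc => ih (by omega) l' _ (h3 c hc)
    refine ⟨F, hF, fun u hu => ?_⟩
    by_cases ht : t u ≤ l'
    · exact hbig u (d + 1) l' _ hd ht ⟨l', r, ch, le_rfl, h2, h3, h4, rfl⟩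
    · exact hF' u (by omega) hu

theorem exc_wt {x : ℕ → Ω →₀ 𝕜} (hx : Chain x) {t : ℕ → ℕ} {e D : ℕ} {θ : ℝ} (hθ : 0 ≤ θ)
    (hleaf : ∀ w, Lab R (WW R) 0 w → Exc t x e θ w)
    (hbig : ∀ u d l w, d ≤ D → t u ≤ l → Grp R (WW R) d l w → ‖ac w (x u)‖ ≤ θ)
    {i : ℕ} (hi : nn i ≤ D) (ht : ∀ u, nn i ≤ t u) {g : Fn Ω} (hg : (i, g) ∈ WW R) :
    Exc t x (e + nn i + 1) (θ / mm i) g := by
  obtain ⟨r, ch, h1, h2, h3, rfl⟩ := mem_WW.1 hg
  obtain ⟨F, hF, hF'⟩ := exc_sum hx (t := t) (e := e + nn i) hθ r ch h3 fun c hc =>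
    (h2 c hc).elim (fun h => h.exc hx t _ hθ) fun h => exc_grp hx hθ hleaf hbig _ hi 0 _ h
  refine ⟨F, hF, fun u hu => ?_⟩
  rw [ac_smul, norm_mul, norm_ratCast, abs_of_pos (inv_pos.2 (mm_pos_rat i)), div_eq_inv_mul,
    Rat.cast_inv, Rat.cast_natCast]
  exact mul_le_mul_of_nonneg_left (hF' u (h1.trans (ht u)) hu) (inv_pos.2 (mm_pos i)).le

omit [LinearOrder Ω] in
/-- an average is controlled by the bound off the exceptional set plus the mass of that set -/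
lemma norm_ac_avg_le {z : ℕ → Ω →₀ 𝕜} (S : Finset ℕ) (a : ℕ → ℝ) (ha : ∀ u, 0 ≤ a u)
    (hsum : ∑ u ∈ S, a u = 1) (g : Fn Ω) (F : Set ℕ) {θ : ℝ} (hθ : 0 ≤ θ)
    (h1 : ∀ u, ‖ac g (z u)‖ ≤ 1) (h2 : ∀ u, u ∉ F → ‖ac g (z u)‖ ≤ θ) :
    ‖ac g (∑ u ∈ S, (a u : 𝕜) • z u)‖ ≤ θ + mass S a F := by
  classical
  rw [map_sum]
  refine (norm_sum_le _ _).trans ?_
  have e1 : ∀ u ∈ S, ‖ac g ((a u : 𝕜) • z u)‖ ≤ a u * θ + if u ∈ F then a u else 0 := by
    intro u _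
    rw [map_smul, norm_smul, RCLike.norm_ofReal, abs_of_nonneg (ha u)]
    split_ifs with h
    · nlinarith [h1 u, ha u, mul_nonneg (ha u) hθ]
    · rw [add_zero]; exact mul_le_mul_of_nonneg_left (h2 u h) (ha u)
  refine (Finset.sum_le_sum e1).trans (le_of_eq ?_)
  rw [Finset.sum_add_distrib, ← Finset.sum_mul, hsum, one_mul, mass, Finset.sum_filter]

theorem avg_ris {z : ℕ → Ω →₀ 𝕜} (hz : Chain z) (hn : ∀ u, nrm R (z u) ≤ 1) {t : ℕ → ℕ} {J : ℕ}
    (ht : ∀ u, nn J ≤ t u)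
    (hbig : ∀ u d l w, d ≤ nn J → t u ≤ l → Grp R (WW R) d l w → ‖ac w (z u)‖ ≤ 1)
    (S : Finset ℕ) (a : ℕ → ℝ) (ha : ∀ u, 0 ≤ a u) (hsum : ∑ u ∈ S, a u = 1)
    (hm : ∀ F, MS t (nn J + 1) F → mass S a F ≤ 1 / mm J)
    (hx : 1 / 2 ≤ nrm R (∑ u ∈ S, (a u : 𝕜) • z u)) :
    RISvec R J (∑ u ∈ S, (a u : 𝕜) • z u) := by
  have hW : ∀ w ∈ W R, ∀ u, ‖ac w (z u)‖ ≤ 1 := fun w hw u => (ac_le_nrm hw _).trans (hn u)
  have hsmall : ∀ i < J, ∀ g, (i, g) ∈ WW R → ‖ac g (∑ u ∈ S, (a u : 𝕜) • z u)‖ ≤ 2 / mm i := by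
    intro i hi g hg
    obtain ⟨F, hF, hF'⟩ := exc_wt hz (t := t) (e := 0) (D := nn J) zero_le_one
      (fun w hw => ⟨∅, MS.empty _ _, fun u _ => hW w hw.mem_W u⟩) hbig (nn_mono hi.le)
      (fun u => (nn_mono hi.le).trans (ht u)) hg
    have e1 := norm_ac_avg_le S a ha hsum g F (one_div_pos.2 (mm_pos i)).le (hW g (WW_mem_W hg)) hF'
    have e2 := hm F (hF.mono (by have := nn_mono hi.le; omega))
    have e3 := inv_mm_anti hi.le
    have e4 : (2 : ℝ) / mm i = 1 / mm i + 1 / mm i := by ring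
    linarith
  refine ⟨?_, hsmall, ?_⟩
  · refine (nrm_sum_le _ _).trans ?_
    rw [← hsum]
    refine Finset.sum_le_sum fun u _ => ?_
    rw [nrm_smul, RCLike.norm_ofReal, abs_of_nonneg (ha u)]
    exact mul_le_of_le_one_right (ha u) (hn u)
  · obtain ⟨w, hw, hlt⟩ := exists_lt_ac (R := R) (c := 3 / 8) (lt_of_lt_of_le (by norm_num) hx)
    rcases hw with hw | hw
    · exfalso
      obtain ⟨F, hF, hF'⟩ := hw.exc hz t (nn J + 1) le_rfl
      have e1 := norm_ac_avg_le S a ha hsum w F le_rfl (hW w (Or.inl hw)) hF'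
      have e2 := hm F hF
      have e3 := inv_mm_le J
      linarith
    · obtain ⟨w', g, h1, h2, rfl⟩ := hw.split J
      refine ⟨w', h1, ?_⟩
      rw [ac_add, ac_sum] at hlt
      have e1 : ‖∑ i ∈ range J, ac (g i) (∑ u ∈ S, (a u : 𝕜) • z u)‖ ≤
          ∑ i ∈ range J, 2 * (1 / (mm i : ℝ)) :=
        (norm_sum_le _ _).trans (Finset.sum_le_sum fun i hi =>
          (hsmall i (mem_range.1 hi) _ (h2 i)).trans (le_of_eq (by ring)))
      rw [← Finset.mul_sum] at e1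
      have e2 := sum_inv_mm_le (range J)
      have e3 := norm_add_le (ac w' (∑ u ∈ S, (a u : 𝕜) • z u))
        (∑ i ∈ range J, ac (g i) (∑ u ∈ S, (a u : 𝕜) • z u))
      linarith

end Crest.Agent.R114
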