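import Crest.Agent.R114.YCode

/-!
# Task R114-YKonigA (special lists hitting four windows generate a branch)

Notation: window of `l` is `[a l, bb l)`; `a`, `bb` are monotone, `bb l ≤ a l'` for `l < l'`, `l ≤ a l`.
`Hit.exists_touch`: if `Hit .. k s l` (`ε ≥ 0`) there are `c < k` with `(s c).1` in the window of `l` and `β ∈ supp (s c).2 ∩ supp (x l)`.
`stem B k s : ℕ → Option (ℕ × Fn Ω) := fun c => if c < k ∧ (s c).1 < B then some (s c) else none`.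
From `hbad` get `m i` strictly increasing, `m' i`, `m'' i`, and (choice) lists `(k i n, s i n)` hitting `m i, m' i, m'' i, n` for `n` in a set of `U = hyperfilter ℕ`.
(1) `key i n = (weight of s i n in the window of m'' i, touched point β ∈ supp (x (m' i)))` ranges over a finite set, so it is constant on a `U`-large set `A i`
(`Ultrafilter.finite_biUnion_mem_iff` / `Ultrafilter.eventually_exists_mem_iff`).  Fix `n_i ∈ A i`, `S i = (k i n_i, s i n_i)`.  Two lists with the same key have the same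
`stem (bb (m i))`: the common weight sits at an index `e+1 ≥ 1` in both (there is a smaller weight, `Sp.lt`), `Sp.common`, and `Sp.agree` with `β = β'`
(`hcov` by `R.self`); indices with weight `< bb (m i) ≤ a (m' i)` are below the touching indices.
(2) `r i i' := stem (bb (m i)) (S i) = stem (bb (m i)) (S i')`.  Among any `R₀` indices, `R₀ ε > 2`, two `i < i'` satisfy `r i i'`: take `n ∈ ⋂ A i` larger than `R₀` and all `m'' i`.
If the lists `s i n` were pairwise weight-disjoint in the window of `n`, `Sp.win_eq_seg` + `sum_seg_le` give `R₀ ε ≤ 2`.  So two of them share a weight of the window of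
`n`, at index `e + 1` in both; `Sp.common`; `(s e).1 ≥` the weights in the windows of `m'' i`, `m'' i'`, hence `≥ a (max (m' i) (m' i') + 1)`, and `h.rho` gives `hcov`;
`Sp.agree` gives equal stems below `bb (m i)`; combine with (1).
(3) `exists_increasing_or_nonincreasing_subseq r id`: the second alternative contradicts (2); in the first one `r` is transitive along the subsequence `g`.
`stem (bb (m (g n))) (S (g n))` has at least `n+1` entries (one in each window `m (g i)`, `i ≤ n`), so index `n` belongs to it.  `t c = (S (g c)).2 c`; then `t c = (S (g n)).2 c`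
for all `c` in the stem of `S (g n)`; `Br` by `Sp.trunc`, `Sp.congr`; `Low` because `t c` lies before the touched point `β ∈ supp (x (m' _))` (`tailSp_support`, `h.mem`);
`win (a m) (bb m) (bb m) t = win (a m) (bb m) k (S (g n)).2` for `m = m (g n)` (an index `c` with `(t c).1 < bb m` is in the stem: compare with `S (g N)`, `N ≥ max c n`;
`Sp.le_weight`).
-/

set_option autoImplicit false

namespace Crest.Agent.R114

open Finsupp Finset Filter

variable {Ω : Type} [LinearOrder Ω] {R : Rho Ω} {𝕜 : Type} [RCLike 𝕜]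

namespace KA

section general
variable {A : Set (ℕ × Fn Ω)} {k k' : ℕ} {s s' : Sq Ω}

lemma wt_le (h : Sp R A k s) {i i' : ℕ} (hi : i ≤ i') (hi' : i' < k) : (s i).1 ≤ (s i').1 := by
  rcases hi.eq_or_lt with rfl | hi
  · exact le_rfl
  · exact (h.lt hi hi').le

lemma lt_of_wt_lt (h : Sp R A k s) {i i' : ℕ} (hi : i < k) (hw : (s i).1 < (s i').1) : i < i' := by
  by_contra hn
  exact absurd (wt_le h (not_lt.1 hn) hi) (not_le.2 hw)

end general

/-- two lists have the same entries of weight `< B` -/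
def Agr (B : ℕ) (p q : ℕ × Sq Ω) : Prop :=
  ∀ c, (c < p.1 ∧ (p.2 c).1 < B ↔ c < q.1 ∧ (q.2 c).1 < B) ∧
    (c < p.1 → (p.2 c).1 < B → p.2 c = q.2 c)

omit [LinearOrder Ω] in
lemma Agr.refl (B : ℕ) (p : ℕ × Sq Ω) : Agr B p p := fun _ => ⟨Iff.rfl, fun _ _ => rfl⟩

omit [LinearOrder Ω] in
lemma Agr.symm {B : ℕ} {p q : ℕ × Sq Ω} (h : Agr B p q) : Agr B q p := fun c =>
  ⟨(h c).1.symm, fun h1 h2 => ((h c).2 ((h c).1.2 ⟨h1, h2⟩).1 ((h c).1.2 ⟨h1, h2⟩).2).symm⟩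

omit [LinearOrder Ω] in
lemma Agr.trans {B : ℕ} {p q r : ℕ × Sq Ω} (h : Agr B p q) (h' : Agr B q r) : Agr B p r := fun c =>
  ⟨(h c).1.trans (h' c).1, fun h1 h2 =>
    ((h c).2 h1 h2).trans ((h' c).2 ((h c).1.1 ⟨h1, h2⟩).1 ((h c).1.1 ⟨h1, h2⟩).2)⟩

omit [LinearOrder Ω] in
lemma Agr.mono {B B' : ℕ} {p q : ℕ × Sq Ω} (h : Agr B p q) (hB : B' ≤ B) : Agr B' p q := by
  intro c
  refine ⟨⟨fun ⟨h1, h2⟩ => ?_, fun ⟨h1, h2⟩ => ?_⟩, fun h1 h2 => (h c).2 h1 (h2.trans_le hB)⟩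
  · have h3 := (h c).2 h1 (h2.trans_le hB)
    exact ⟨((h c).1.1 ⟨h1, h2.trans_le hB⟩).1, h3 ▸ h2⟩
  · have h3 := (h.symm c).2 h1 (h2.trans_le hB)
    exact ⟨((h c).1.2 ⟨h1, h2.trans_le hB⟩).1, h3 ▸ h2⟩

lemma agr_of {A : Set (ℕ × Fn Ω)} {k k' : ℕ} {s s' : Sq Ω} (h : Sp R A k s) (h' : Sp R A k' s')
    {i i' c c' : ℕ} (hi : i < k) (hi' : i' < k') (he : (s i).1 = (s' i').1)
    (hc : c < k) (hc' : c' < k') (hci : (s c).1 < (s i).1) (hci' : (s' c').1 < (s' i').1)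
    {β β' : Ω} (hβ : β ∈ (s c).2.support) (hβ' : β' ∈ (s' c').2.support)
    (hcov : ∀ p, (∀ a < i, (s a).1 ≤ p) → (∀ a < i', (s' a).1 ≤ p) →
      ∃ ζ, β ∈ R.F p ζ ∧ β' ∈ R.F p ζ)
    {B : ℕ} (hB : B ≤ (s c).1) (hB' : B ≤ (s' c').1) : Agr B (k, s) (k', s') := by
  have h1 : c < i := lt_of_wt_lt h hc hci
  have h2 : c' < i' := lt_of_wt_lt h' hc' hci'
  obtain ⟨e, rfl⟩ : ∃ e, i = e + 1 := ⟨i - 1, by omega⟩
  obtain ⟨e', rfl⟩ : ∃ e', i' = e' + 1 := ⟨i' - 1, by omega⟩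
  obtain ⟨rfl, hw⟩ := h.common h' hi hi' he
  have hag := h.agree h' hi hi' he (by omega : c ≤ e) (by omega : c' ≤ e) hβ hβ' fun p hp =>
    hcov p (fun a ha => (wt_le h (by omega) (by omega)).trans hp)
      (fun a ha => hw a (by omega) ▸ (wt_le h (by omega) (by omega)).trans hp)
  have d1 : ∀ a, a < k → (s a).1 < B → a < c ∧ a < c' := by
    intro a ha hab
    have e1 : a < c := lt_of_wt_lt h ha (hab.trans_le hB)
    refine ⟨e1, lt_of_wt_lt h' (by omega) ?_⟩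
    rw [← hw a (by omega)]
    exact hab.trans_le hB'
  have d2 : ∀ a, a < k' → (s' a).1 < B → a < c ∧ a < c' := by
    intro a ha hab
    have e1 : a < c' := lt_of_wt_lt h' ha (hab.trans_le hB')
    refine ⟨lt_of_wt_lt h (by omega) ?_, e1⟩
    rw [hw a (by omega)]
    exact hab.trans_le hB
  intro a
  refine ⟨⟨fun ⟨ha, hab⟩ => ?_, fun ⟨ha, hab⟩ => ?_⟩, fun ha hab => ?_⟩
  · obtain ⟨e1, e2⟩ := d1 a ha hab
    exact ⟨show a < k' by omega, by have := hag a e1 e2; simp only at hab ⊢; rw [← this]; exact hab⟩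
  · obtain ⟨e1, e2⟩ := d2 a ha hab
    exact ⟨show a < k by omega, by have := hag a e1 e2; simp only at hab ⊢; rw [this]; exact hab⟩
  · obtain ⟨e1, e2⟩ := d1 a ha hab
    exact hag a e1 e2

variable {b : ℕ → Ω →₀ 𝕜} {j : ℕ} {x : ℕ → Ω →₀ 𝕜} {a bb : ℕ → ℕ} {w : ℕ → Fn Ω}

lemma a_mono (h : RIS R b j x a bb w) : Monotone a :=
  monotone_nat_of_le_succ fun l => (h.ab l).trans (h.ba l)

lemma bb_le_a (h : RIS R b j x a bb w) {l l' : ℕ} (hl : l < l') : bb l ≤ a l' :=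
  (h.ba l).trans (a_mono h hl)

lemma bb_mono (h : RIS R b j x a bb w) : Monotone bb :=
  monotone_nat_of_le_succ fun l => (h.ba l).trans (h.ab _)

omit [LinearOrder Ω] in
lemma touch {ε : ℝ} (hε : 0 ≤ ε) {k : ℕ} {s : Sq Ω} {l : ℕ} (hH : Hit x a bb ε k s l) :
    ∃ c < k, a l ≤ (s c).1 ∧ (s c).1 < bb l ∧ ∃ β ∈ (s c).2.support, β ∈ (x l).support := by
  by_contra hn
  push Not at hn
  have : ac (win (a l) (bb l) k s) (x l) = 0 := by
    refine ac_eq_zero fun γ hγ => ?_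
    rw [win, Finsupp.finsetSum_apply]
    refine Finset.sum_eq_zero fun c hc => ?_
    obtain ⟨h1, h2, h3⟩ := Finset.mem_filter.1 hc
    by_contra hne
    exact hn c (Finset.mem_range.1 h1) h2 h3 γ (Finsupp.mem_support_iff.2 hne) hγ
  rw [Hit, this, norm_zero] at hH
  exact absurd hH (not_lt.2 hε)

/-- `p` is special and hits three windows -/
def Q (R : Rho Ω) (x : ℕ → Ω →₀ 𝕜) (a bb : ℕ → ℕ) (ε : ℝ) (m m' m'' : ℕ) (p : ℕ × Sq Ω) : Prop :=
  Sp R (WW R) p.1 p.2 ∧ Hit x a bb ε p.1 p.2 m ∧ Hit x a bb ε p.1 p.2 m' ∧ Hit x a bb ε p.1 p.2 m''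

def Key (a bb : ℕ → ℕ) (m' : ℕ) (p : ℕ × Sq Ω) (κ : ℕ × Ω) : Prop :=
  (∃ i < p.1, (p.2 i).1 = κ.1) ∧
    ∃ c < p.1, a m' ≤ (p.2 c).1 ∧ (p.2 c).1 < bb m' ∧ κ.2 ∈ (p.2 c).2.support

lemma rep (h : RIS R b j x a bb w) {ε : ℝ} (hε : 0 < ε) {m m' m'' : ℕ} (h1 : m < m') (h2 : m' < m'')
    (hev : ∀ᶠ n in (hyperfilter ℕ : Filter ℕ), ∃ k s, Sp R (WW R) k s ∧ Hit x a bb ε k s m ∧
      Hit x a bb ε k s m' ∧ Hit x a bb ε k s m'' ∧ Hit x a bb ε k s n) :
    ∃ S, Q R x a bb ε m m' m'' S ∧ ∀ᶠ n in (hyperfilter ℕ : Filter ℕ),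
      ∃ p, Q R x a bb ε m m' m'' p ∧ Hit x a bb ε p.1 p.2 n ∧ Agr (bb m) S p := by
  classical
  let K : Finset (ℕ × Ω) := Ico (a m'') (bb m'') ×ˢ (x m').support
  have hev' : ∀ᶠ n in (hyperfilter ℕ : Filter ℕ), ∃ κ ∈ (K : Set (ℕ × Ω)),
      ∃ p, Q R x a bb ε m m' m'' p ∧ Hit x a bb ε p.1 p.2 n ∧ Key a bb m' p κ := by
    filter_upwards [hev] with n ⟨k, s, hs, e1, e2, e3, e4⟩
    obtain ⟨i, hi, i1, i2, -⟩ := touch hε.le e3
    obtain ⟨c, hc, c1, c2, β, hβ, hβx⟩ := touch hε.le e2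
    exact ⟨((s i).1, β), Finset.mem_coe.2 (Finset.mem_product.2 ⟨Finset.mem_Ico.2 ⟨i1, i2⟩, hβx⟩),
      (k, s), ⟨hs, e1, e2, e3⟩, e4, ⟨i, hi, rfl⟩, c, hc, c1, c2, hβ⟩
  obtain ⟨κ, hκ, hκev⟩ := (Ultrafilter.eventually_exists_mem_iff K.finite_toSet).1 hev'
  obtain ⟨n₀, S, hS, -, ⟨i, hi, hiκ⟩, c, hc, c1, c2, hβ⟩ := hκev.exists
  refine ⟨S, hS, ?_⟩
  filter_upwards [hκev] with n ⟨p, hp, hn, ⟨i', hi', hiκ'⟩, c', hc', c1', c2', hβ'⟩
  refine ⟨p, hp, hn, ?_⟩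
  have hκ1 : a m'' ≤ κ.1 := (Finset.mem_Ico.1 (Finset.mem_product.1 (Finset.mem_coe.1 hκ)).1).1
  have hb1 := bb_le_a h h1
  have hb2 := bb_le_a h h2
  exact agr_of hS.1 hp.1 hi hi' (hiκ.trans hiκ'.symm) hc hc' (by omega) (by omega) hβ hβ'
    (fun q _ _ => ⟨κ.2, R.self _ _, R.self _ _⟩) (by omega) (by omega)

lemma two (h : RIS R b j x a bb w) {ε : ℝ} (hε : 0 < ε) {m₁ m₁' m₁'' m₂ m₂' m₂'' n : ℕ}
    (h1 : m₁' < m₁'') (h2 : m₂' < m₂'') (hn1 : m₁'' < n) (hn2 : m₂'' < n)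
    {p q : ℕ × Sq Ω} (hp : Q R x a bb ε m₁ m₁' m₁'' p) (hq : Q R x a bb ε m₂ m₂' m₂'' q)
    {i i' : ℕ} (hi : i < p.1) (hi' : i' < q.1) (hw : a n ≤ (p.2 i).1) (he : (p.2 i).1 = (q.2 i').1)
    {B : ℕ} (hB : B ≤ a m₁') (hB' : B ≤ a m₂') : Agr B p q := by
  obtain ⟨c, hc, c1, c2, β, hβ, hβx⟩ := touch hε.le hp.2.2.1
  obtain ⟨c', hc', c1', c2', β', hβ', hβx'⟩ := touch hε.le hq.2.2.1
  obtain ⟨e, he0, e1, e2, -⟩ := touch hε.le hp.2.2.2
  obtain ⟨e', he0', e1', e2', -⟩ := touch hε.le hq.2.2.2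
  have b1 := bb_le_a h (h1.trans hn1)
  have b2 := bb_le_a h (h2.trans hn2)
  have b3 := bb_le_a h hn1
  have b4 := bb_le_a h hn2
  refine agr_of hp.1 hq.1 hi hi' he hc hc' (by omega) (by omega) hβ hβ' (fun r hr hr' => ?_)
    (by omega) (by omega)
  have r1 := hr e (lt_of_wt_lt hp.1 he0 (by omega))
  have r2 := hr' e' (lt_of_wt_lt hq.1 he0' (by omega))
  have a1 : a (m₁' + 1) ≤ a m₁'' := a_mono h h1
  have a2 : a (m₂' + 1) ≤ a m₂'' := a_mono h h2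
  obtain ⟨ζ, hζ⟩ := h.rho (max m₁' m₂') r (by
    rcases le_total m₁' m₂' with h' | h'
    · rw [max_eq_right h']; omega
    · rw [max_eq_left h']; omega)
  exact ⟨ζ, hζ _ (le_max_left _ _) hβx, hζ _ (le_max_right _ _) hβx'⟩

lemma exists_pair (h : RIS R b j x a bb w) {ε : ℝ} (hε : 0 < ε) {m m' m'' : ℕ → ℕ}
    (hm : Monotone m) (h1 : ∀ i, m i < m' i) (h2 : ∀ i, m' i < m'' i) {S : ℕ → ℕ × Sq Ω}
    (hS : ∀ i, ∀ᶠ n in (hyperfilter ℕ : Filter ℕ), ∃ p, Q R x a bb ε (m i) (m' i) (m'' i) p ∧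
      Hit x a bb ε p.1 p.2 n ∧ Agr (bb (m i)) (S i) p)
    (T : Finset ℕ) (hT : 2 < T.card * ε) :
    ∃ i ∈ T, ∃ i' ∈ T, i < i' ∧ Agr (bb (m i)) (S i) (S i') := by
  classical
  have e1 := (Filter.eventually_all_finset T).2 fun i _ => hS i
  have e2 : ∀ᶠ n in (hyperfilter ℕ : Filter ℕ), T.card + T.sup m'' < n :=
    Nat.hyperfilter_le_atTop (eventually_gt_atTop _)
  obtain ⟨n, hn, hn'⟩ := (e1.and e2).exists
  choose! p hQ hH hA using hn
  have hw : ∀ i ∈ T, ∃ k' ≤ (p i).1, (∀ c < k', ((p i).2 c).1 < bb n) ∧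
      win (a n) (bb n) (p i).1 (p i).2 = seg (a n) k' (p i).2 := fun i hi =>
    (hQ i hi).1.win_eq_seg _ _
  choose! k' hk1 hk2 hk3 using hw
  by_contra hne
  push Not at hne
  have hlt : ∀ i ∈ T, m'' i < n := fun i hi => by
    have : m'' i ≤ T.sup m'' := Finset.le_sup hi
    omega
  have key : ∀ i ∈ T, ∀ i' ∈ T, i < i' → ∀ c < (p i).1, ∀ c' < (p i').1, a n ≤ ((p i).2 c).1 →
      ((p i).2 c).1 ≠ ((p i').2 c').1 := by
    intro i hi i' hi' hii c hc c' hc' hw he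
    have hb : bb (m i) ≤ bb (m i') := bb_mono h (hm hii.le)
    have := two h hε (h2 i) (h2 i') (hlt i hi) (hlt i' hi') (hQ i hi) (hQ i' hi') hc hc' hw he
      (B := bb (m i)) (bb_le_a h (h1 i)) (hb.trans (bb_le_a h (h1 i')))
    exact hne i hi i' hi' hii (((hA i hi).trans this).trans ((hA i' hi').mono hb).symm)
  have hsum := sum_seg_le (R := R) T (a n) k' (fun i => (p i).2)
    (by have := h.lo n; omega) (fun i hi => (hQ i hi).1.trunc (hk1 i hi))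
    (by
      intro i hi i' hi' hii c hc c' hc' hw he
      have hc1 := hc.trans_le (hk1 i hi)
      have hc2 := hc'.trans_le (hk1 i' hi')
      rcases lt_or_gt_of_ne hii with h' | h'
      · exact key i hi i' hi' h' c hc1 c' hc2 hw he
      · exact key i' hi' i hi h' c' hc2 c hc1 (he ▸ hw) he.symm) (x n)
  have hlow : (T.card : ℝ) * ε ≤ ∑ i ∈ T, ‖ac (seg (a n) (k' i) (p i).2) (x n)‖ := by
    rw [← nsmul_eq_mul, ← Finset.sum_const]
    refine Finset.sum_le_sum fun i hi => ?_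
    rw [← hk3 i hi]
    exact (hH i hi).le
  have := h.nrm_le n
  linarith

lemma branch (h : RIS R b j x a bb w) {ε : ℝ} (hε : 0 < ε) {M M' M'' : ℕ → ℕ} (hM : StrictMono M)
    (h1 : ∀ i, M i < M' i) {P : ℕ → ℕ × Sq Ω} (hP : ∀ i, Q R x a bb ε (M i) (M' i) (M'' i) (P i))
    (hA : ∀ n, Agr (bb (M n)) (P n) (P (n + 1))) :
    ∃ t, Br R t ∧ Low b t ∧ ∀ N, ∃ m, N ≤ m ∧ Hit x a bb ε (bb m) t m := by
  have hA' : ∀ n n', n ≤ n' → Agr (bb (M n)) (P n) (P n') := by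
    intro n n' hn
    induction n', hn using Nat.le_induction with
    | base => exact Agr.refl _ _
    | succ n' hn ih => exact ih.trans ((hA n').mono (bb_mono h (hM.monotone hn)))
  have hidx : ∀ n, n < (P n).1 ∧ ((P n).2 n).1 < bb (M n) := by
    intro n
    induction n with
    | zero =>
      obtain ⟨c, hc, -, c2, -⟩ := touch hε.le (hP 0).2.1
      exact ⟨by omega, (wt_le (hP 0).1 (Nat.zero_le c) hc).trans_lt c2⟩
    | succ n ih =>
      obtain ⟨c, hc, c1, c2, -⟩ := touch hε.le (hP (n + 1)).2.1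
      obtain ⟨e1, e2⟩ := (hA n n).1.1 ih
      have hb := bb_le_a h (hM (Nat.lt_succ_self n))
      have : n < c := lt_of_wt_lt (hP (n + 1)).1 e1 (by simp only [Nat.succ_eq_add_one] at hb; omega)
      exact ⟨by omega, (wt_le (hP (n + 1)).1 this hc).trans_lt c2⟩
  let t : Sq Ω := fun c => (P c).2 c
  have ht : ∀ c N, c ≤ N → c < (P N).1 ∧ (P N).2 c = t c := fun c N hc =>
    ⟨((hA' c N hc c).1.1 (hidx c)).1, ((hA' c N hc c).2 (hidx c).1 (hidx c).2).symm⟩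
  refine ⟨t, fun k => ((hP k).1.trunc (hidx k).1.le).congr fun i hi => (ht i k hi.le).2, ?_, ?_⟩
  · intro c γ hγ
    obtain ⟨c', hc', c1, -, β, hβ, hβx⟩ := touch hε.le (hP c).2.2.1
    have hb := bb_le_a h (h1 c)
    have hcc : c < c' := lt_of_wt_lt (hP c).1 (hidx c).1 (by have := (hidx c).2; omega)
    obtain ⟨k, -, hk⟩ := tailSp_support (h.mem (M' c)) β hβx
    exact ⟨k, β, hk, ((hP c).1.2.1 c c' hcc hc' γ hγ β hβ).le⟩
  · intro N
    refine ⟨M N, hM.le_apply, ?_⟩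
    have hw : win (a (M N)) (bb (M N)) (bb (M N)) t = win (a (M N)) (bb (M N)) (P N).1 (P N).2 := by
      have d1 : ∀ c, (t c).1 < bb (M N) → c < (P N).1 ∧ (P N).2 c = t c := by
        intro c hc
        obtain ⟨e1, e2⟩ := ht c (max c N) (le_max_left _ _)
        have e3 := hA' N (max c N) (le_max_right _ _) c
        have e4 := e3.1.2 ⟨e1, e2 ▸ hc⟩
        exact ⟨e4.1, (e3.2 e4.1 e4.2).trans e2⟩
      have d2 : ∀ c, c < (P N).1 → ((P N).2 c).1 < bb (M N) → (P N).2 c = t c := fun c hc hc' =>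
        ((hA' N (max c N) (le_max_right _ _) c).2 hc hc').trans (ht c (max c N) (le_max_left _ _)).2
      unfold win
      refine Finset.sum_congr ?_ fun c hc => ?_
      · ext c
        simp only [Finset.mem_filter, Finset.mem_range]
        constructor
        · rintro ⟨-, e1, e2⟩
          obtain ⟨e3, e4⟩ := d1 c e2
          exact ⟨e3, e4 ▸ e1, e4 ▸ e2⟩
        · rintro ⟨e0, e1, e2⟩
          have e3 := d2 c e0 e2
          exact ⟨((hP N).1.le_weight e0).trans_lt e2, e3 ▸ e1, e3 ▸ e2⟩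
      · obtain ⟨e0, -, e2⟩ := Finset.mem_filter.1 hc
        rw [d2 c (Finset.mem_range.1 e0) e2]
    rw [Hit, hw]
    exact (hP N).2.1

end KA

theorem exists_branch {b : ℕ → Ω →₀ 𝕜} {j : ℕ} {x : ℕ → Ω →₀ 𝕜} {a bb : ℕ → ℕ} {w : ℕ → Fn Ω}
    (h : RIS R b j x a bb w) {ε : ℝ} (hε : 0 < ε)
    (hbad : ∀ M, ∃ m, M ≤ m ∧ ∃ m' m'', m < m' ∧ m' < m'' ∧ ∀ᶠ n in (hyperfilter ℕ : Filter ℕ),
      ∃ k s, Sp R (WW R) k s ∧ Hit x a bb ε k s m ∧ Hit x a bb ε k s m' ∧ Hit x a bb ε k s m'' ∧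
        Hit x a bb ε k s n) :
    ∃ t, Br R t ∧ Low b t ∧ ∀ M, ∃ m, M ≤ m ∧ Hit x a bb ε (bb m) t m := by
  obtain ⟨m, hm, hm'⟩ := Filter.extraction_of_frequently_atTop (Filter.frequently_atTop.2 hbad)
  choose m' m'' h1 h2 hev using hm'
  choose S hS hS' using fun i => KA.rep h hε (h1 i) (h2 i) (hev i)
  obtain ⟨g, hg | hg⟩ := exists_increasing_or_nonincreasing_subseq'
    (fun i i' => KA.Agr (bb (m i)) (S i) (S i')) id
  · exact KA.branch h hε (M := fun n => m (g n)) (M' := fun n => m' (g n)) (M'' := fun n => m'' (g n))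
      (hm.comp g.strictMono) (fun n => h1 _) (P := fun n => S (g n)) (fun n => hS _)
      hg
  · exfalso
    obtain ⟨N, hN⟩ := exists_nat_gt (2 / ε)
    obtain ⟨i, hi, i', hi', hii, hA⟩ := KA.exists_pair h hε hm.monotone h1 h2 hS'
      ((range N).map g.toEmbedding) (by
        rw [Finset.card_map, Finset.card_range]; rwa [div_lt_iff₀ hε] at hN)
    obtain ⟨u, -, rfl⟩ := Finset.mem_map.1 hi
    obtain ⟨u', -, rfl⟩ := Finset.mem_map.1 hi'
    exact hg u u' (g.lt_iff_lt.1 hii) hA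

end Crest.Agent.R114
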