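import Crest.Agent.R114.YBasic

/-!
# Task R114-YNorm (the norm)

`nrm`: the `iSup` is bounded above by `l1 y` (`norm_ac_le`, `W_abs_le`); `W R` is nonempty.
`sum_seg_le`: enumerate `T` by `range T.card` (`Finset.equivFin`/`orderEmbOfFin`), `sum_norm_le_of_signs`.
`sum_chain_le`: `sum_norm_le_of_signs` with the functional `(mm j)⁻¹ • ∑ ε c • ch c ∈ WW j ⊆ W`.
-/

set_option autoImplicit false

namespace Crest.Agent.R114

open Finsupp Finset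

variable {Ω : Type} [LinearOrder Ω] {R : Rho Ω} {𝕜 : Type} [RCLike 𝕜]

lemma WW_ac_le {j : ℕ} {f : Fn Ω} (h : (j, f) ∈ WW R) (y : Ω →₀ 𝕜) :
    ‖ac f y‖ ≤ l1 y / mm j := by
  simpa [div_eq_inv_mul] using norm_ac_le (WW_abs_le h) y

lemma Grp.ac_le {d l : ℕ} {w : Fn Ω} (h : Grp R (WW R) d l w) (y : Ω →₀ 𝕜) :
    ‖ac w y‖ ≤ 2 * l1 y / mm l := by
  exact (norm_ac_le h.abs_le y).trans_eq (by push_cast; ring)

lemma ac_le_nrm {w : Fn Ω} (h : w ∈ W R) (y : Ω →₀ 𝕜) : ‖ac w y‖ ≤ nrm R y := by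
  exact le_ciSup (f := fun w : W R => ‖ac (w : Fn Ω) y‖) ⟨l1 y, by
    rintro _ ⟨w, rfl⟩; simpa using norm_ac_le (W_abs_le w.2) y⟩ ⟨w, h⟩

lemma nrm_le {y : Ω →₀ 𝕜} {C : ℝ} (h : ∀ w ∈ W R, ‖ac w y‖ ≤ C) : nrm R y ≤ C := by
  have : Nonempty (W R) := ⟨⟨0, W_zero⟩⟩
  exact ciSup_le fun w => h w w.2

lemma exists_lt_ac {y : Ω →₀ 𝕜} {c : ℝ} (h : c < nrm R y) : ∃ w ∈ W R, c < ‖ac w y‖ := by
  by_contra! h'
  exact (nrm_le h').not_gt h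

lemma nrm_nonneg (y : Ω →₀ 𝕜) : 0 ≤ nrm R y := by
  exact (norm_nonneg _).trans (ac_le_nrm W_zero y)

lemma nrm_zero : nrm R (0 : Ω →₀ 𝕜) = 0 := by
  exact (nrm_le (by simp)).antisymm (nrm_nonneg _)

lemma nrm_add_le (y y' : Ω →₀ 𝕜) : nrm R (y + y') ≤ nrm R y + nrm R y' := by
  exact nrm_le fun w h => by
    rw [map_add]; exact norm_add_le_of_le (ac_le_nrm h y) (ac_le_nrm h y')

lemma nrm_smul (c : 𝕜) (y : Ω →₀ 𝕜) : nrm R (c • y) = ‖c‖ * nrm R y := by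
  simp only [nrm, map_smul, norm_smul]
  exact (Real.mul_iSup_of_nonneg (norm_nonneg c) _).symm

lemma nrm_sum_le {ι : Type*} (S : Finset ι) (y : ι → Ω →₀ 𝕜) :
    nrm R (∑ i ∈ S, y i) ≤ ∑ i ∈ S, nrm R (y i) := by
  exact nrm_le fun w h => by rw [map_sum]; exact norm_sum_le_of_le _ fun i _ => ac_le_nrm h _

lemma coord_le_nrm (y : Ω →₀ 𝕜) (γ : Ω) : ‖y γ‖ ≤ nrm R y := by
  simpa [ac_single_left] using ac_le_nrm (R := R) (w := single γ 1) (.inl ⟨γ, .inl rfl⟩) y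

lemma nrm_pos {y : Ω →₀ 𝕜} (h : y ≠ 0) : 0 < nrm R y := by
  obtain ⟨γ, hγ⟩ := Finsupp.ne_iff.1 h
  exact (norm_pos_iff.2 hγ).trans_le (coord_le_nrm y γ)

lemma nrm_le_l1 (y : Ω →₀ 𝕜) : nrm R y ≤ l1 y := by
  exact nrm_le fun w h => by simpa using norm_ac_le (W_abs_le h) y

lemma nrm_res_le {E : Set Ω} (hE : E.OrdConnected) (y : Ω →₀ 𝕜) : nrm R (res E y) ≤ nrm R y := by
  exact nrm_le fun w h => ac_res E w y ▸ ac_le_nrm (W_res h hE) y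

/-- `c₀`-sum of weight-disjoint tails -/
lemma sum_seg_le {ι : Type*} (T : Finset ι) (l : ℕ) (k : ι → ℕ) (s : ι → Sq Ω)
    (hT : T.card ≤ l + 1) (hs : ∀ c ∈ T, Sp R (WW R) (k c) (s c))
    (hd : ∀ c ∈ T, ∀ c' ∈ T, c ≠ c' → ∀ i < k c, ∀ i' < k c', l ≤ (s c i).1 →
      (s c i).1 ≠ (s c' i').1) (y : Ω →₀ 𝕜) :
    ∑ c ∈ T, ‖ac (seg l (k c) (s c)) y‖ ≤ 2 * nrm R y := by
  refine sum_norm_le_of_signs T _ _ fun ε hε => ?_
  rcases T.eq_empty_or_nonempty with rfl | ⟨c₀, -⟩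
  · simpa using nrm_nonneg y
  obtain ⟨e, he, hi, hsum⟩ : ∃ e : ℕ → ι, (∀ c < T.card, e c ∈ T) ∧
      (∀ c < T.card, ∀ c' < T.card, c ≠ c' → e c ≠ e c') ∧
      ∀ f : ι → 𝕜, ∑ c ∈ T, f c = ∑ c ∈ range T.card, f (e c) := by
    refine ⟨fun c => if h : c < T.card then T.equivFin.symm ⟨c, h⟩ else c₀, fun c hc => by simp [hc],
      fun c hc c' hc' hne => by simpa [hc, hc'] using hne, fun f => ?_⟩
    rw [sum_range, ← T.sum_coe_sort, ← T.equivFin.symm.sum_comp]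
    simp
  have := ac_le_nrm (Lab.mem_W ⟨l, T.card, k ∘ e, s ∘ e, ε ∘ e, Set.univ, le_rfl, hT, Set.ordConnected_univ,
    fun c hc => hs _ (he c hc), fun c _ => hε _,
    fun c hc c' hc' hne => hd _ (he c hc) _ (he c' hc') (hi c hc c' hc' hne), rfl⟩) y
  rw [res_eq_self (by simp), ac_sum, sum_congr rfl fun _ _ => ac_smul _ _ _] at this
  rwa [hsum]

lemma sum_chain_le {j r : ℕ} (hr : r ≤ nn j) (ch : ℕ → Fn Ω) (h : ∀ c < r, ch c ∈ W R)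
    (hs : ∀ c c', c < c' → c' < r → Succ (ch c) (ch c')) (y : Ω →₀ 𝕜) :
    ∑ c ∈ range r, ‖ac (ch c) y‖ ≤ 2 * mm j * nrm R y := by
  rw [mul_assoc]
  refine sum_norm_le_of_signs _ _ _ fun ε hε => ?_
  have := ac_le_nrm (WW_mem_W (sum_mem_WW (R := R) hr (fun c => ε c • ch c) (fun c hc => by
    rcases hε c with h' | h' <;> simp [h', h c hc, W_neg]) fun c c' h1 h2 γ hγ δ hδ =>
      hs c c' h1 h2 γ (support_smul hγ) δ (support_smul hδ))) y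
  rw [ac_smul, ac_sum, norm_mul, sum_congr rfl fun _ _ => ac_smul _ _ _] at this
  rw [← inv_mul_le_iff₀ (mm_pos j)]
  simpa using this

end Crest.Agent.R114
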