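import Crest.Agent.R114.YDefs

/-! # Numerical facts on `mm`, `nn`; elementary API for `ac` -/

set_option autoImplicit false

namespace Crest.Agent.R114

open Finsupp Finset

lemma mm_cast (j : ℕ) : (mm j : ℝ) = 2 ^ (j + 6) := by simp [mm]

lemma mm_pos (j : ℕ) : (0 : ℝ) < mm j := by rw [mm_cast]; positivity

lemma mm_pos_rat (j : ℕ) : (0 : ℚ) < mm j := by simp [mm]

lemma mm_mono : Monotone mm := fun _ _ h => Nat.pow_le_pow_right (by norm_num) (by omega)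

lemma inv_mm_anti {i j : ℕ} (h : i ≤ j) : (1 : ℝ) / mm j ≤ 1 / mm i :=
  one_div_le_one_div_of_le (mm_pos i) (by exact_mod_cast mm_mono h)

lemma inv_mm_le (j : ℕ) : (1 : ℝ) / mm j ≤ 1 / 64 := by
  have := inv_mm_anti (Nat.zero_le j)
  rwa [show ((mm 0 : ℕ) : ℝ) = 64 by norm_num [mm]] at this

lemma inv_mm_le_half_pow (j : ℕ) : (1 : ℝ) / mm j ≤ (1 / 2) ^ j := by
  rw [mm_cast, one_div_pow]
  exact one_div_le_one_div_of_le (by positivity) (pow_le_pow_right₀ (by norm_num) (by omega))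

lemma sum_inv_mm_Ico (l n : ℕ) : ∑ i ∈ Ico l (l + n), (1 : ℝ) / mm i = 2 / mm l - 2 / mm (l + n) := by
  induction n with
  | zero => simp
  | succ n ih =>
    rw [← add_assoc, Finset.sum_Ico_succ_top (by omega), ih, mm_cast (l + n + 1), mm_cast (l + n)]
    field_simp
    ring

lemma sum_inv_mm (T : Finset ℕ) (l : ℕ) (h : ∀ i ∈ T, l ≤ i) :
    ∑ i ∈ T, (1 : ℝ) / mm i ≤ 2 / mm l := by
  have h1 : T ⊆ Ico l (l + (T.sup id + 1)) := fun i hi => by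
    have : i ≤ T.sup id := Finset.le_sup (f := id) hi
    exact Finset.mem_Ico.2 ⟨h i hi, by omega⟩
  refine (Finset.sum_le_sum_of_subset_of_nonneg h1 fun i _ _ => (one_div_pos.2 (mm_pos i)).le).trans ?_
  rw [sum_inv_mm_Ico]
  have := div_pos (two_pos (α := ℝ)) (mm_pos (l + (T.sup id + 1)))
  linarith

lemma sum_inv_mm_rat (T : Finset ℕ) (l : ℕ) (h : ∀ i ∈ T, l ≤ i) :
    ∑ i ∈ T, (1 : ℚ) / mm i ≤ 2 / mm l := by
  have := sum_inv_mm T l h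
  exact_mod_cast (show ((∑ i ∈ T, (1 : ℚ) / mm i : ℚ) : ℝ) ≤ ((2 / mm l : ℚ) : ℝ) by push_cast; exact this)

lemma sum_inv_mm_le (T : Finset ℕ) : ∑ i ∈ T, (1 : ℝ) / mm i ≤ 1 / 32 := by
  have := sum_inv_mm T 0 (fun _ _ => Nat.zero_le _)
  rwa [show ((mm 0 : ℕ) : ℝ) = 64 by norm_num [mm], show (2 : ℝ) / 64 = 1 / 32 by norm_num] at this

lemma exists_div_mm_le (C ε : ℝ) (hε : 0 < ε) : ∃ t₀, ∀ t, t₀ ≤ t → C / mm t ≤ ε := by
  obtain ⟨n, hn⟩ := pow_unbounded_of_one_lt (C / ε) (one_lt_two (α := ℝ))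
  refine ⟨n, fun t ht => ?_⟩
  rw [div_le_iff₀ (mm_pos t), mm_cast]
  rw [div_lt_iff₀ hε] at hn
  have : (2 : ℝ) ^ n ≤ 2 ^ (t + 6) := pow_le_pow_right₀ (by norm_num) (by omega)
  nlinarith

lemma nn_mono : Monotone nn := fun _ _ h =>
  Nat.pow_le_pow_right (by norm_num) (Nat.pow_le_pow_left (by omega) 2)

lemma nn_pos (j : ℕ) : 0 < nn j := by unfold nn; positivity

lemma lt_nn (j : ℕ) : j < nn j := by
  unfold nn
  have h1 : (j + 8) ^ 2 < 2 ^ ((j + 8) ^ 2) := Nat.lt_two_pow_self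
  nlinarith

lemma budget {j : ℕ} (hj : 1 ≤ j) : (j + 6) * (nn (j - 1) + 2) ≤ nn j - 1 := by
  obtain ⟨i, rfl⟩ : ∃ i, j = i + 1 := ⟨j - 1, by omega⟩
  have h1 : nn (i + 1) = nn i * 2 ^ (2 * i + 17) := by
    unfold nn; rw [← pow_add]; congr 1; ring
  have h2 : 2 * i + 17 < 2 ^ (2 * i + 17) := Nat.lt_two_pow_self
  have h3 : 8 < nn i := by
    unfold nn
    have : (i + 8) ^ 2 < 2 ^ ((i + 8) ^ 2) := Nat.lt_two_pow_self
    nlinarith
  rw [Nat.add_sub_cancel, h1]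
  have : (i + 1 + 6) * (nn i + 2) + 1 ≤ nn i * (2 * i + 18) := by nlinarith
  have h4 : nn i * (2 * i + 18) ≤ nn i * 2 ^ (2 * i + 17) := Nat.mul_le_mul_left _ h2
  omega

lemma exists_pow_le_nn (R : ℕ) : ∃ j, R ^ (j + 8) ≤ nn j := by
  refine ⟨R, ?_⟩
  unfold nn
  rw [sq, pow_mul]
  refine Nat.pow_le_pow_left ?_ _
  have : R + 8 < 2 ^ (R + 8) := Nat.lt_two_pow_self
  omega

lemma exists_lin_le_nn (A B : ℕ) : ∃ j, A + (j + 11) * B ≤ nn j := by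
  refine ⟨A + B + 8, ?_⟩
  unfold nn
  have h1 : (A + B + 8 + 8) ^ 2 < 2 ^ ((A + B + 8 + 8) ^ 2) := Nat.lt_two_pow_self
  nlinarith

lemma exists_mul_mm_le_nn (C : ℝ) : ∃ j, C * mm j ≤ nn j := by
  obtain ⟨n, hn⟩ := pow_unbounded_of_one_lt C (one_lt_two (α := ℝ))
  refine ⟨n, ?_⟩
  have h1 : (2 : ℝ) ^ n * 2 ^ (n + 6) ≤ 2 ^ ((n + 8) ^ 2) := by
    rw [← pow_add]; exact pow_le_pow_right₀ (by norm_num) (by nlinarith)
  rw [mm_cast]
  have h2 : (nn n : ℝ) = 2 ^ ((n + 8) ^ 2) := by simp [nn]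
  rw [h2]
  exact (mul_le_mul_of_nonneg_right hn.le (by positivity)).trans h1

section ac
variable {𝕜 : Type} [RCLike 𝕜] {Ω : Type}

lemma norm_ratCast (q : ℚ) : ‖(q : 𝕜)‖ = ((|q| : ℚ) : ℝ) := by
  rw [← RCLike.ofReal_ratCast, RCLike.norm_ofReal]; push_cast; rfl

lemma ac_apply (f : Ω → ℚ) (y : Ω →₀ 𝕜) : ac f y = ∑ γ ∈ y.support, y γ * (f γ : 𝕜) :=
  act_apply _ _

lemma ac_congr {f g : Ω → ℚ} {y : Ω →₀ 𝕜} (h : ∀ γ ∈ y.support, f γ = g γ) : ac f y = ac g y :=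
  act_congr fun γ hγ => by rw [h γ hγ]

lemma ac_eq_zero {f : Ω → ℚ} {y : Ω →₀ 𝕜} (h : ∀ γ ∈ y.support, f γ = 0) : ac f y = 0 :=
  act_eq_zero fun γ hγ => by rw [h γ hγ, Rat.cast_zero]

@[simp] lemma ac_zero (y : Ω →₀ 𝕜) : ac (0 : Fn Ω) y = 0 := ac_eq_zero fun _ _ => rfl

lemma ac_add (f g : Fn Ω) (y : Ω →₀ 𝕜) : ac (f + g) y = ac f y + ac g y := by
  simp only [ac_apply, Finsupp.add_apply, Rat.cast_add, mul_add, Finset.sum_add_distrib]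

lemma ac_neg (f : Fn Ω) (y : Ω →₀ 𝕜) : ac (-f) y = -ac f y := by
  simp only [ac_apply, Finsupp.neg_apply, Rat.cast_neg, mul_neg, Finset.sum_neg_distrib]

lemma ac_smul (q : ℚ) (f : Fn Ω) (y : Ω →₀ 𝕜) : ac (q • f) y = (q : 𝕜) * ac f y := by
  simp only [ac_apply, Finsupp.smul_apply, smul_eq_mul, Rat.cast_mul, Finset.mul_sum]
  exact Finset.sum_congr rfl fun _ _ => by ring

lemma ac_sum {ι : Type*} (S : Finset ι) (f : ι → Fn Ω) (y : Ω →₀ 𝕜) :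
    ac (∑ i ∈ S, f i : Fn Ω) y = ∑ i ∈ S, ac (f i) y := by
  simp only [ac_apply, Finsupp.finsetSum_apply, Rat.cast_sum, Finset.mul_sum]
  exact Finset.sum_comm

lemma ac_single_left (β : Ω) (q : ℚ) (y : Ω →₀ 𝕜) : ac (single β q : Fn Ω) y = (q : 𝕜) * y β := by
  classical
  rw [ac_apply, Finset.sum_eq_single β]
  · simp [mul_comm]
  · intro γ _ h; simp [h.symm]
  · intro h; simp [Finsupp.notMem_support_iff.1 h]

lemma ac_single_right (f : Ω → ℚ) (γ : Ω) (c : 𝕜) : ac f (single γ c) = c * (f γ : 𝕜) :=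
  act_single _ _ _

lemma ac_res (E : Set Ω) (f : Fn Ω) (y : Ω →₀ 𝕜) : ac (res E f) y = ac f (res E y) := by
  have h : (res E y).support ⊆ y.support := fun γ hγ => (mem_support_res.1 hγ).1
  rw [ac_apply, ac, act_apply_of_subset _ _ h]
  refine Finset.sum_congr rfl fun γ _ => ?_
  by_cases hγ : γ ∈ E
  · rw [res_apply_mem _ hγ, res_apply_mem _ hγ]
  · rw [res_apply_notMem _ hγ, res_apply_notMem _ hγ]; simp

lemma norm_ac_le {f : Ω → ℚ} {θ : ℚ} (h : ∀ γ, |f γ| ≤ θ) (y : Ω →₀ 𝕜) :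
    ‖ac f y‖ ≤ (θ : ℝ) * l1 y :=
  norm_act_le (fun γ => by rw [norm_ratCast]; exact_mod_cast h γ) y

variable [LinearOrder Ω]

lemma ac_res_hull (f : Fn Ω) (y : Ω →₀ 𝕜) : ac (res (hull y) f) y = ac f y := by
  rw [ac_res, res_eq_self fun _ h => mem_hull_of_mem_support h]

lemma ac_eq_zero_of_succ {f : Fn Ω} {y : Ω →₀ 𝕜} (h : Succ f y ∨ Succ y f) : ac f y = 0 := by
  refine ac_eq_zero fun γ hγ => ?_
  by_contra hne
  have h' := Finsupp.mem_support_iff.2 hne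
  rcases h with h | h
  exacts [lt_irrefl _ (h γ h' γ hγ), lt_irrefl _ (h γ hγ γ h')]

omit [LinearOrder Ω] in
/-- rotation by a unimodular scalar -/
lemma exists_rot (f : Ω → ℚ) (y : Ω →₀ 𝕜) :
    ∃ c : 𝕜, ‖c‖ = 1 ∧ ac f (c • y) = (‖ac f y‖ : 𝕜) := by
  obtain ⟨c, hc, h⟩ := RCLike.exists_norm_eq_mul_self (ac f y)
  exact ⟨c, hc, by rw [map_smul, smul_eq_mul, h]⟩

end ac

end Crest.Agent.R114
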