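import Crest.Agent.R114.YDefs

/-!
# Task R114-YOmega (the ρ-system on `ω₁` and the CH enumeration)

`exists_rho`: `wf_exists` with `A = ℕ → Finset Ω` and
`P α x a := (∀ p, α ∈ a p) ∧ (∀ p, ∀ β ∈ a p, β ≤ α) ∧ Monotone a ∧ (∀ β ≤ α, ∃ p, β ∈ a p) ∧
  ∀ p, ∀ β ∈ a p, β < α → ∀ γ, γ ∈ x β p ↔ γ ∈ a p ∧ γ ≤ β`.
Step: if `Iio α = ∅` take `a p = {α}`.  Otherwise take a monotone sequence `α_n` in `Iio α` dominating every element of `Iio α`
(running maxima of an enumeration of the countable set), `p_n` monotone with `α_n ∈ x (α_{n+1}) p_n`, and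
`a p = {α} ∪ ⋃_{n ≤ p, p_n ≤ p} x α_n p`  (if `p_n ≤ p` then `α_i ∈ x α_{i+1} p` for `i ≤ n`, so the sets `x α_i p`, `i ≤ n+1`, end-extend
each other: `x α_i p = {γ ∈ x α_n p | γ ≤ α_i}`).
`exists_omega`: `Ω = (Cardinal.aleph 1).ord.ToType` (or `(Ordinal.omega 1).ToType`), initial segments are countable
(`Ordinal.mk_Iio_ordinal`/`Cardinal.mk_Iio_ord_toType`, `Cardinal.countable_iff_lt_aleph_one`).
`#(Sq Ω) ≤ (ℵ₀ * ℵ₁) ^ ℵ₀ = 𝔠 ^ ℵ₀ = 𝔠 = ℵ₁` (`Cardinal.mk_finsupp_of_infinite`, `Cardinal.continuum_power_aleph0`), so there are injections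
`ι : Sq Ω → Ω`, `e : Ω × Ω → Ω`.  For `s`, the set `B s = {γ | ∃ i, ∃ δ ∈ (s i).2.support, γ ≤ δ}` is countable, `ξ ↦ e (ι s, ξ)` is injective on
an uncountable type, so some `e (ι s, ξ) ∉ B s`; this is `idx s`.
-/

set_option autoImplicit false

namespace Crest.Agent.R114

namespace YOmegaAux

variable {Ω : Type} [LinearOrder Ω]

/-- the invariant of the recursion -/
structure P (α : Ω) (x : Ω → ℕ → Finset Ω) (a : ℕ → Finset Ω) : Prop where
  self : ∀ p, α ∈ a p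
  le : ∀ p, ∀ β ∈ a p, β ≤ α
  mono : ∀ p q, p ≤ q → a p ⊆ a q
  cover : ∀ β, β ≤ α → ∃ p, β ∈ a p
  coh : ∀ p, ∀ β ∈ a p, β < α → ∀ γ, γ ∈ x β p ↔ γ ∈ a p ∧ γ ≤ β

lemma P.full {α : Ω} {x : Ω → ℕ → Finset Ω} (h : P α x (x α)) {p : ℕ} {β : Ω} (hβ : β ∈ x α p)
    (γ : Ω) : γ ∈ x β p ↔ γ ∈ x α p ∧ γ ≤ β := by
  rcases (h.le p β hβ).lt_or_eq with hlt | rfl
  · exact h.coh p β hβ hlt γ
  · exact ⟨fun h' => ⟨h', h.le p γ h'⟩, fun h' => h'.1⟩

lemma exists_cofinal {α : Ω} (hc : (Set.Iio α).Countable) (hne : (Set.Iio α).Nonempty) :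
    ∃ g : ℕ → Ω, (∀ n, g n ≤ g (n + 1)) ∧ (∀ n, g n < α) ∧ ∀ β, β < α → ∃ n, β ≤ g n := by
  obtain ⟨f, hf⟩ := hc.exists_eq_range hne
  have hlt : ∀ n, f n < α := fun n => by
    have : f n ∈ Set.Iio α := hf ▸ Set.mem_range_self n
    exact this
  let g : ℕ → Ω := fun n => Nat.rec (f 0) (fun n r => max r (f (n + 1))) n
  refine ⟨g, fun n => le_max_left _ _, fun n => ?_, fun β hβ => ?_⟩
  · induction n with
    | zero => exact hlt 0
    | succ n ih => exact max_lt ih (hlt _)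
  · have : β ∈ Set.range f := hf ▸ hβ
    obtain ⟨n, rfl⟩ := this
    cases n with
    | zero => exact ⟨0, le_rfl⟩
    | succ n => exact ⟨n + 1, le_max_right _ _⟩

lemma step {α : Ω} (hc : (Set.Iio α).Countable) (x : Ω → ℕ → Finset Ω)
    (h : ∀ γ, γ < α → P γ x (x γ)) : ∃ a, P α x a := by
  classical
  rcases (Set.Iio α).eq_empty_or_nonempty with he | hne
  · have h0 : ∀ β, ¬ β < α := fun β hβ => (Set.eq_empty_iff_forall_notMem.1 he) β hβ
    refine ⟨fun _ => {α}, fun _ => Finset.mem_singleton_self _,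
      fun _ β hβ => (Finset.mem_singleton.1 hβ).le, fun _ _ _ => subset_rfl,
      fun β hβ => ⟨0, Finset.mem_singleton.2 (le_antisymm hβ (not_lt.1 (h0 β)))⟩,
      fun _ β _ hβ => absurd hβ (h0 β)⟩
  obtain ⟨g, hg1, hg2, hg3⟩ := exists_cofinal hc hne
  have h1 : ∀ n, ∃ q, g n ∈ x (g (n + 1)) q := fun n => (h _ (hg2 (n + 1))).cover _ (hg1 n)
  choose q hq using h1
  have hchain : ∀ p n, (∀ i < n, q i ≤ p) → ∀ m ≤ n, x (g m) p ⊆ x (g n) p := by
    intro p n
    induction n with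
    | zero => intro _ m hm; rw [Nat.le_zero.1 hm]
    | succ n ih =>
      intro hn m hm
      rcases hm.lt_or_eq with hlt | rfl
      · refine (ih (fun i hi => hn i (by omega)) m (by omega)).trans fun γ hγ => ?_
        have h2 : g n ∈ x (g (n + 1)) p := (h _ (hg2 _)).mono _ _ (hn n (by omega)) (hq n)
        exact (((h _ (hg2 _)).full h2 γ).1 hγ).1
      · exact subset_rfl
  let N : ℕ → ℕ := fun p => Nat.findGreatest (fun n => ∀ i < n, q i ≤ p) p
  have hN1 : ∀ p, ∀ i < N p, q i ≤ p := fun p =>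
    Nat.findGreatest_spec (P := fun n => ∀ i < n, q i ≤ p) (Nat.zero_le p) (by simp)
  have hN2 : ∀ p n, n ≤ p → (∀ i < n, q i ≤ p) → n ≤ N p := fun p n hn hn' =>
    Nat.le_findGreatest (P := fun n => ∀ i < n, q i ≤ p) hn hn'
  have hN3 : ∀ p, N p ≤ p := fun p => Nat.findGreatest_le p
  refine ⟨fun p => insert α (x (g (N p)) p), fun p => Finset.mem_insert_self _ _,
    fun p β hβ => ?_, fun p p' hp => ?_, fun β hβ => ?_, fun p β hβ hlt γ => ?_⟩
  · rcases Finset.mem_insert.1 hβ with rfl | hβ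
    · exact le_rfl
    · exact ((h _ (hg2 _)).le p β hβ).trans (hg2 _).le
  · refine Finset.insert_subset_insert _ (((h _ (hg2 _)).mono _ _ hp).trans ?_)
    exact hchain p' (N p') (hN1 p') (N p)
      (hN2 p' _ ((hN3 p).trans hp) fun i hi => (hN1 p i hi).trans hp)
  · rcases hβ.lt_or_eq with hlt | rfl
    · obtain ⟨n, hn⟩ := hg3 β hlt
      obtain ⟨p₀, hp₀⟩ := (h _ (hg2 n)).cover β hn
      let p := p₀ + n + (Finset.range n).sup q
      have h2 : ∀ i < n, q i ≤ p := fun i hi => by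
        have : q i ≤ (Finset.range n).sup q := Finset.le_sup (Finset.mem_range.2 hi)
        omega
      refine ⟨p, Finset.mem_insert_of_mem ?_⟩
      exact hchain p (N p) (hN1 p) n (hN2 p n (by omega) h2)
        ((h _ (hg2 n)).mono _ _ (by omega) hp₀)
    · exact ⟨0, Finset.mem_insert_self _ _⟩
  · have hβ' : β ∈ x (g (N p)) p := (Finset.mem_insert.1 hβ).resolve_left hlt.ne
    rw [(h _ (hg2 _)).full hβ' γ, Finset.mem_insert]
    refine ⟨fun h' => ⟨Or.inr h'.1, h'.2⟩, fun h' => ⟨h'.1.resolve_left ?_, h'.2⟩⟩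
    exact (h'.2.trans_lt hlt).ne

end YOmegaAux

theorem exists_rho (Ω : Type) [LinearOrder Ω] [WellFoundedLT Ω]
    (hc : ∀ α : Ω, (Set.Iio α).Countable) : Nonempty (Rho Ω) := by
  obtain ⟨x, hx⟩ := wf_exists (A := ℕ → Finset Ω) (fun α x a => YOmegaAux.P α x a)
    (fun α x x' a hx h => ⟨h.self, h.le, h.mono, h.cover, fun p β hβ hlt γ => by
      rw [← hx β hlt]; exact h.coh p β hβ hlt γ⟩)
    (fun α x h => YOmegaAux.step (hc α) x h)
  exact ⟨⟨fun p α => x α p, fun p α => (hx α).self p, fun p α β h => (hx α).le p β h,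
    fun p q α h => (hx α).mono p q h, fun α β h => (hx α).cover β h,
    fun p α β h γ => (hx α).full h γ⟩⟩

open Cardinal in
theorem exists_omega (hCH : Cardinal.mk ℝ = Cardinal.aleph 1) :
    ∃ (Ω : Type) (_ : LinearOrder Ω) (_ : WellFoundedLT Ω) (_ : Infinite Ω),
      (∀ α : Ω, (Set.Iio α).Countable) ∧ ∃ idx : Sq Ω → Ω, Function.Injective idx ∧
        ∀ s i, ∀ γ ∈ (s i).2.support, γ < idx s := by
  let Ω : Type := (Cardinal.aleph 1).ord.ToType
  have hΩ : #Ω = Cardinal.aleph 1 := Cardinal.mk_ord_toType _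
  have hΩc : #Ω = 𝔠 := by rw [hΩ, ← hCH, Cardinal.mk_real]
  have hinf : Infinite Ω := Cardinal.infinite_iff.2 (by rw [hΩc]; exact Cardinal.aleph0_le_continuum)
  have hc : ∀ α : Ω, (Set.Iio α).Countable := fun α =>
    (Cardinal.countable_iff_lt_aleph_one _).2 (Cardinal.mk_Iio_toType_ord_lt α)
  have hunc : ¬ (Set.univ : Set Ω).Countable := by
    rw [Cardinal.countable_iff_lt_aleph_one, Cardinal.mk_univ, hΩ]
    exact lt_irrefl _
  have hcard : #(Sq Ω × Ω) ≤ #Ω := by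
    have h1 : #(Fn Ω) = 𝔠 := by
      rw [Cardinal.mk_finsupp_of_infinite, hΩc, Cardinal.mkRat]
      exact max_eq_left Cardinal.aleph0_le_continuum
    have h2 : #(Sq Ω) = 𝔠 := by
      rw [← Cardinal.power_def, ← Cardinal.mul_def, h1, Cardinal.mk_nat,
        Cardinal.aleph0_mul_continuum, Cardinal.continuum_power_aleph0]
    rw [← Cardinal.mul_def, h2, hΩc, Cardinal.continuum_mul_self]
  obtain ⟨e⟩ := (Cardinal.le_def _ _).1 hcard
  have key : ∀ s : Sq Ω, ∃ ξ, ∀ i, ∀ γ ∈ (s i).2.support, γ < e (s, ξ) := by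
    intro s
    by_contra hcon
    push Not at hcon
    have hB : (⋃ i, ⋃ δ ∈ ((s i).2.support : Set Ω), Set.Iic δ).Countable :=
      Set.countable_iUnion fun i => (Finset.countable_toSet _).biUnion fun δ _ => by
        rw [← Set.Iio_insert]; exact (hc δ).insert δ
    have hinj : Function.Injective fun ξ => e (s, ξ) := fun a b hab =>
      (Prod.mk.inj (e.injective hab)).2
    refine hunc ((hB.preimage_of_injOn hinj.injOn).mono fun ξ _ => ?_)
    obtain ⟨i, γ, hγ, hle⟩ := hcon ξ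
    exact Set.mem_iUnion.2 ⟨i, Set.mem_biUnion (Finset.mem_coe.2 hγ) hle⟩
  choose ξ hξ using key
  exact ⟨Ω, inferInstance, inferInstance, hinf, hc, fun s => e (s, ξ s),
    fun a b hab => (Prod.mk.inj (e.injective hab)).1, hξ⟩

end Crest.Agent.R114
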