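import Crest.Agent.R114.YGrp

/-!
# Task R114-YStage1 (ℓ¹ averages; groups with large labels norm far vectors)

`exists_l1_avg` (ℓ¹_N-averages).  Suppose none in `tailSp b n₀`.  `SupA r ρ := ∀ n, ∃ z ∈ tailSp b n, nrm z ≤ 1 ∧ ∃ ch, (∀ c < r, ch c ∈ W) ∧
successive ∧ ρ ≤ ‖ac (∑_{c<r} ch c) z‖` (pad with zeros).  `SupA 1 (1/2)` (normalise `b n`, `exists_lt_ac`).
`SupA r ρ → SupA (N r) (2ρ)`: `Chain.exists_chain`, rotate (`exists_rot`), restrict the functionals to `hull (z u)` (`W_res`, `ac_res_hull`), concatenate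
(index `c ↦ ch (c / r) (c % r)`), the average has norm `< 1/2`, double it.  With `N ^ (j+8) ≤ nn j` (`exists_pow_le_nn`): `2^(j+7) ≤ mm j`
by `sum_mem_WW`, `WW_mem_W`, `ac_le_nrm`; false.
`stage1`.  Negation: `∀ D, ∃ l n, ∀ z ∈ tailSp b n, ∀ w, Grp D l w → nrm z ≤ 1 → ‖ac w z‖ < 1/4`.  `(I, n₀)` for `D = 0`, `(J, n₁)` for `D = nn I`,
`T = max J (nn I)`, `N ≥ mm I * (4T+4)^(nn I + 1)`; `avg_ris` with `t = fun _ => T`, `S = range N`, `a = 1/N` (`MS.card_le`, `Grp.mono_depth`,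
`Grp.anti`) gives a `Lab I` functional acting by `≥ 1/4`; contradiction.
-/

set_option autoImplicit false

namespace Crest.Agent.R114

open Finsupp Finset

variable {Ω : Type} [LinearOrder Ω] {R : Rho Ω} {𝕜 : Type} [RCLike 𝕜]

namespace S1Aux

def SupA (R : Rho Ω) (b : ℕ → Ω →₀ 𝕜) (r : ℕ) (ρ : ℝ) : Prop :=
  ∀ n, ∃ z ∈ tailSp b n, nrm R z ≤ 1 ∧ ∃ ch : ℕ → Fn Ω, (∀ c < r, ch c ∈ W R) ∧
    (∀ c c', c < c' → c' < r → Succ (ch c) (ch c')) ∧ ρ ≤ ‖ac (∑ c ∈ range r, ch c : Fn Ω) z‖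

lemma sum_div_mod {M : Type} [AddCommMonoid M] (f : ℕ → ℕ → M) (r : ℕ) (hr : 0 < r) (N : ℕ) :
    ∑ c ∈ range (N * r), f (c / r) (c % r) = ∑ u ∈ range N, ∑ c ∈ range r, f u c := by
  induction N with
  | zero => simp
  | succ N ih =>
    rw [Nat.succ_mul, Finset.sum_range_add, ih, Finset.sum_range_succ]
    congr 1
    refine Finset.sum_congr rfl fun x hx => ?_
    have hx' := Finset.mem_range.1 hx
    have h1 : (N * r + x) / r = N := by
      rw [Nat.add_comm, Nat.add_mul_div_right _ _ hr, Nat.div_eq_of_lt hx', Nat.zero_add]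
    have h2 : (N * r + x) % r = x := by
      rw [Nat.add_comm, Nat.add_mul_mod_self_right, Nat.mod_eq_of_lt hx']
    rw [h1, h2]

lemma supA_one {b : ℕ → Ω →₀ 𝕜} (hne : ∀ k, b k ≠ 0) : SupA R b 1 (1 / 2) := by
  intro n
  have hp : 0 < nrm R (b n) := nrm_pos (hne n)
  have hn : nrm R ((((nrm R (b n))⁻¹ : ℝ) : 𝕜) • b n) = 1 := by
    rw [nrm_smul, RCLike.norm_ofReal, abs_of_pos (inv_pos.2 hp), inv_mul_cancel₀ hp.ne']
  obtain ⟨w, hw, hlt⟩ := exists_lt_ac (R := R) (y := (((nrm R (b n))⁻¹ : ℝ) : 𝕜) • b n)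
    (c := 1 / 2) (by rw [hn]; norm_num)
  refine ⟨_, Submodule.smul_mem _ _ (mem_tailSp b le_rfl), hn.le, fun _ => w, fun _ _ => hw,
    fun c c' h h' => by omega, ?_⟩
  simpa using hlt.le

lemma SupA.norm {b : ℕ → Ω →₀ 𝕜} {r : ℕ} {ρ : ℝ} (h : SupA R b r ρ) (n : ℕ) :
    ∃ z ∈ tailSp b n, nrm R z ≤ 1 ∧ ∃ ch : ℕ → Fn Ω, (∀ c < r, ch c ∈ W R) ∧
      (∀ c c', c < c' → c' < r → Succ (ch c) (ch c')) ∧
      (∀ c, ∀ γ ∈ (ch c).support, γ ∈ hull z) ∧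
      ρ ≤ RCLike.re (ac (∑ c ∈ range r, ch c : Fn Ω) z) := by
  obtain ⟨z, hz, hn, ch, h1, h2, h3⟩ := h n
  obtain ⟨c, hc, hr⟩ := exists_rot (𝕜 := 𝕜) (∑ c ∈ range r, ch c : Fn Ω) z
  refine ⟨c • z, Submodule.smul_mem _ _ hz, by rw [nrm_smul, hc, one_mul]; exact hn,
    fun i => res (hull (c • z)) (ch i), fun i hi => W_res (h1 i hi) (hull_ordConnected _),
    fun i i' hi hi' => (h2 i i' hi hi').restrict _ _, fun i γ hγ => (mem_support_res.1 hγ).2, ?_⟩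
  rw [← res_sum, ac_res_hull, hr]
  simpa using h3

lemma SupA.step {b : ℕ → Ω →₀ 𝕜} (hb : Chain b) {N n₀ : ℕ} (hN : 0 < N)
    (hno : ∀ z : ℕ → Ω →₀ 𝕜, Chain z → (∀ u, z u ∈ tailSp b n₀) → (∀ u, nrm R (z u) ≤ 1) →
      nrm R (∑ u ∈ range N, (((N : ℝ)⁻¹ : ℝ) : 𝕜) • z u) < 1 / 2)
    {r : ℕ} (hr : 0 < r) {ρ : ℝ} (h : SupA R b r ρ) : SupA R b (N * r) (2 * ρ) := by
  intro n
  obtain ⟨z, hz, hP⟩ := hb.exists_chain (fun _ z => nrm R z ≤ 1 ∧ ∃ ch : ℕ → Fn Ω,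
      (∀ c < r, ch c ∈ W R) ∧ (∀ c c', c < c' → c' < r → Succ (ch c) (ch c')) ∧
      (∀ c, ∀ γ ∈ (ch c).support, γ ∈ hull z) ∧
      ρ ≤ RCLike.re (ac (∑ c ∈ range r, ch c : Fn Ω) z)) (fun _ m => h.norm m) (max n n₀)
  choose hmem hn ch h1 h2 h3 h4 using hP
  have hlt := hno z hz (fun u => tailSp_anti b (by omega) (hmem u)) hn
  set x : Ω →₀ 𝕜 := ∑ u ∈ range N, (((N : ℝ)⁻¹ : ℝ) : 𝕜) • z u with hx
  have hxm : x ∈ tailSp b n :=
    Submodule.sum_mem _ fun u _ => Submodule.smul_mem _ _ (tailSp_anti b (by omega) (hmem u))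
  refine ⟨(2 : 𝕜) • x, Submodule.smul_mem _ _ hxm, ?_, fun c => ch (c / r) (c % r),
    fun c _ => h1 _ _ (Nat.mod_lt _ hr), ?_, ?_⟩
  · rw [nrm_smul, RCLike.norm_ofNat]; linarith
  · intro c c' hcc _
    rcases (Nat.div_le_div_right (c := r) hcc.le).lt_or_eq with hlt' | heq
    · exact (hz _ _ hlt').of_support_subset (h3 _ _) (h3 _ _)
    · have e1 := Nat.div_add_mod c r
      have e2 := Nat.div_add_mod c' r
      have : c % r < c' % r := by rw [heq] at e1; omega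
      simp only [heq]
      exact h2 _ _ _ this (Nat.mod_lt _ hr)
  · rw [sum_div_mod (fun u c => ch u c) r hr N]
    refine le_trans ?_ (RCLike.re_le_norm _)
    have hdiag : ∀ v ∈ range N, ac (∑ u ∈ range N, ∑ c ∈ range r, ch u c : Fn Ω) (z v) =
        ac (∑ c ∈ range r, ch v c : Fn Ω) (z v) := by
      intro v hv
      rw [ac_sum, Finset.sum_eq_single v]
      · intro u _ huv
        rw [ac_sum]
        refine Finset.sum_eq_zero fun c _ => ac_eq_zero_of_succ ?_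
        rcases lt_or_gt_of_ne huv with hl | hl
        · exact Or.inl ((hz _ _ hl).of_support_subset (h3 _ _) fun _ => mem_hull_of_mem_support)
        · exact Or.inr ((hz _ _ hl).of_support_subset (fun _ => mem_hull_of_mem_support) (h3 _ _))
      · intro hv'; exact absurd hv hv'
    rw [map_smul, hx, map_sum]
    simp only [map_smul, smul_eq_mul]
    rw [Finset.sum_congr rfl fun v hv => by rw [hdiag v hv]]
    have h2' : (2 : 𝕜) = ((2 : ℝ) : 𝕜) := by norm_cast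
    rw [h2', RCLike.re_ofReal_mul, map_sum]
    simp only [RCLike.re_ofReal_mul]
    have hN' : (0 : ℝ) < N := by exact_mod_cast hN
    have : ρ ≤ ∑ v ∈ range N, (N : ℝ)⁻¹ * RCLike.re (ac (∑ c ∈ range r, ch v c : Fn Ω) (z v)) := by
      calc ρ = ∑ _v ∈ range N, (N : ℝ)⁻¹ * ρ := by
            rw [Finset.sum_const, Finset.card_range, nsmul_eq_mul]; field_simp
        _ ≤ _ := Finset.sum_le_sum fun v _ =>
            mul_le_mul_of_nonneg_left (h4 v) (inv_nonneg.2 hN'.le)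
    linarith

end S1Aux

theorem exists_l1_avg {b : ℕ → Ω →₀ 𝕜} (hb : Chain b) (hne : ∀ k, b k ≠ 0) (N : ℕ) (hN : 0 < N)
    (n₀ : ℕ) : ∃ z : ℕ → Ω →₀ 𝕜, Chain z ∧ (∀ u, z u ∈ tailSp b n₀) ∧ (∀ u, nrm R (z u) ≤ 1) ∧
      1 / 2 ≤ nrm R (∑ u ∈ range N, (((N : ℝ)⁻¹ : ℝ) : 𝕜) • z u) := by
  by_contra hcon
  have hno : ∀ z : ℕ → Ω →₀ 𝕜, Chain z → (∀ u, z u ∈ tailSp b n₀) → (∀ u, nrm R (z u) ≤ 1) →
      nrm R (∑ u ∈ range N, (((N : ℝ)⁻¹ : ℝ) : 𝕜) • z u) < 1 / 2 := fun z h1 h2 h3 =>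
    lt_of_not_ge fun h4 => hcon ⟨z, h1, h2, h3, h4⟩
  have hall : ∀ k, S1Aux.SupA R b (N ^ k) (2 ^ k / 2) := by
    intro k
    induction k with
    | zero => simpa using S1Aux.supA_one (R := R) hne
    | succ k ih =>
      have := S1Aux.SupA.step hb hN hno (pow_pos hN k) ih
      rw [pow_succ' N k]
      convert this using 1
      ring
  obtain ⟨j, hj⟩ := exists_pow_le_nn N
  obtain ⟨z, -, hn, ch, h1, h2, h3⟩ := hall (j + 8) 0
  have h4 := ac_le_nrm (WW_mem_W (sum_mem_WW hj ch h1 h2)) z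
  rw [ac_smul, norm_mul, norm_ratCast] at h4
  have h5 : ((|((mm j : ℚ))⁻¹| : ℚ) : ℝ) = (mm j : ℝ)⁻¹ := by
    rw [abs_of_pos (inv_pos.2 (mm_pos_rat j))]; push_cast; rfl
  rw [h5, inv_mul_le_iff₀ (mm_pos j), mm_cast] at h4
  have h6 : (2 : ℝ) ^ (j + 8) / 2 = 2 * 2 ^ (j + 6) := by ring
  have h7 : (0 : ℝ) < 2 ^ (j + 6) := by positivity
  nlinarith

theorem stage1 {b : ℕ → Ω →₀ 𝕜} (hb : Chain b) (hne : ∀ k, b k ≠ 0) :
    ∃ D, Sup R b D (1 / 4) := by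
  classical
  by_contra hcon
  have hno : ∀ D, ∃ l n, ∀ z ∈ tailSp b n, ∀ w, Grp R (WW R) D l w → nrm R z ≤ 1 →
      ‖ac w z‖ < 1 / 4 := by
    intro D
    by_contra h
    refine hcon ⟨D, fun l n => ?_⟩
    by_contra h'
    exact h ⟨l, n, fun z hz w hw hn => lt_of_not_ge fun h4 => h' ⟨z, hz, w, hw, hn, h4⟩⟩
  obtain ⟨I, n₀, hI⟩ := hno 0
  obtain ⟨J, n₁, hJ⟩ := hno (nn I)
  set T := max J (nn I) with hT
  set N := mm I * (4 * T + 4) ^ (nn I + 1) with hNdef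
  have hmm : 0 < mm I := by unfold mm; positivity
  have hN : 0 < N := by positivity
  have hN' : (0 : ℝ) < N := by exact_mod_cast hN
  obtain ⟨z, hz, hmem, hn, hav⟩ := exists_l1_avg (R := R) hb hne N hN (max n₀ n₁)
  have hris := avg_ris (R := R) hz hn (t := fun _ => T) (J := I) (fun _ => le_max_right _ _)
    (fun u d l w hd hl hw => by
      have := hJ (z u) (tailSp_anti b (le_max_right _ _) (hmem u)) w
        ((hw.mono_depth hd).anti (le_trans (le_max_left _ _) hl)) (hn u)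
      linarith)
    (range N) (fun _ => (N : ℝ)⁻¹) (fun _ => inv_nonneg.2 hN'.le)
    (by rw [Finset.sum_const, Finset.card_range, nsmul_eq_mul]; field_simp)
    (fun F hF => by
      obtain ⟨hfin, hcard⟩ := hF.card_le
      unfold mass
      rw [Finset.sum_const, nsmul_eq_mul]
      have hc : ((range N).filter (· ∈ F)).card ≤ (4 * T + 4) ^ (nn I + 1) := by
        refine le_trans ?_ hcard
        rw [← Set.ncard_coe_finset]
        exact Set.ncard_le_ncard (fun u hu => (Finset.mem_filter.1 hu).2) hfin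
      have hc' : (((range N).filter (· ∈ F)).card : ℝ) ≤ ((4 * T + 4) ^ (nn I + 1) : ℕ) := by
        exact_mod_cast hc
      have hm := mm_pos I
      rw [← div_eq_mul_inv, div_le_div_iff₀ hN' hm, hNdef, Nat.cast_mul, one_mul, mul_comm]
      convert mul_le_mul_of_nonneg_left hc' hm.le using 2)
    hav
  obtain ⟨h1, -, w, hw, h2⟩ := hris
  have := hI _ (Submodule.sum_mem _ fun u _ => Submodule.smul_mem _ _
    (tailSp_anti b (le_max_left _ _) (hmem u))) w hw h1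
  linarith

end Crest.Agent.R114
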