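import Crest.Agent.R114.YStage1
import Crest.Agent.R114.YCode

/-!
# Task R114-YStage2 (existence of rapidly increasing sequences in every block subspace)

`stage2`.  Suppose no `RISvec J` in `tailSp b n₀`.  Then `Sup D ρ → Sup (D + nn J + 2) (2ρ)`: chain `z u` with `w u ∈ Grp D u` (rotated, restricted to the
hull), `t u ≥ nn J` with `2 l1 (z u) / mm (t u) ≤ 1` (`exists_div_mm_le`, `Grp.ac_le`), `averaging` with `lam = id`, `d = nn J + 1`, `ε = 1/mm J`;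
the average has norm `< 1/2` by `avg_ris`.  Iterate `j + 9` times from `stage1` with `exists_lin_le_nn`; `Grp.mem_WW` gives `ρ ≤ mm j`; false.
`exists_RIS`.  `Chain.exists_chain_dep` with `A = (Ω →₀ 𝕜) × ℕ × ℕ × Fn Ω` (`x, a, bb, w`): given the history `l`, choose `a ≥ nn j + l.length`, `≥` all earlier `bb`,
`≥ p₀` of `Rho.exists_cover` for the union of the earlier supports; `x` from `stage2` (rotated), `w` restricted to the hull; `bb ≥ a` from
`exists_div_mm_le`.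
-/

set_option autoImplicit false

namespace Crest.Agent.R114

open Finsupp Finset

variable {Ω : Type} [LinearOrder Ω] {R : Rho Ω} {𝕜 : Type} [RCLike 𝕜]

namespace Stage2

lemma rot (w : Fn Ω) (z : Ω →₀ 𝕜) : ∃ c : 𝕜, ‖c‖ = 1 ∧
    RCLike.re (ac (res (hull (c • z)) w) (c • z)) = ‖ac w z‖ := by
  obtain ⟨c, hc, h⟩ := exists_rot w z
  exact ⟨c, hc, by rw [ac_res_hull, h, RCLike.ofReal_re]⟩

lemma step {b : ℕ → Ω →₀ 𝕜} (hb : Chain b) {J n₀ : ℕ} (hno : ∀ x ∈ tailSp b n₀, ¬ RISvec R J x)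
    {D : ℕ} {ρ : ℝ} (h : Sup R b D ρ) : Sup R b (D + (nn J + 2)) (2 * ρ) := by
  intro l n
  obtain ⟨z, hz, hz'⟩ := hb.exists_chain (fun u z => nrm R z ≤ 1 ∧ ∃ w, Grp R (WW R) D u w ∧
      (∀ γ ∈ w.support, γ ∈ hull z) ∧ ρ ≤ RCLike.re (ac w z)) (fun u n => by
    obtain ⟨z, hz, w, hw, h1, h2⟩ := h u n
    obtain ⟨c, hc, h3⟩ := rot w z
    exact ⟨c • z, Submodule.smul_mem _ _ hz, by rwa [nrm_smul, hc, one_mul], res (hull (c • z)) w,
      hw.restrict (hull_ordConnected _), fun γ hγ => (mem_support_res.1 hγ).2, h3 ▸ h2⟩) (n₀ + n)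
  choose w hw hh hρ using fun u => (hz' u).2.2
  choose t ht using fun u => exists_div_mm_le (2 * l1 (z u)) 1 one_pos
  have hcw : Chain w := fun u v huv => (hz u v huv).of_support_subset (hh u) (hh v)
  obtain ⟨S, a, -, ha, hsum, hm, hG⟩ := averaging (fun u => max (nn J) (t u)) id Filter.tendsto_id w
    hcw D hw (nn J + 1) (1 / mm J) (one_div_pos.2 (mm_pos J)) l 0
  have hx : ∑ u ∈ S, (a u : 𝕜) • z u ∈ tailSp b (n₀ + n) :=
    Submodule.sum_mem _ fun u _ => Submodule.smul_mem _ _ (tailSp_anti b (by omega) (hz' u).1)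
  have h1 : nrm R (∑ u ∈ S, (a u : 𝕜) • z u) < 1 / 2 := by
    by_contra h1
    exact hno _ (tailSp_anti b (by omega) hx) (avg_ris hz (fun u => (hz' u).2.1)
      (fun u => le_max_left _ _) (fun u d l w _ hl hw => (hw.ac_le _).trans
        (ht u l ((le_max_right _ _).trans hl))) S a ha hsum hm (not_lt.1 h1))
  have h2 : ∀ u ∈ S, ac (∑ v ∈ S, w v : Fn Ω) (z u) = ac (w u) (z u) := fun u hu => by
    rw [ac_sum]
    refine Finset.sum_eq_single_of_mem u hu fun v _ hv => ac_eq_zero_of_succ ?_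
    rcases lt_or_gt_of_ne hv with h' | h'
    · exact .inl ((hz v u h').of_support_subset (hh v) fun _ => mem_hull_of_mem_support)
    · exact .inr ((hz u v h').of_support_subset (fun _ => mem_hull_of_mem_support) (hh v))
  refine ⟨(2 : 𝕜) • ∑ u ∈ S, (a u : 𝕜) • z u, Submodule.smul_mem _ _ (tailSp_anti b (by omega) hx),
    ∑ u ∈ S, w u, hG, ?_, ?_⟩
  · rw [nrm_smul, RCLike.norm_two]; linarith
  · rw [map_smul, norm_smul, RCLike.norm_two, map_sum]
    refine mul_le_mul_of_nonneg_left (le_trans ?_ (RCLike.re_le_norm _)) two_pos.le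
    rw [map_sum, ← one_mul ρ, ← hsum, Finset.sum_mul]
    refine Finset.sum_le_sum fun u hu => ?_
    rw [map_smul, h2 u hu, smul_eq_mul, RCLike.re_ofReal_mul]
    exact mul_le_mul_of_nonneg_left (hρ u) (ha u)

end Stage2

theorem stage2 {b : ℕ → Ω →₀ 𝕜} (hb : Chain b) (hne : ∀ k, b k ≠ 0) (J n : ℕ) :
    ∃ x ∈ tailSp b n, RISvec R J x := by
  by_contra hno
  push Not at hno
  obtain ⟨D, hD⟩ := stage1 (R := R) hb hne
  have key : ∀ k : ℕ, Sup R b (D + k * (nn J + 2)) (2 ^ k * (1 / 4)) := by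
    intro k
    induction k with
    | zero => simpa using hD
    | succ k ih =>
      have := Stage2.step hb hno ih
      rwa [add_assoc, ← Nat.succ_mul, ← mul_assoc, ← pow_succ'] at this
  obtain ⟨j, hj⟩ := exists_lin_le_nn D (nn J + 2)
  obtain ⟨z, -, w, hw, h1, h2⟩ := key (j + 9) 0 0
  have h3 := (ac_le_nrm (WW_mem_W (hw.mem_WW (j := j) (le_trans (by gcongr; omega) hj))) z).trans h1
  rw [ac_smul, norm_mul, norm_ratCast, abs_of_pos (inv_pos.2 (mm_pos_rat j))] at h3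
  push_cast at h3
  rw [inv_mul_le_iff₀ (mm_pos j), mm_cast] at h3
  have h4 : (2 : ℝ) ^ (j + 9) = 8 * 2 ^ (j + 6) := by ring
  have h5 : (0 : ℝ) < 2 ^ (j + 6) := by positivity
  linarith

theorem exists_RIS {b : ℕ → Ω →₀ 𝕜} (hb : Chain b) (hne : ∀ k, b k ≠ 0) (j : ℕ) :
    ∃ x a bb w, RIS R b j x a bb w := by
  classical
  have : Nonempty Ω := ⟨(Finsupp.support_nonempty_iff.2 (hne 0)).choose⟩
  obtain ⟨z, h1, h2, h3⟩ := hb.exists_chain_dep (A := (Ω →₀ 𝕜) × ℕ × ℕ × Fn Ω) Prod.fst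
    (fun L q => nrm R q.1 ≤ 1 ∧ (∀ i < q.2.1, ∀ g, (i, g) ∈ WW R → ‖ac g q.1‖ ≤ 2 / mm i) ∧
      2 * l1 q.1 / mm q.2.2.1 ≤ 1 / mm (j + L.length) ∧ q.2.1 ≤ q.2.2.1 ∧
      (∀ q' ∈ L, q'.2.2.1 ≤ q.2.1) ∧ nn j + L.length ≤ q.2.1 ∧
      (∀ p, q.2.1 ≤ p → ∃ ζ, ∀ q' ∈ L, q'.1.support ⊆ R.F p ζ) ∧ Lab R (WW R) q.2.1 q.2.2.2 ∧
      (∀ γ ∈ q.2.2.2.support, γ ∈ hull q.1) ∧ 1 / 4 ≤ RCLike.re (ac q.2.2.2 q.1)) (fun L n => by
    obtain ⟨ζ, p₀, hp⟩ := R.exists_cover (L.toFinset.biUnion fun q => q.1.support)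
    obtain ⟨a, ha1, ha2, ha3⟩ : ∃ a, nn j + L.length ≤ a ∧ p₀ ≤ a ∧
        L.toFinset.sup (fun q => q.2.2.1) ≤ a :=
      ⟨nn j + L.length + p₀ + L.toFinset.sup (fun q => q.2.2.1), by omega, by omega, by omega⟩
    obtain ⟨x, hx, hx1, hx2, w, hw, hx3⟩ := stage2 (R := R) hb hne a n
    obtain ⟨c, hc, h3⟩ := Stage2.rot w x
    obtain ⟨t, ht⟩ := exists_div_mm_le (2 * l1 (c • x)) (1 / mm (j + L.length))
      (one_div_pos.2 (mm_pos _))
    refine ⟨(c • x, a, max a t, res (hull (c • x)) w), Submodule.smul_mem _ _ hx,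
      by rwa [nrm_smul, hc, one_mul], fun i hi g hg => ?_, ht _ (le_max_right _ _), le_max_left _ _,
      fun q hq => (Finset.le_sup (f := fun q : (Ω →₀ 𝕜) × ℕ × ℕ × Fn Ω => q.2.2.1)
        (List.mem_toFinset.2 hq)).trans ha3, ha1,
      fun p h => ⟨ζ, fun q hq => (Finset.subset_biUnion_of_mem (fun q : (Ω →₀ 𝕜) × ℕ × ℕ × Fn Ω =>
        q.1.support) (List.mem_toFinset.2 hq)).trans (hp p (ha2.trans h))⟩,
      hw.restrict (hull_ordConnected _), fun γ hγ => (mem_support_res.1 hγ).2, h3 ▸ hx3⟩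
    rw [map_smul, norm_smul, hc, one_mul]
    exact hx2 i hi g hg) 0
  simp only [List.length_map, List.length_range, List.forall_mem_map, List.mem_range] at h3
  exact ⟨fun l => (z l).1, fun l => (z l).2.1, fun l => (z l).2.2.1, fun l => (z l).2.2.2,
    fun l => by simpa using h2 l, h1, fun l => (h3 l).1, fun l => (h3 l).2.1, fun l => (h3 l).2.2.1,
    fun l => (h3 l).2.2.2.1, fun l => (h3 (l + 1)).2.2.2.2.1 l (Nat.lt_succ_self l),
    fun l => (h3 l).2.2.2.2.2.1, fun l p hp => ((h3 (l + 1)).2.2.2.2.2.2.1 p hp).imp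
      fun ζ h l' hl' => h l' (Nat.lt_succ_of_le hl'), fun l => (h3 l).2.2.2.2.2.2.2.1,
    fun l => (h3 l).2.2.2.2.2.2.2.2.1, fun l => (h3 l).2.2.2.2.2.2.2.2.2⟩

end Crest.Agent.R114
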